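import Crest.Agent.R189.Basic

/-! Row 189, block B2: the absolute picture of a hierarchical tiling, LOC and COUNT (helper85). -/

set_option autoImplicit false

noncomputable section

namespace Crest.Agent.R189.B2

open Finset

/-- `pos j x` = position of the origin modulo the lattice `w j ℤ × h j ℤ` of level-`j` centres; `E x`, `N x` = colours of the east and
north edges of the origin cell. -/
structure Abs (X : Type) [TopologicalSpace X] [AddAction V X] (Col : Type) where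
  w : ℕ → ℕ
  h : ℕ → ℕ
  le_w : ∀ j, j < w j
  le_h : ∀ j, j < h j
  w_dvd : ∀ j, w j ∣ w (j + 1)
  h_dvd : ∀ j, h j ∣ h (j + 1)
  pos : ℕ → X → V
  pos_vadd : ∀ (j : ℕ) (v : V) (x : X), (w j : ℤ) ∣ (pos j (v +ᵥ x)).1 - v.1 - (pos j x).1 ∧
    (h j : ℤ) ∣ (pos j (v +ᵥ x)).2 - v.2 - (pos j x).2
  pos_succ : ∀ (j : ℕ) (x : X), (w j : ℤ) ∣ (pos (j + 1) x).1 - (pos j x).1 ∧ (h j : ℤ) ∣ (pos (j + 1) x).2 - (pos j x).2
  E : X → Col
  N : X → Col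
  E_lc : IsLocallyConstant E
  N_lc : IsLocallyConstant N
  ownE : ∀ (j : ℕ) (x y : X), (w (j + 1) : ℤ) ∣ (pos (j + 1) x).1 - (pos (j + 1) y).1 →
    (h (j + 1) : ℤ) ∣ (pos (j + 1) x).2 - (pos (j + 1) y).2 → ¬ (h j : ℤ) ∣ (pos j x).2 → E x = E y
  ownN : ∀ (j : ℕ) (x y : X), (w (j + 1) : ℤ) ∣ (pos (j + 1) x).1 - (pos (j + 1) y).1 →
    (h (j + 1) : ℤ) ∣ (pos (j + 1) x).2 - (pos (j + 1) y).2 → ¬ (w j : ℤ) ∣ (pos j x).1 → N x = N y
  conE : ∀ (j : ℕ) (x : X), (h j : ℤ) ∣ (pos j x).2 → ¬ (w j : ℤ) ∣ (pos j x).1 → E (((-1, 0) : V) +ᵥ x) = E x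
  conN : ∀ (j : ℕ) (x : X), (w j : ℤ) ∣ (pos j x).1 → ¬ (h j : ℤ) ∣ (pos j x).2 → N (((0, -1) : V) +ᵥ x) = N x
  det : ∀ {β : Type} (f : X → β), IsLocallyConstant f → ∃ r : ℕ, ∀ x y : X, (w 1 : ℤ) ∣ (pos 1 x).1 - (pos 1 y).1 →
    (h 1 : ℤ) ∣ (pos 1 x).2 - (pos 1 y).2 → (∀ u ∈ box r, E (u +ᵥ x) = E (u +ᵥ y) ∧ N (u +ᵥ x) = N (u +ᵥ y)) → f x = f y

namespace Abs

variable {X : Type} [TopologicalSpace X] [AddAction V X] {Col : Type} (A : Abs X Col)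

/-- same position modulo level `j` -/
def Same (j : ℕ) (x y : X) : Prop :=
  (A.w j : ℤ) ∣ (A.pos j x).1 - (A.pos j y).1 ∧ (A.h j : ℤ) ∣ (A.pos j x).2 - (A.pos j y).2

/-- the origin is a level-`j` centre -/
def Cen (j : ℕ) (x : X) : Prop := (A.w j : ℤ) ∣ (A.pos j x).1 ∧ (A.h j : ℤ) ∣ (A.pos j x).2

/-- the tile at the origin: W, E, S, N -/
def T (x : X) : Col × Col × Col × Col := (A.E (((-1, 0) : V) +ᵥ x), A.E x, A.N (((0, -1) : V) +ᵥ x), A.N x)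

variable {A}

theorem w_le {i j : ℕ} (h : i ≤ j) : (A.w i : ℤ) ∣ A.w j := by
  induction j, h using Nat.le_induction with
  | base => rfl
  | succ j _ ih => exact ih.trans (Int.natCast_dvd_natCast.2 (A.w_dvd j))

theorem h_le {i j : ℕ} (h : i ≤ j) : (A.h i : ℤ) ∣ A.h j := by
  induction j, h using Nat.le_induction with
  | base => rfl
  | succ j _ ih => exact ih.trans (Int.natCast_dvd_natCast.2 (A.h_dvd j))

theorem pos_le {i j : ℕ} (h : i ≤ j) (x : X) :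
    (A.w i : ℤ) ∣ (A.pos j x).1 - (A.pos i x).1 ∧ (A.h i : ℤ) ∣ (A.pos j x).2 - (A.pos i x).2 := by
  induction j, h using Nat.le_induction with
  | base => simp
  | succ j hij ih =>
    have h1 := dvd_add ((w_le hij).trans (A.pos_succ j x).1) ih.1
    have h2 := dvd_add ((h_le hij).trans (A.pos_succ j x).2) ih.2
    rw [sub_add_sub_cancel] at h1 h2
    exact ⟨h1, h2⟩

theorem Same.le {i j : ℕ} {x y : X} (s : A.Same j x y) (h : i ≤ j) : A.Same i x y := by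
  have h1 := dvd_add (dvd_sub ((w_le h).trans s.1) (pos_le h x).1) (pos_le h y).1
  have h2 := dvd_add (dvd_sub ((h_le h).trans s.2) (pos_le h x).2) (pos_le h y).2
  exact ⟨(congrArg _ (by ring)).mp h1, (congrArg _ (by ring)).mp h2⟩

theorem Same.vadd {j : ℕ} {x y : X} (s : A.Same j x y) (v : V) : A.Same j (v +ᵥ x) (v +ᵥ y) := by
  have h1 := dvd_add (dvd_sub (A.pos_vadd j v x).1 (A.pos_vadd j v y).1) s.1
  have h2 := dvd_add (dvd_sub (A.pos_vadd j v x).2 (A.pos_vadd j v y).2) s.2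
  exact ⟨(congrArg _ (by ring)).mp h1, (congrArg _ (by ring)).mp h2⟩

theorem Cen.le {i j : ℕ} {x : X} (c : A.Cen j x) (h : i ≤ j) : A.Cen i x := by
  have h1 := dvd_sub ((w_le h).trans c.1) (pos_le h x).1
  have h2 := dvd_sub ((h_le h).trans c.2) (pos_le h x).2
  rw [sub_sub_cancel] at h1 h2
  exact ⟨h1, h2⟩

theorem Cen.same {j : ℕ} {x y : X} (c : A.Cen j x) (c' : A.Cen j y) : A.Same j x y := ⟨dvd_sub c.1 c'.1, dvd_sub c.2 c'.2⟩

theorem Cen.iff1 {j : ℕ} {x : X} (c : A.Cen j x) (v : V) : (A.w j : ℤ) ∣ (A.pos j (v +ᵥ x)).1 ↔ (A.w j : ℤ) ∣ v.1 := by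
  have h := dvd_add (A.pos_vadd j v x).1 c.1
  rw [sub_add_cancel] at h
  exact dvd_iff_dvd_of_dvd_sub h

theorem Cen.iff2 {j : ℕ} {x : X} (c : A.Cen j x) (v : V) : (A.h j : ℤ) ∣ (A.pos j (v +ᵥ x)).2 ↔ (A.h j : ℤ) ∣ v.2 := by
  have h := dvd_add (A.pos_vadd j v x).2 c.2
  rw [sub_add_cancel] at h
  exact dvd_iff_dvd_of_dvd_sub h

theorem Cen.vadd {j : ℕ} {x : X} (c : A.Cen j x) {v : V} (h1 : (A.w j : ℤ) ∣ v.1) (h2 : (A.h j : ℤ) ∣ v.2) :
    A.Cen j (v +ᵥ x) := ⟨(c.iff1 v).2 h1, (c.iff2 v).2 h2⟩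

/-- own edges, seen from centres -/
theorem Cen.ownE {j : ℕ} {x y : X} (c : A.Cen j x) (s : A.Same (j + 1) x y) {v : V} (h : ¬ (A.h j : ℤ) ∣ v.2) :
    A.E (v +ᵥ x) = A.E (v +ᵥ y) := A.ownE j _ _ (s.vadd v).1 (s.vadd v).2 (by rwa [c.iff2])

theorem Cen.ownN {j : ℕ} {x y : X} (c : A.Cen j x) (s : A.Same (j + 1) x y) {v : V} (h : ¬ (A.w j : ℤ) ∣ v.1) :
    A.N (v +ᵥ x) = A.N (v +ᵥ y) := A.ownN j _ _ (s.vadd v).1 (s.vadd v).2 (by rwa [c.iff1])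

theorem not_dvd_of {w : ℕ} {i : ℤ} (h0 : i ≠ 0) (h1 : -(w : ℤ) < i) (h2 : i < w) : ¬ (w : ℤ) ∣ i := fun h =>
  h0 (Int.eq_zero_of_dvd_of_natAbs_lt_natAbs h (by omega))

/-- the wires are constant between centres -/
theorem Cen.wireE {j : ℕ} {x : X} (c : A.Cen j x) {i : ℤ} (h1 : -(A.w j : ℤ) ≤ i) (h2 : i < A.w j) :
    A.E (((i, 0) : V) +ᵥ x) = if i < 0 then A.E (((-1, 0) : V) +ᵥ x) else A.E x := by
  have st : ∀ i : ℤ, i ≠ 0 → -(A.w j : ℤ) < i → i < A.w j → A.E (((i - 1, 0) : V) +ᵥ x) = A.E (((i, 0) : V) +ᵥ x) :=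
    fun i h0 h1 h2 => by
      rw [← A.conE j _ ((c.iff2 (i, 0)).2 (dvd_zero _)) (by rw [c.iff1]; exact not_dvd_of h0 h1 h2), vadd_vadd]
      congr 2
      ext <;> simp
      ring
  induction i using Int.induction_on with
  | zero => simp [show ((0, 0) : V) = 0 from rfl]
  | succ i ih =>
    rw [← st _ (by omega) (by omega) h2, add_sub_cancel_right, ih (by omega) (by omega), if_neg (by omega), if_neg (by omega)]
  | pred i ih =>
    rcases Nat.eq_zero_or_pos i with rfl | hi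
    · simp
    · rw [st _ (by omega) (by omega) (by omega), ih (by omega) (by omega), if_pos (by omega), if_pos (by omega)]

theorem Cen.wireN {j : ℕ} {x : X} (c : A.Cen j x) {i : ℤ} (h1 : -(A.h j : ℤ) ≤ i) (h2 : i < A.h j) :
    A.N (((0, i) : V) +ᵥ x) = if i < 0 then A.N (((0, -1) : V) +ᵥ x) else A.N x := by
  have st : ∀ i : ℤ, i ≠ 0 → -(A.h j : ℤ) < i → i < A.h j → A.N (((0, i - 1) : V) +ᵥ x) = A.N (((0, i) : V) +ᵥ x) :=
    fun i h0 h1 h2 => by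
      rw [← A.conN j _ ((c.iff1 (0, i)).2 (dvd_zero _)) (by rw [c.iff2]; exact not_dvd_of h0 h1 h2), vadd_vadd]
      congr 2
      ext <;> simp
      ring
  induction i using Int.induction_on with
  | zero => simp [show ((0, 0) : V) = 0 from rfl]
  | succ i ih =>
    rw [← st _ (by omega) (by omega) h2, add_sub_cancel_right, ih (by omega) (by omega), if_neg (by omega), if_neg (by omega)]
  | pred i ih =>
    rcases Nat.eq_zero_or_pos i with rfl | hi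
    · simp
    · rw [st _ (by omega) (by omega) (by omega), ih (by omega) (by omega), if_pos (by omega), if_pos (by omega)]

/-- (LOC) around a level-`j` centre all edges are determined by the position modulo level `j+1` and the relevant edges of the centre -/
theorem Cen.locE {j : ℕ} {x y : X} (c : A.Cen j x) (c' : A.Cen j y) (s : A.Same (j + 1) x y) {u : V}
    (h1 : -(A.w j : ℤ) ≤ u.1 ∧ u.1 < A.w j) (h2 : -(A.h j : ℤ) < u.2 ∧ u.2 < A.h j)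
    (hW : u.2 = 0 → u.1 < 0 → (A.T x).1 = (A.T y).1) (hE : u.2 = 0 → 0 ≤ u.1 → (A.T x).2.1 = (A.T y).2.1) :
    A.E (u +ᵥ x) = A.E (u +ᵥ y) := by
  by_cases h0 : u.2 = 0
  · rw [show u = (u.1, 0) from Prod.ext rfl h0, c.wireE h1.1 h1.2, c'.wireE h1.1 h1.2]
    split_ifs with h
    · exact hW h0 h
    · exact hE h0 (by omega)
  · exact c.ownE s (not_dvd_of h0 h2.1 h2.2)

theorem Cen.locN {j : ℕ} {x y : X} (c : A.Cen j x) (c' : A.Cen j y) (s : A.Same (j + 1) x y) {u : V}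
    (h1 : -(A.w j : ℤ) < u.1 ∧ u.1 < A.w j) (h2 : -(A.h j : ℤ) ≤ u.2 ∧ u.2 < A.h j)
    (hS : u.1 = 0 → u.2 < 0 → (A.T x).2.2.1 = (A.T y).2.2.1) (hN : u.1 = 0 → 0 ≤ u.2 → (A.T x).2.2.2 = (A.T y).2.2.2) :
    A.N (u +ᵥ x) = A.N (u +ᵥ y) := by
  by_cases h0 : u.1 = 0
  · rw [show u = (0, u.2) from Prod.ext h0 rfl, c.wireN h2.1 h2.2, c'.wireN h2.1 h2.2]
    split_ifs with h
    · exact hS h0 h
    · exact hN h0 (by omega)
  · exact c.ownN s (not_dvd_of h0 h1.1 h1.2)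

end Abs

end Crest.Agent.R189.B2
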