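import Crest.Agent.R189.B2.Cell

/-! Row 189, block B2: own edges and wires in absolute coordinates (helper85). -/

set_option autoImplicit false

namespace Crest.Agent.R189.B2

/-- sizes of the cells and "the origin is a level-`j` centre" -/
structure TwS (Wd Hd : ℕ → ℤ → ℤ) (Cn : ℕ → ℤ → (V → Tile) → Prop) : Prop where
  W0 : ∀ v, Wd 0 v = 1
  H0 : ∀ v, Hd 0 v = 1
  Ws : ∀ j v, Wd (j + 1) v = 16 * v * Hd j (2 * v)
  Hs : ∀ j v, Hd (j + 1) v = 2 * Wd j (2 * v)
  succ : ∀ {j v x}, Cn (j + 1) v x → Cn j (2 * v) (defl v 0 x)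
  rel : ∀ {j v x}, 1 ≤ v → Cn (j + 2) v x → Rel v 0 x (defl v 0 x)

theorem div_cong {n k a b : ℤ} (hn : 0 < n) (h : n * k ∣ a - b) : k ∣ a / n - b / n ∧ a % n = b % n := by
  obtain ⟨c, hc⟩ := h
  obtain rfl : a = b + n * (k * c) := by linarith
  rw [Int.add_mul_ediv_left _ _ hn.ne', Int.add_mul_emod_self_left]
  exact ⟨by simp, rfl⟩

theorem dvd_div_iff {n k a : ℤ} (hn : 0 < n) (h : a % n = 0) : k ∣ a / n ↔ n * k ∣ a := by
  obtain ⟨c, rfl⟩ := Int.dvd_of_emod_eq_zero h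
  rw [Int.mul_ediv_cancel_left _ hn.ne', mul_dvd_mul_iff_left hn.ne']

namespace TwS

variable {Wd Hd : ℕ → ℤ → ℤ} {Cn : ℕ → ℤ → (V → Tile) → Prop} (S : TwS Wd Hd Cn)
include S

theorem dvd (j : ℕ) : ∀ v, Wd j v ∣ Wd (j + 1) v ∧ Hd j v ∣ Hd (j + 1) v := by
  induction j with
  | zero => intro v; simp [S.W0, S.H0]
  | succ j ih =>
    intro v
    rw [S.Ws j, S.Ws (j + 1), S.Hs j v, S.Hs (j + 1) v]
    exact ⟨mul_dvd_mul_left _ (ih _).2, mul_dvd_mul_left _ (ih _).1⟩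

theorem dvd_le {i j : ℕ} (h : i ≤ j) (v : ℤ) : Wd i v ∣ Wd j v ∧ Hd i v ∣ Hd j v := by
  induction j, h using Nat.le_induction with
  | base => exact ⟨dvd_rfl, dvd_rfl⟩
  | succ j _ ih => exact ⟨ih.1.trans (S.dvd j v).1, ih.2.trans (S.dvd j v).2⟩

theorem lt (j : ℕ) : ∀ v, 1 ≤ v → (j : ℤ) < Wd j v ∧ (j : ℤ) < Hd j v := by
  induction j with
  | zero => intro v _; simp [S.W0, S.H0]
  | succ j ih =>
    intro v hv
    have := ih (2 * v) (by omega)
    rw [S.Ws, S.Hs]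
    push_cast
    constructor <;> nlinarith [this.1, this.2]

/-- `Hd (2 t) = 2 ^ t * Wd (2 t)` -/
theorem H_even (t : ℕ) : ∀ v, Hd (2 * t) v = 2 ^ t * Wd (2 * t) v := by
  induction t with
  | zero => intro v; simp [S.W0, S.H0]
  | succ t ih =>
    intro v
    rw [show 2 * (t + 1) = 2 * t + 1 + 1 by ring, S.Hs, S.Ws, S.Ws, S.Hs, ih]
    ring

theorem own (j : ℕ) : ∀ {v : ℤ} {x y : V → Tile} {p p' : V}, 1 ≤ v → Cn (j + 1) v x → Cn (j + 1) v y →
    Wd (j + 1) v ∣ p.1 - p'.1 → Hd (j + 1) v ∣ p.2 - p'.2 →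
    (¬ Hd j v ∣ p.2 → (x p).E = (y p').E) ∧ (¬ Wd j v ∣ p.1 → (x p).N = (y p').N) := by
  induction j with
  | zero => intro v x y p p' _ _ _ _ _; simp [S.W0, S.H0]
  | succ j ih =>
    intro v x y p p' hv hx hy h1 h2
    have rx := S.rel hv hx
    have ry := S.rel hv hy
    rw [S.Ws] at h1
    rw [S.Hs] at h2
    obtain ⟨a1, a2⟩ := div_cong (by omega) h1
    obtain ⟨b1, b2⟩ := div_cong (by omega) h2
    have i := ih (v := 2 * v) (p := up v 0 p) (p' := up v 0 p') (by omega) (S.succ hx) (S.succ hy)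
      (by simpa [up] using b1) (by simpa [up] using a1)
    have c1 : (up v 0 p).1 % (32 * v) = (up v 0 p').1 % (32 * v) := by
      rw [S.Ws, show 16 * (2 * v) = 32 * v by ring] at b1
      exact (div_cong (by omega) (by simpa [up] using b1)).2
    have c2 : (up v 0 p).2 % 2 = (up v 0 p').2 % 2 := by
      rw [S.Hs] at a1
      exact (div_cong (by omega) (by simpa [up] using a1)).2
    refine ⟨fun h => ?_, fun h => ?_⟩
    · rcases Int.emod_two_eq_zero_or_one p.2 with e | e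
      · rw [rx.wireH p e, ry.wireH p' (b2 ▸ e)]
        refine i.2 fun h' => h ?_
        rw [S.Hs, ← dvd_div_iff (by omega) e]
        simpa [up] using h'
      · rw [rx.ownH p e, ry.ownH p' (b2 ▸ e), ownH_congr hv a2 c1 c2]
    · by_cases e : p.1 % (16 * v) = 0
      · rw [rx.wireV p e, ry.wireV p' (a2 ▸ e)]
        refine i.1 fun h' => h ?_
        rw [S.Ws, ← dvd_div_iff (by omega) e]
        simpa [up] using h'
      · rw [rx.ownV p e, ry.ownV p' (a2 ▸ e), ownV_congr hv a2 b2 c1 c2]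

theorem con (j : ℕ) : ∀ {v : ℤ} {x : V → Tile} {p : V}, 1 ≤ v → Cn (j + 1) v x →
    (Hd j v ∣ p.2 → ¬ Wd j v ∣ p.1 → (x (p.1 - 1, p.2)).E = (x p).E) ∧
    (Wd j v ∣ p.1 → ¬ Hd j v ∣ p.2 → (x (p.1, p.2 - 1)).N = (x p).N) := by
  induction j with
  | zero => intro v x p _ _; simp [S.W0, S.H0]
  | succ j ih =>
    intro v x p hv hx
    have rx := S.rel hv hx
    have i := ih (v := 2 * v) (p := up v 0 p) (by omega) (S.succ hx)
    rw [S.Ws, S.Hs]
    refine ⟨fun h h' => ?_, fun h h' => ?_⟩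
    · have e : p.2 % 2 = 0 := Int.emod_eq_zero_of_dvd ((dvd_mul_right _ _).trans h)
      rw [rx.wireH p e, rx.wireH (p.1 - 1, p.2) e, up_west hv]
      split_ifs with e'
      · rw [← dvd_div_iff (by omega) e] at h
        rw [← dvd_div_iff (by omega) e'] at h'
        exact i.2 (by simpa [up] using h) (by simpa [up] using h')
      · rfl
    · have e : p.1 % (16 * v) = 0 := Int.emod_eq_zero_of_dvd ((dvd_mul_right _ _).trans h)
      rw [rx.wireV p e, rx.wireV (p.1, p.2 - 1) e, up_south]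
      split_ifs with e'
      · rw [← dvd_div_iff (by omega) e] at h
        rw [← dvd_div_iff (by omega) e'] at h'
        exact i.1 (by simpa [up] using h) (by simpa [up] using h')
      · rfl

end TwS

end Crest.Agent.R189.B2
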