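import Crest.Agent.R189.B2.Tiles

/-! Row 189, block B2: arithmetic of the positions (piecewise linear forms, ready for `omega`). -/

set_option autoImplicit false

namespace Crest.Agent.R189.B2

theorem div_mod_of {n X q r : ℤ} (hn : 0 < n) (h0 : 0 ≤ r) (h1 : r < n) (h : X = n * q + r) :
    X / n = q ∧ X % n = r := (Int.ediv_emod_unique hn).2 ⟨by omega, h0, h1⟩

theorem mod_bd {n : ℤ} (hn : 0 < n) (X : ℤ) : 0 ≤ X % n ∧ X % n < n :=
  ⟨Int.emod_nonneg _ hn.ne', Int.emod_lt_of_pos _ hn⟩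

theorem pred_of_eq {n X : ℤ} (hn : 0 < n) (h : X % n = 0) : (X - 1) / n = X / n - 1 ∧ (X - 1) % n = n - 1 :=
  div_mod_of hn (by omega) (by omega) (by have := Int.mul_ediv_add_emod X n; rw [mul_sub]; omega)

theorem pred_of_ne {n X : ℤ} (hn : 0 < n) (h : X % n ≠ 0) :
    (X - 1) / n = X / n ∧ (X - 1) % n = X % n - 1 := by
  have := mod_bd hn X
  exact div_mod_of hn (by omega) (by omega) (by have := Int.mul_ediv_add_emod X n; omega)

theorem succ_of_eq {n X : ℤ} (hn : 0 < n) (h : X % n = n - 1) : (X + 1) / n = X / n + 1 ∧ (X + 1) % n = 0 :=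
  div_mod_of hn (by omega) (by omega) (by have := Int.mul_ediv_add_emod X n; rw [mul_add]; omega)

theorem succ_of_ne {n X : ℤ} (hn : 0 < n) (h : X % n ≠ n - 1) :
    (X + 1) / n = X / n ∧ (X + 1) % n = X % n + 1 := by
  have := mod_bd hn X
  exact div_mod_of hn (by omega) (by omega) (by have := Int.mul_ediv_add_emod X n; omega)

/-- quarters: `X % (4 w) = w j + r` -/
theorem quarter {w : ℤ} (hw : 0 < w) (X : ℤ) : ∃ j r : ℤ, 0 ≤ j ∧ j ≤ 3 ∧ 0 ≤ r ∧ r < w ∧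
    X % (4 * w) = w * j + r ∧ X % w = r ∧ X / w % 4 = j ∧ X % (4 * w) / w = j := by
  obtain ⟨h0, h1⟩ := mod_bd hw X
  have e1 := Int.mul_ediv_add_emod X w
  have e2 := Int.mul_ediv_add_emod (X / w) 4
  have hj0 : 0 ≤ X / w % 4 := by omega
  have hj3 : X / w % 4 ≤ 3 := by omega
  have e3 : X % (4 * w) = w * (X / w % 4) + X % w :=
    (div_mod_of (q := X / w / 4) (by omega) (by positivity) (by nlinarith) (by nlinarith)).2
  exact ⟨_, _, hj0, hj3, h0, h1, e3, rfl, rfl, (div_mod_of hw h0 h1 e3).1⟩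

theorem f4_val (i : ℤ) : ((f4 i).1 : ℤ) = i % 4 := by simp only [f4]; omega

theorem f4_eq_iff {i j : ℤ} : f4 i = f4 j ↔ i % 4 = j % 4 := by
  rw [Fin.ext_iff, ← f4_val, ← f4_val]; omega

theorem f4_pred (i : ℤ) : f4 (i - 1) + 1 = f4 i := by
  have h : i % 4 = 0 ∨ i % 4 = 1 ∨ i % 4 = 2 ∨ i % 4 = 3 := by omega
  rw [Fin.ext_iff, Fin.val_add]
  simp only [f4, Fin.val_one]
  omega

theorem f4_eq_zero {i : ℤ} : f4 i = 0 ↔ i % 4 = 0 := by
  rw [Fin.ext_iff]; simp only [f4, Fin.val_zero]; omega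

theorem good_f4 (i : ℤ) : good (f4 i) = decide (i % 4 = 1 ∨ i % 4 = 2) := by
  have h : i % 4 = 0 ∨ i % 4 = 1 ∨ i % 4 = 2 ∨ i % 4 = 3 := by omega
  rcases h with h | h | h | h <;> simp [good, f4, h]

variable {v : ℤ}

/-- the mark in terms of `m = Y % (8 v)` -/
theorem mk_cases (hv : 1 ≤ v) (Y : ℤ) :
    (0 ≤ Y % (8 * v) ∧ Y % (8 * v) < 2 * v ∧ mk v Y = v + Y % (8 * v)) ∨
    (2 * v ≤ Y % (8 * v) ∧ Y % (8 * v) < 4 * v ∧ mk v Y = 3 * v + Y % (8 * v)) ∨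
    (4 * v ≤ Y % (8 * v) ∧ Y % (8 * v) < 6 * v ∧ mk v Y = 5 * v + Y % (8 * v)) ∨
    (6 * v ≤ Y % (8 * v) ∧ Y % (8 * v) < 8 * v ∧ mk v Y = 7 * v + Y % (8 * v)) := by
  obtain ⟨j, r, j0, j3, r0, r1, e1, e2, -, e4⟩ := quarter (w := 2 * v) (by omega) Y
  rw [show 4 * (2 * v) = 8 * v by ring] at e1 e4
  rw [mk, e4, e2, e1]
  interval_cases j <;> omega

/-- usability and colour of a column in terms of `x = X % (16 v)` -/
theorem col_cases (hv : 1 ≤ v) (X : ℤ) :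
    (0 ≤ X % (16 * v) ∧ X % (16 * v) < 4 * v ∧ X / (4 * v) % 4 = 0 ∧ X % (4 * v) = X % (16 * v)) ∨
    (4 * v ≤ X % (16 * v) ∧ X % (16 * v) < 8 * v ∧ X / (4 * v) % 4 = 1 ∧
      X % (4 * v) = X % (16 * v) - 4 * v) ∨
    (8 * v ≤ X % (16 * v) ∧ X % (16 * v) < 12 * v ∧ X / (4 * v) % 4 = 2 ∧
      X % (4 * v) = X % (16 * v) - 8 * v) ∨
    (12 * v ≤ X % (16 * v) ∧ X % (16 * v) < 16 * v ∧ X / (4 * v) % 4 = 3 ∧
      X % (4 * v) = X % (16 * v) - 12 * v) := by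
  obtain ⟨j, r, j0, j3, r0, r1, e1, e2, e3, -⟩ := quarter (w := 4 * v) (by omega) X
  rw [show 4 * (4 * v) = 16 * v by ring] at e1
  rw [e3, e2, e1]
  interval_cases j <;> omega

theorem usable_iff (X : ℤ) : usable v X = true ↔ v ≤ X % (4 * v) ∧ X % (4 * v) < 3 * v := by simp [usable]

theorem usable_two_iff (Y : ℤ) : usable (2 * v) Y = true ↔ 2 * v ≤ Y % (8 * v) ∧ Y % (8 * v) < 6 * v := by
  rw [usable_iff, show 4 * (2 * v) = 8 * v by ring, show 3 * (2 * v) = 6 * v by ring]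

theorem mod32_iff (hv : 1 ≤ v) (Y : ℤ) : Y % (32 * v) = 0 ↔ Y % (8 * v) = 0 ∧ Y / (8 * v) % 4 = 0 := by
  obtain ⟨j, r, j0, j3, r0, r1, e1, e2, e3, -⟩ := quarter (w := 8 * v) (by omega) Y
  rw [show 4 * (8 * v) = 32 * v by ring] at e1
  rw [e3, e2, e1]
  interval_cases j <;> omega

theorem tagL_two (Y : ℤ) :
    tagL (2 * v) Y = .long (decide (Y % (32 * v) = 0)) (f4 (Y / (8 * v))) (usable (2 * v) Y) := by
  rw [tagL, show 16 * (2 * v) = 32 * v by ring, show 4 * (2 * v) = 8 * v by ring]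

end Crest.Agent.R189.B2
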