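import Crest.Agent.R189.B2.Tiles

/-! Row 189, B2: arithmetic of `usable`, `f4`, `mk` in piecewise linear form (ready for `omega`). -/

set_option autoImplicit false

namespace Crest.Agent.R189.B2.A8

theorem div_mod_of {n a b X : ℤ} (hn : 0 < n) (h : X = n * a + b) (h0 : 0 ≤ b) (h1 : b < n) :
    X / n = a ∧ X % n = b :=
  (Int.ediv_emod_unique hn).2 ⟨by rw [h]; ring, h0, h1⟩

theorem blk_div {v c X : ℤ} (hv : 1 ≤ v) (h0 : 0 ≤ X) (h1 : X < 16 * v) : (16 * v * c + X) / (16 * v) = c :=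
  (div_mod_of (by omega) rfl h0 h1).1

theorem blk_mod {v c X : ℤ} (hv : 1 ≤ v) (h0 : 0 ≤ X) (h1 : X < 16 * v) : (16 * v * c + X) % (16 * v) = X :=
  (div_mod_of (by omega) rfl h0 h1).2

theorem exists_blk {v : ℤ} (hv : 1 ≤ v) (a : ℤ) : ∃ c X, 0 ≤ X ∧ X < 16 * v ∧ a = 16 * v * c + X :=
  ⟨a / (16 * v), a % (16 * v), Int.emod_nonneg _ (by omega), Int.emod_lt_of_pos _ (by omega),
    (Int.mul_ediv_add_emod a (16 * v)).symm⟩

theorem usable_blk (v c X : ℤ) : usable v (16 * v * c + X) = usable v X := by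
  have : (16 * v * c + X) % (4 * v) = X % (4 * v) := by
    rw [show 16 * v * c + X = X + 4 * v * (4 * c) by ring, Int.add_mul_emod_self_left]
  simp only [usable, this]

theorem f4_add (i c : ℤ) : f4 (i + 4 * c) = f4 i := by
  simp only [f4, Fin.mk.injEq]; omega

theorem f4_succ (i : ℤ) : f4 (i + 1) = f4 i + 1 := by
  have : i % 4 = 0 ∨ i % 4 = 1 ∨ i % 4 = 2 ∨ i % 4 = 3 := by omega
  apply Fin.ext
  simp only [f4, Fin.val_add]
  omega

theorem f4_eq_iff {i j : ℤ} : f4 i = f4 j ↔ i % 4 = j % 4 := by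
  simp only [f4, Fin.mk.injEq]; omega

theorem f4_eq_zero {i : ℤ} : f4 i = 0 ↔ i % 4 = 0 := by
  rw [show (0 : Fin 4) = f4 0 from rfl, f4_eq_iff]; rfl

theorem f4_blk {v : ℤ} (hv : 1 ≤ v) (c X : ℤ) : f4 ((16 * v * c + X) / (4 * v)) = f4 (X / (4 * v)) := by
  rw [show 16 * v * c + X = X + 4 * v * (4 * c) by ring, Int.add_mul_ediv_left _ _ (by omega), f4_add]

theorem div4 {v X : ℤ} (hv : 1 ≤ v) (h0 : 0 ≤ X) (h1 : X < 16 * v) :
    (X < 4 * v ∧ X / (4 * v) = 0 ∧ X % (4 * v) = X) ∨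
    (4 * v ≤ X ∧ X < 8 * v ∧ X / (4 * v) = 1 ∧ X % (4 * v) = X - 4 * v) ∨
    (8 * v ≤ X ∧ X < 12 * v ∧ X / (4 * v) = 2 ∧ X % (4 * v) = X - 8 * v) ∨
    (12 * v ≤ X ∧ X / (4 * v) = 3 ∧ X % (4 * v) = X - 12 * v) := by
  by_cases a : X < 4 * v
  · exact .inl ⟨a, div_mod_of (by omega) (by ring) h0 a⟩
  by_cases b : X < 8 * v
  · exact .inr (.inl ⟨by omega, b, div_mod_of (by omega) (by ring) (by omega) (by omega)⟩)
  by_cases c : X < 12 * v
  · exact .inr (.inr (.inl ⟨by omega, c, div_mod_of (by omega) (by ring) (by omega) (by omega)⟩))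
  · exact .inr (.inr (.inr ⟨by omega, div_mod_of (by omega) (by ring) (by omega) (by omega)⟩))

theorem usable_iff {v X : ℤ} (hv : 1 ≤ v) (h0 : 0 ≤ X) (h1 : X < 16 * v) : usable v X = true ↔
    (v ≤ X ∧ X < 3 * v) ∨ (5 * v ≤ X ∧ X < 7 * v) ∨ (9 * v ≤ X ∧ X < 11 * v) ∨ (13 * v ≤ X ∧ X < 15 * v) := by
  have := div4 hv h0 h1
  simp only [usable, decide_eq_true_eq]
  omega

theorem good_iff {v X : ℤ} (hv : 1 ≤ v) (h0 : 0 ≤ X) (h1 : X < 16 * v) :
    good (f4 (X / (4 * v))) = true ↔ 4 * v ≤ X ∧ X < 12 * v := by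
  rcases div4 hv h0 h1 with h | h | h | h
  · rw [h.2.1]; simp only [show good (f4 0) = false from rfl]; simp; omega
  · rw [h.2.2.1]; simp only [show good (f4 1) = true from rfl]; simp; omega
  · rw [h.2.2.1]; simp only [show good (f4 2) = true from rfl]; simp; omega
  · rw [h.2.1]; simp only [show good (f4 3) = false from rfl]; simp; omega

theorem mod8_bounds {v : ℤ} (hv : 1 ≤ v) (Y : ℤ) : 0 ≤ Y % (8 * v) ∧ Y % (8 * v) < 8 * v :=
  ⟨Int.emod_nonneg _ (by omega), Int.emod_lt_of_pos _ (by omega)⟩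

/-- `mk` in terms of `i = Y % (8 v)` -/
theorem mk_cases {v : ℤ} (hv : 1 ≤ v) (Y : ℤ) :
    (Y % (8 * v) < 2 * v ∧ mk v Y = v + Y % (8 * v)) ∨
    (2 * v ≤ Y % (8 * v) ∧ Y % (8 * v) < 4 * v ∧ mk v Y = 3 * v + Y % (8 * v)) ∨
    (4 * v ≤ Y % (8 * v) ∧ Y % (8 * v) < 6 * v ∧ mk v Y = 5 * v + Y % (8 * v)) ∨
    (6 * v ≤ Y % (8 * v) ∧ mk v Y = 7 * v + Y % (8 * v)) := by
  obtain ⟨h0, h1⟩ := mod8_bounds hv Y
  have e : Y % (2 * v) = Y % (8 * v) % (2 * v) := (Int.emod_emod_of_dvd _ ⟨4, by ring⟩).symm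
  unfold mk
  rw [e]
  generalize Y % (8 * v) = i at h0 h1
  by_cases a : i < 2 * v
  · obtain ⟨e1, e2⟩ := div_mod_of (n := 2 * v) (a := 0) (b := i) (X := i) (by omega) (by ring) h0 a
    rw [e1, e2]; omega
  by_cases b : i < 4 * v
  · obtain ⟨e1, e2⟩ := div_mod_of (n := 2 * v) (a := 1) (b := i - 2 * v) (X := i) (by omega) (by ring) (by omega) (by omega)
    rw [e1, e2]; omega
  by_cases c : i < 6 * v
  · obtain ⟨e1, e2⟩ := div_mod_of (n := 2 * v) (a := 2) (b := i - 4 * v) (X := i) (by omega) (by ring) (by omega) (by omega)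
    rw [e1, e2]; omega
  · obtain ⟨e1, e2⟩ := div_mod_of (n := 2 * v) (a := 3) (b := i - 6 * v) (X := i) (by omega) (by ring) (by omega) (by omega)
    rw [e1, e2]; omega

theorem mk_bounds {v : ℤ} (hv : 1 ≤ v) (Y : ℤ) : v ≤ mk v Y ∧ mk v Y ≤ 15 * v - 1 := by
  have := mk_cases hv Y; have := mod8_bounds hv Y; omega

theorem usable_mk {v : ℤ} (hv : 1 ≤ v) (Y : ℤ) : usable v (mk v Y) = true := by
  have h := mk_bounds hv Y
  rw [usable_iff hv (by omega) (by omega)]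
  have := mk_cases hv Y; have := mod8_bounds hv Y; omega

theorem usable2_iff (v Y : ℤ) : usable (2 * v) Y = true ↔ 2 * v ≤ Y % (8 * v) ∧ Y % (8 * v) < 6 * v := by
  simp only [usable, decide_eq_true_eq, show 4 * (2 * v) = 8 * v by ring]; omega

theorem good_mk {v : ℤ} (hv : 1 ≤ v) (Y : ℤ) : good (f4 (mk v Y / (4 * v))) = usable (2 * v) Y := by
  have h := mk_bounds hv Y
  rw [Bool.eq_iff_iff, good_iff hv (by omega) (by omega), usable2_iff]
  have := mk_cases hv Y; have := mod8_bounds hv Y; omega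

/-- one step of `Y` -/
theorem succ_cases {v : ℤ} (hv : 1 ≤ v) (Y : ℤ) :
    ((Y + 1) % (8 * v) = Y % (8 * v) + 1 ∧ (Y + 1) / (8 * v) = Y / (8 * v)) ∨
    (Y % (8 * v) = 8 * v - 1 ∧ (Y + 1) % (8 * v) = 0 ∧ (Y + 1) / (8 * v) = Y / (8 * v) + 1) := by
  obtain ⟨h0, h1⟩ := mod8_bounds hv Y
  have e := Int.mul_ediv_add_emod Y (8 * v)
  by_cases a : Y % (8 * v) = 8 * v - 1
  · have := div_mod_of (n := 8 * v) (a := Y / (8 * v) + 1) (b := 0) (X := Y + 1) (by omega) (by rw [mul_add]; omega)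
      le_rfl (by omega)
    exact .inr ⟨a, this.2, this.1⟩
  · have := div_mod_of (n := 8 * v) (a := Y / (8 * v)) (b := Y % (8 * v) + 1) (X := Y + 1) (by omega) (by omega)
      (by omega) (by omega)
    exact .inl ⟨this.2, this.1⟩

theorem mod32_iff {v : ℤ} (hv : 1 ≤ v) (Y : ℤ) : Y % (32 * v) = 0 ↔ Y % (8 * v) = 0 ∧ f4 (Y / (8 * v)) = 0 := by
  rw [f4_eq_zero]
  constructor
  · intro h
    obtain ⟨k, rfl⟩ := Int.dvd_of_emod_eq_zero h
    have := div_mod_of (n := 8 * v) (a := 4 * k) (b := 0) (X := 32 * v * k) (by omega) (by ring) le_rfl (by omega)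
    rw [this.1, this.2]; omega
  · rintro ⟨h1, h2⟩
    obtain ⟨k, hk⟩ := Int.dvd_of_emod_eq_zero h2
    have e := Int.mul_ediv_add_emod Y (8 * v)
    rw [hk, h1] at e
    exact Int.emod_eq_zero_of_dvd ⟨k, by rw [← e]; ring⟩

/-- mark column and colour determine `Y` mod `32 v` -/
theorem dvd_of_mk {v Y Y' : ℤ} (hv : 1 ≤ v) (h : mk v Y = mk v Y') (hc : f4 (Y / (8 * v)) = f4 (Y' / (8 * v))) :
    32 * v ∣ Y - Y' := by
  have e0 : Y % (8 * v) = Y' % (8 * v) := by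
    have := mk_cases hv Y; have := mk_cases hv Y'; have := mod8_bounds hv Y; have := mod8_bounds hv Y'; omega
  rw [f4_eq_iff] at hc
  obtain ⟨k, hk⟩ : (4 : ℤ) ∣ Y / (8 * v) - Y' / (8 * v) := Int.dvd_of_emod_eq_zero (by omega)
  have e := Int.mul_ediv_add_emod Y (8 * v)
  have e' := Int.mul_ediv_add_emod Y' (8 * v)
  refine ⟨k, ?_⟩
  rw [show 32 * v * k = 8 * v * (4 * k) by ring, ← hk, mul_sub]
  omega

/-- every usable column and colour is attained -/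
theorem exists_mk {v X : ℤ} (hv : 1 ≤ v) (h0 : 0 ≤ X) (h1 : X < 16 * v) (hu : usable v X = true) (c : Fin 4) :
    ∃ Y, 0 ≤ Y ∧ Y < 32 * v ∧ mk v Y = X ∧ f4 (Y / (8 * v)) = c := by
  rw [usable_iff hv h0 h1] at hu
  obtain ⟨i, i0, i1, hi⟩ : ∃ i, 0 ≤ i ∧ i < 8 * v ∧ ((i < 2 * v ∧ X = v + i) ∨ (2 * v ≤ i ∧ i < 4 * v ∧ X = 3 * v + i) ∨
      (4 * v ≤ i ∧ i < 6 * v ∧ X = 5 * v + i) ∨ (6 * v ≤ i ∧ X = 7 * v + i)) := by
    rcases hu with h | h | h | h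
    · exact ⟨X - v, by omega⟩
    · exact ⟨X - 3 * v, by omega⟩
    · exact ⟨X - 5 * v, by omega⟩
    · exact ⟨X - 7 * v, by omega⟩
  have hc := c.2
  have := div_mod_of (n := 8 * v) (a := (c.1 : ℤ)) (b := i) (X := 8 * v * c.1 + i) (by omega) rfl i0 i1
  refine ⟨8 * v * c.1 + i, by positivity, by nlinarith, ?_, ?_⟩
  · have h := mk_cases hv (8 * v * c.1 + i)
    rw [this.2] at h
    omega
  · rw [this.1]; apply Fin.ext; simp only [f4]; omega

theorem mk_congr {v Y Y' : ℤ} (h : 32 * v ∣ Y - Y') : mk v Y = mk v Y' := by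
  obtain ⟨k, hk⟩ := h
  have e : Y = Y' + 8 * v * (4 * k) := by linear_combination hk
  have e' : Y = Y' + 2 * v * (16 * k) := by linear_combination hk
  have h1 : Y % (8 * v) = Y' % (8 * v) := by rw [e, Int.add_mul_emod_self_left]
  have h2 : Y % (2 * v) = Y' % (2 * v) := by rw [e', Int.add_mul_emod_self_left]
  simp only [mk, h1, h2]

theorem f4_congr {v Y Y' : ℤ} (hv : 1 ≤ v) (h : 32 * v ∣ Y - Y') : f4 (Y / (8 * v)) = f4 (Y' / (8 * v)) := by
  obtain ⟨k, hk⟩ := h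
  have e : Y = Y' + 8 * v * (4 * k) := by linear_combination hk
  rw [e, Int.add_mul_ediv_left _ _ (by omega), f4_add]

end Crest.Agent.R189.B2.A8
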