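import Crest.Agent.R189.B2.Arith

/-! Row 189, block B2: a cell is determined by its position in the next two levels and the tile of its parent cell. -/

set_option autoImplicit false

namespace Crest.Agent.R189.B2

variable {v : ℤ}

theorem mod_of_mod4 {w X X' : ℤ} (hw : 0 < w) (h : X % (4 * w) = X' % (4 * w)) :
    X % w = X' % w ∧ X / w % 4 = X' / w % 4 := by
  obtain ⟨j, r, -, -, r0, r1, e1, e2, e3, e4⟩ := quarter hw X
  obtain ⟨j', r', -, -, r0', r1', e1', e2', e3', e4'⟩ := quarter hw X'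
  have hj : j = j' := by rw [← e4, ← e4', h]
  subst hj
  rw [e2, e2', e3, e3']
  exact ⟨by linarith, rfl⟩

theorem mod16 (hv : 1 ≤ v) {X X' : ℤ} (h : X % (16 * v) = X' % (16 * v)) :
    X % (4 * v) = X' % (4 * v) ∧ X / (4 * v) % 4 = X' / (4 * v) % 4 :=
  mod_of_mod4 (by omega) (by rwa [show 4 * (4 * v) = 16 * v by ring])

theorem mod32 (hv : 1 ≤ v) {Y Y' : ℤ} (h : Y % (32 * v) = Y' % (32 * v)) :
    Y % (8 * v) = Y' % (8 * v) ∧ Y / (8 * v) % 4 = Y' / (8 * v) % 4 :=
  mod_of_mod4 (by omega) (by rwa [show 4 * (8 * v) = 32 * v by ring])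

theorem mk_congr (hv : 1 ≤ v) {Y Y' : ℤ} (h : Y % (8 * v) = Y' % (8 * v)) : mk v Y = mk v Y' := by
  have := mk_cases hv Y
  have := mk_cases hv Y'
  omega

theorem add_mod_congr {n Y Y' : ℤ} (h : Y % n = Y' % n) (k : ℤ) : (Y + k) % n = (Y' + k) % n :=
  Int.ModEq.add_right k h

theorem sub_mod_congr {n Y Y' : ℤ} (h : Y % n = Y' % n) (k : ℤ) : (Y - k) % n = (Y' - k) % n :=
  Int.ModEq.sub_right k h

theorem usable_congr {X X' : ℤ} (h : X % (4 * v) = X' % (4 * v)) : usable v X = usable v X' := by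
  simp only [usable, h]

theorem stOf_congr (hv : 1 ≤ v) (X : ℤ) {Y Y' : ℤ} (h : Y % (8 * v) = Y' % (8 * v)) :
    stOf v X Y = stOf v X Y' := by
  simp only [stOf, h, mk_congr hv h, mk_congr hv (sub_mod_congr h 1),
    usable_congr (v := 2 * v) (X := Y) (X' := Y') (by rwa [show 4 * (2 * v) = 8 * v by ring])]

theorem ownH_congr (hv : 1 ≤ v) {X X' : ℤ} {P P' : V} (h : X % (16 * v) = X' % (16 * v))
    (h1 : P.1 % (32 * v) = P'.1 % (32 * v)) (h2 : P.2 % 2 = P'.2 % 2) : ownH v X P = ownH v X' P' := by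
  simp only [ownH, h, h2, f4_eq_iff.2 (mod16 hv h).2, usable_congr (mod16 hv h).1,
    stOf_congr hv _ (mod32 hv h1).1, f4_eq_iff.2 (mod32 hv h1).2]

theorem upOf_congr (hv : 1 ≤ v) {X X' : ℤ} {P P' : V} (h : X % (16 * v) = X' % (16 * v))
    (h1 : P.1 % (32 * v) = P'.1 % (32 * v)) (h2 : P.2 % 2 = P'.2 % 2) : upOf v X P = upOf v X' P' := by
  simp only [upOf, h, h2, mk_congr hv (mod32 hv h1).1, f4_eq_iff.2 (mod32 hv h1).2, add_mod_congr h1 1]

theorem ownV_congr (hv : 1 ≤ v) {X X' y y' : ℤ} {P P' : V} (h : X % (16 * v) = X' % (16 * v))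
    (hy : y % 2 = y' % 2) (h1 : P.1 % (32 * v) = P'.1 % (32 * v)) (h2 : P.2 % 2 = P'.2 % 2) :
    ownV v X y P = ownV v X' y' P' := by
  simp only [ownV, hy, upOf_congr hv h h1 h2,
    upOf_congr hv h (P := (P.1 - 1, P.2)) (P' := (P'.1 - 1, P'.2)) (sub_mod_congr h1 1) h2]

theorem up_west (hv : 1 ≤ v) (o p : V) : up v o (p.1 - 1, p.2) =
    if p.1 % (16 * v) = 0 then ((up v o p).1, (up v o p).2 - 1) else up v o p := by
  split_ifs with h
  · simp only [up, (pred_of_eq (by omega) h).1]; ext <;> simp; ring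
  · simp only [up, (pred_of_ne (by omega) h).1]

theorem up_south (o p : V) : up v o (p.1, p.2 - 1) =
    if p.2 % 2 = 0 then ((up v o p).1 - 1, (up v o p).2) else up v o p := by
  split_ifs with h <;> simp only [up] <;> ext <;> simp <;> omega

/-- the tile of a cell at position `p` whose parent cell has position `P` and tile `τ` -/
def cell (v : ℤ) (p P : V) (τ : Tile) : Tile where
  W := if p.2 % 2 = 1 then ownH v (p.1 - 1) (if p.1 % (16 * v) = 0 then (P.1, P.2 - 1) else P)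
    else if p.1 % (16 * v) = 0 then τ.S else τ.N
  E := if p.2 % 2 = 1 then ownH v p.1 P else τ.N
  S := if p.1 % (16 * v) = 0 then (if p.2 % 2 = 0 then τ.W else τ.E)
    else ownV v p.1 (p.2 - 1) (if p.2 % 2 = 0 then (P.1 - 1, P.2) else P)
  N := if p.1 % (16 * v) = 0 then τ.E else ownV v p.1 p.2 P

theorem Rel.eq_cell (hv : 1 ≤ v) {o : V} {x y : V → Tile} (h : Rel v o x y) (hx : Canon v x)
    (hy : Canon (2 * v) y) (p : V) : x p = cell v p (up v o p) (y (up v o p)) := by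
  have eW : (x p).W = (x (p.1 - 1, p.2)).E := by rw [hx.glueH]; simp
  have eS : (x p).S = (x (p.1, p.2 - 1)).N := by rw [hx.glueV]; simp
  ext
  · rw [eW]
    simp only [cell]
    split_ifs with h1 h2 h2
    · rw [h.ownH (p.1 - 1, p.2) h1, up_west hv, if_pos h2]
    · rw [h.ownH (p.1 - 1, p.2) h1, up_west hv, if_neg h2]
    · rw [h.wireH _ (by simp only; omega), up_west hv, if_pos h2, hy.glueV]; simp
    · rw [h.wireH _ (by simp only; omega), up_west hv, if_neg h2]
  · simp only [cell]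
    split_ifs with h1
    · exact h.ownH _ h1
    · exact h.wireH _ (by omega)
  · rw [eS]
    simp only [cell]
    split_ifs with h1 h2 h2
    · rw [h.wireV (p.1, p.2 - 1) h1, up_south, if_pos h2, hy.glueH]; simp
    · rw [h.wireV (p.1, p.2 - 1) h1, up_south, if_neg h2]
    · rw [h.ownV (p.1, p.2 - 1) h1, up_south, if_pos h2]
    · rw [h.ownV (p.1, p.2 - 1) h1, up_south, if_neg h2]
  · simp only [cell]
    split_ifs with h1
    · exact h.wireV _ h1
    · exact h.ownV _ h1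

theorem cell_congr (hv : 1 ≤ v) {p p' P P' : V} (h1 : p.1 % (16 * v) = p'.1 % (16 * v))
    (h2 : p.2 % 2 = p'.2 % 2) (h3 : P.1 % (32 * v) = P'.1 % (32 * v)) (h4 : P.2 % 2 = P'.2 % 2)
    (τ : Tile) : cell v p P τ = cell v p' P' τ := by
  simp only [cell, h1, h2, ownH_congr hv h1 h3 h4, ownV_congr hv h1 h2 h3 h4]
  congr 1
  · split_ifs
    · exact ownH_congr hv (sub_mod_congr h1 1) h3 (sub_mod_congr h4 1)
    · exact ownH_congr hv (sub_mod_congr h1 1) h3 h4
    all_goals rfl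
  · split_ifs
    · rfl
    · rfl
    · exact ownV_congr hv h1 (sub_mod_congr h2 1) (sub_mod_congr h3 1) h4
    · exact ownV_congr hv h1 (sub_mod_congr h2 1) h3 h4

end Crest.Agent.R189.B2
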