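import Crest.Agent.R189.B2.Tiles

/-!
# Row 189, block B2: the inflation of a canonical tiling is canonical (helper59)
-/

set_option autoImplicit false

namespace Crest.Agent.R189.B2

theorem ifl_dm {n x q r : ℤ} (hn : 0 < n) (h : x = n * q + r) (h0 : 0 ≤ r) (h1 : r < n) : x / n = q ∧ x % n = r :=
  (Int.ediv_emod_unique hn).2 ⟨by rw [h]; ring, h0, h1⟩

/-- decomposition of an integer at the scales `n`, `4 n`, `16 n`... -/
theorem ifl_dec {n : ℤ} (hn : 0 < n) (x : ℤ) : ∃ q i r : ℤ, 0 ≤ i ∧ i < 4 ∧ 0 ≤ r ∧ r < n ∧ x = 4 * n * q + n * i + r ∧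
    x / n = 4 * q + i ∧ x % n = r ∧ x / (4 * n) = q ∧ x % (4 * n) = n * i + r := by
  refine ⟨x / n / 4, x / n % 4, x % n, by omega, by omega, Int.emod_nonneg _ hn.ne', Int.emod_lt_of_pos _ hn, ?_, by omega, rfl, ?_⟩
  · have h1 := Int.mul_ediv_add_emod x n
    have h2 := Int.mul_ediv_add_emod (x / n) 4
    linear_combination -h1 - n * h2
  · have h1 := Int.mul_ediv_add_emod x n
    have h2 := Int.mul_ediv_add_emod (x / n) 4
    have h3 := Int.emod_nonneg x hn.ne'
    have h4 := Int.emod_lt_of_pos x hn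
    have h5 : 0 ≤ x / n % 4 := by omega
    have h6 : x / n % 4 ≤ 3 := by omega
    refine ifl_dm (by omega) (by linear_combination -h1 - n * h2) (by positivity) (by nlinarith)

theorem ifl_pred0 {n x : ℤ} (hn : 0 < n) (h : x % n = 0) : (x - 1) / n = x / n - 1 ∧ (x - 1) % n = n - 1 :=
  ifl_dm hn (by have := Int.mul_ediv_add_emod x n; linear_combination -this + h) (by omega) (by omega)

theorem ifl_pred1 {n x : ℤ} (hn : 0 < n) (h : x % n ≠ 0) : (x - 1) / n = x / n ∧ (x - 1) % n = x % n - 1 := by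
  have h3 := Int.emod_nonneg x hn.ne'
  have h4 := Int.emod_lt_of_pos x hn
  exact ifl_dm hn (by have := Int.mul_ediv_add_emod x n; linear_combination -this) (by omega) (by omega)

/-- the centre carries the transposed tile -/
theorem ifl_centre {v : ℤ} (hv : 1 ≤ v) (o : V) {y : V → Tile} (gH : ∀ p : V, (y p).E = (y (p.1 + 1, p.2)).W)
    (gV : ∀ p : V, (y p).N = (y (p.1, p.2 + 1)).S) {p : V} (h1 : p.1 % (16 * v) = 0) (h2 : p.2 % 2 = 0) :
    infl v o y p = (y (up v o p)).tr := by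
  have e1 := (ifl_pred0 (by omega) h1).1
  have e2 : (p.2 - 1) / 2 = p.2 / 2 - 1 := by omega
  have n1 : ¬p.2 % 2 = 1 := by omega
  simp only [infl, inflE, inflN, if_pos h1, if_neg n1, Tile.tr, up, e1, e2, Tile.mk.injEq, and_true, true_and]
  rw [gV, gH]
  constructor <;> congr 3 <;> ring

theorem ifl_mk {v : ℤ} (hv : 1 ≤ v) (Y : ℤ) : ∃ j r : ℤ, 0 ≤ j ∧ j < 4 ∧ 0 ≤ r ∧ r < 2 * v ∧ Y % (8 * v) = 2 * v * j + r ∧
    mk v Y = 4 * v * j + v + r := by
  obtain ⟨q, j, r, h1, h2, h3, h4, -, -, h5, -, h6⟩ := ifl_dec (n := 2 * v) (by omega) Y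
  rw [show 4 * (2 * v) = 8 * v by ring] at h6
  refine ⟨j, r, h1, h2, h3, h4, h6, ?_⟩
  rw [mk, h6, h5, (ifl_dm (by omega) rfl h3 h4).1]

theorem ifl_wrap {v Y : ℤ} (hv : 1 ≤ v) : Y % (32 * v) = 0 ↔ Y % (8 * v) = 0 ∧ f4 (Y / (8 * v)) = 0 := by
  obtain ⟨q, i, r, h1, h2, h3, h4, -, h5, h6, -, h7⟩ := ifl_dec (n := 8 * v) (by omega) Y
  rw [show 4 * (8 * v) = 32 * v by ring] at h7
  rw [h5, h6, h7, Fin.ext_iff]
  simp only [f4, Fin.val_zero]
  have : i = 0 ∨ i = 1 ∨ i = 2 ∨ i = 3 := by omega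
  rcases this with rfl | rfl | rfl | rfl <;> omega

theorem ifl_vwire {v : ℤ} (hv : 1 ≤ v) {X : ℤ} (hX : X % (16 * v) = 0) (P : V) {S : Col}
    (hS : P.2 % 2 = 1 → S.tag = tagL (2 * v) P.1) :
    vwire (ownH v (X - 1) (P.1, P.2 - 1)) (ownH v X P) S S = true := by
  have e1 := (ifl_pred0 (by omega) hX).2
  have n1 : ¬(16 * v - 1 = 0) := by omega
  obtain ⟨j, r, h1, h2, h3, h4, h5, h6⟩ := ifl_mk hv P.1
  obtain ⟨j', r', h1', h2', h3', h4', h5', h6'⟩ := ifl_mk hv (P.1 - 1)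
  have b1 : mk v P.1 ≤ 15 * v - 1 := by nlinarith
  have b2 : mk v (P.1 - 1) ≤ 15 * v - 1 := by nlinarith
  have b3 : 0 < mk v (P.1 - 1) := by nlinarith
  have hp : decide (P.2 % 2 = 1) = !decide ((P.2 - 1) % 2 = 1) := by
    by_cases h : P.2 % 2 = 1
    · simp [h, show ¬(P.2 - 1) % 2 = 1 by omega]
    · simp [h, show (P.2 - 1) % 2 = 1 by omega]
  have hw := ifl_wrap (Y := P.1) hv
  simp only [tagL, show 16 * (2 * v) = 32 * v by ring, show 4 * (2 * v) = 8 * v by ring] at hS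
  simp only [ownH, e1, hX, n1, decide_true, decide_false, stOf]
  by_cases h0 : P.1 % (8 * v) = 0
  · rw [if_pos h0, if_pos h0, if_neg (by omega), if_neg (by omega), if_pos (by omega)]
    have u : usable (2 * v) P.1 = false := by
      simp only [usable, show 4 * (2 * v) = 8 * v by ring, h0, decide_eq_false_iff_not]
      omega
    simp only [vwire, ← hp, decide_true, Bool.true_and, Bool.or_eq_true, Bool.not_eq_true', decide_eq_false_iff_not,
      decide_eq_true_eq]
    refine or_iff_not_imp_left.2 fun h => ?_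
    rw [hS (not_not.1 h), u]
    simp only [hw, h0, true_and]
  · rw [if_neg h0, if_neg h0, if_neg (by omega), if_neg (by omega), if_pos b3]
    simp only [vwire, ← hp, decide_true, Bool.true_and, Bool.or_eq_true, Bool.not_eq_true', decide_eq_false_iff_not,
      decide_eq_true_eq]
    refine or_iff_not_imp_left.2 fun h => ?_
    rw [hS (not_not.1 h)]
    simp only [hw, h0, false_and, decide_false]

theorem ifl_hwire {v : ℤ} (X : ℤ) (P : V) {W : Col}
    (hW : P.1 % (16 * (2 * v)) ≠ 0 → W.tag = .short (decide (P.2 % 2 = 0))) :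
    hwire W W (.short false (upOf v X (P.1 - 1, P.2))) (.short true (upOf v X (P.1 - 1, P.2))) = true := by
  rw [show 16 * (2 * v) = 32 * v by ring] at hW
  simp only [upOf, sub_add_cancel]
  split_ifs with h
  · simp only [hwire, decide_true, Bool.true_and, Bool.or_eq_true, decide_eq_true_eq]
    refine or_iff_not_imp_left.2 fun h => ?_
    rw [hW h]
    by_cases h : P.2 % 2 = 1
    · simp [h]
    · simp [show P.2 % 2 = 0 by omega]
  · simp [hwire]

set_option maxHeartbeats 2000000 in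
theorem ifl_plain {v : ℤ} (hv : 1 ≤ v) {X : ℤ} (hX : X % (16 * v) ≠ 0) (P : V) :
    plain (ownH v (X - 1) P) (ownH v X P) (.short true (upOf v X (P.1 - 1, P.2))) (.short false (upOf v X P)) = true := by
  have e1 := (ifl_pred1 (by omega) hX).2
  obtain ⟨q, i, s, a1, a2, a3, a4, -, a5, a6, -, a7⟩ := ifl_dec (n := 4 * v) (by omega) X
  rw [show 4 * (4 * v) = 16 * v by ring] at a7
  obtain ⟨j, r, h1, h2, h3, h4, h5, h6⟩ := ifl_mk hv P.1
  obtain ⟨j', r', h1', h2', h3', h4', h5', h6'⟩ := ifl_mk hv (P.1 - 1)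
  have hw := ifl_wrap (Y := P.1) hv
  have hcol : (f4 (X / (4 * v))).val = i.toNat := by rw [a5]; simp only [f4]; omega
  have hg : good (f4 (X / (4 * v))) = decide (i = 1 ∨ i = 2) := by
    simp only [good, Fin.ext_iff, hcol, Bool.decide_or]
    congr 1 <;> simp <;> omega
  have hu : usable (2 * v) P.1 = decide (j = 1 ∨ j = 2) := by
    simp only [usable, show 4 * (2 * v) = 8 * v by ring, h5, decide_eq_decide]
    have : j = 0 ∨ j = 1 ∨ j = 2 ∨ j = 3 := by omega
    rcases this with rfl | rfl | rfl | rfl <;> omega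
  have hi : i = 0 ∨ i = 1 ∨ i = 2 ∨ i = 3 := by omega
  have hj : j = 0 ∨ j = 1 ∨ j = 2 ∨ j = 3 := by omega
  have hj' : j' = 0 ∨ j' = 1 ∨ j' = 2 ∨ j' = 3 := by omega
  simp only [ownH, hX, decide_false, plain, decide_true, Bool.true_and, e1, upOf, sub_add_cancel, stOf, usable.eq_1 v, a6, hu]
  by_cases h0 : P.1 % (8 * v) = 0
  · have e2 := ifl_pred0 (by omega) h0
    have m1 : mk v P.1 = v := by rcases hj with rfl | rfl | rfl | rfl <;> omega
    have m2 : mk v (P.1 - 1) = 15 * v - 1 := by rcases hj' with rfl | rfl | rfl | rfl <;> omega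
    have c1 : f4 ((P.1 - 1) / (8 * v)) + 1 = f4 (P.1 / (8 * v)) := by
      rw [e2.1, Fin.ext_iff, Fin.val_add]
      simp only [f4, Fin.val_one]
      omega
    have j0 : j = 0 := by rcases hj with rfl | rfl | rfl | rfl <;> omega
    simp only [h0, if_true, m1, m2, hw, true_and, decide_eq_true_eq, a7]
    clear h6 h6' h5 h5' hw e2 m1 m2 hu e1 hcol
    rcases hi with rfl | rfl | rfl | rfl <;> split_ifs <;> first | (exfalso; omega) | simp [trU, hg, c1]
  · have e2 := ifl_pred1 (by omega) h0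
    have n32 : ¬P.1 % (32 * v) = 0 := fun h => h0 (hw.1 h).1
    simp only [h0, if_false, e2.1, n32, decide_false, decide_eq_true_eq, a7, h6, h6']
    have e3 := e2.2
    rw [h5, h5'] at e3
    have e4 : 2 * v * j + r ≠ 0 := h5 ▸ h0
    have e5 : (j' = j ∧ r' = r - 1) ∨ (j' = j - 1 ∧ r = 0 ∧ r' = 2 * v - 1) := by
      rcases hj with rfl | rfl | rfl | rfl <;> rcases hj' with rfl | rfl | rfl | rfl <;> omega
    rw [a7] at hX
    clear h6 h6' h5 h5' hw e2 hu e1 hcol h0 n32 a5 a6 a7 hj' e3 e4 a1 a2 h1 h2 h2' h4' hX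
    rcases e5 with ⟨rfl, rfl⟩ | ⟨rfl, rfl, rfl⟩ <;> rcases hi with rfl | rfl | rfl | rfl <;> rcases hj with rfl | rfl | rfl | rfl <;>
      first | (exfalso; omega) | (split_ifs <;> first | (exfalso; omega) | simp [trU, hg])

theorem valid_infl_loc {v : ℤ} (hv : 1 ≤ v) (o : V) {y : V → Tile} (hH : ∀ p : V, (y p).E = (y (p.1 + 1, p.2)).W)
    (hV : ∀ p : V, (y p).N = (y (p.1, p.2 + 1)).S) (ht : ∀ p, TagOK (2 * v) p (y p)) (p : V)
    (hc : p.1 % (16 * v) = 0 → p.2 % 2 = 0 → (y (up v o p)).Valid) : (infl v o y p).Valid := by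
  by_cases h1 : p.1 % (16 * v) = 0 <;> by_cases h2 : p.2 % 2 = 1
  · have e1 := (ifl_pred0 (by omega) h1).1
    have e2 : (p.2 - 1) / 2 = p.2 / 2 := by omega
    refine Or.inl ?_
    simp only [Tile.okH, infl, inflE, inflN, if_pos h1, if_pos h2, Bool.or_eq_true]
    refine Or.inl (Or.inr ?_)
    have := ifl_vwire hv h1 (up v o p) (ht (up v o p)).1
    simp only [up, e1, e2] at this ⊢
    rwa [← add_sub_assoc]
  · rw [ifl_centre hv o hH hV h1 (by omega)]
    exact (hc h1 (by omega)).tr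
  · have e1 := (ifl_pred1 (by omega) h1).1
    have e2 : (p.2 - 1) / 2 = p.2 / 2 := by omega
    refine Or.inl ?_
    simp only [Tile.okH, infl, inflE, inflN, if_neg h1, if_pos h2, Bool.or_eq_true, ownV, if_neg (show ¬(p.2 - 1) % 2 = 1 by omega)]
    refine Or.inl (Or.inl ?_)
    have := ifl_plain hv h1 (up v o p)
    simp only [up, e1, e2] at this ⊢
    exact this
  · have e1 := (ifl_pred1 (by omega) h1).1
    have e2 : (p.2 - 1) / 2 = p.2 / 2 - 1 := by omega
    refine Or.inl ?_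
    simp only [Tile.okH, infl, inflE, inflN, if_neg h1, if_neg h2, Bool.or_eq_true, ownV, if_pos (show (p.2 - 1) % 2 = 1 by omega)]
    refine Or.inr ?_
    have := ifl_hwire p.1 (up v o p) (ht (up v o p)).2
    simp only [up, e1, e2] at this ⊢
    rwa [← add_sub_assoc]

theorem ifl_valid {v : ℤ} (hv : 1 ≤ v) (o : V) {y : V → Tile} (hy : Canon (2 * v) y) (p : V) : (infl v o y p).Valid :=
  valid_infl_loc hv o hy.glueH hy.glueV hy.tag p fun _ _ => hy.valid _

end Crest.Agent.R189.B2
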