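import Crest.Agent.R189.B2.Dec
import Crest.Agent.R189.B2.InflV

/-! Row 189, B2: inflation (see notes189/h8.md) -/

set_option autoImplicit false

namespace Crest.Agent.R189.B2

open COMP

theorem rel_infl {v : ℤ} (o : V) (y : V → Tile) : Rel v o (infl v o y) y := by
  refine ⟨fun p h => if_pos h, fun p h => if_neg h, fun p h => if_neg (by omega), fun p h => if_pos h⟩

theorem defl_infl {v : ℤ} (hv : 1 ≤ v) (o : V) {y : V → Tile} (hy : Canon (2 * v) y) : defl v o (infl v o y) = y := by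
  funext P
  have h0 : (16 * v) ≠ 0 := by omega
  have h1 : 16 * v * (P.2 - o.2) % (16 * v) = 0 := Int.mul_emod_right _ _
  have h2 : 16 * v * (P.2 - o.2) / (16 * v) = P.2 - o.2 := Int.mul_ediv_cancel_left _ h0
  have h3 : (16 * v * (P.2 - o.2) - 1) / (16 * v) = P.2 - o.2 - 1 := by
    rw [show 16 * v * (P.2 - o.2) - 1 = (16 * v - 1) + 16 * v * (P.2 - o.2 - 1) by ring, Int.add_mul_ediv_left _ _ h0,
      Int.ediv_eq_zero_of_lt (by omega) (by omega), zero_add]
  have u0 : up v o (16 * v * (P.2 - o.2), 2 * (P.1 - o.1)) = P :=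
    Prod.ext (by simp only [up]; omega) (by simp only [up, h2]; omega)
  have u1 : up v o (16 * v * (P.2 - o.2), 2 * (P.1 - o.1) - 1) = (P.1 - 1, P.2) :=
    Prod.ext (by simp only [up]; omega) (by simp only [up, h2]; omega)
  have u2 : up v o (16 * v * (P.2 - o.2) - 1, 2 * (P.1 - o.1)) = (P.1, P.2 - 1) :=
    Prod.ext (by simp only [up]; omega) (by simp only [up, h3]; omega)
  have e2 : ¬ 2 * (P.1 - o.1) % 2 = 1 := by omega
  refine Tile.ext ?_ ?_ ?_ ?_
  · show inflN v o y (16 * v * (P.2 - o.2), 2 * (P.1 - o.1) - 1) = _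
    rw [inflN, if_pos h1, u1, hy.glueH]
    simp only [sub_add_cancel]
  · show inflN v o y (16 * v * (P.2 - o.2), 2 * (P.1 - o.1)) = _
    rw [inflN, if_pos h1, u0]
  · show inflE v o y (16 * v * (P.2 - o.2) - 1, 2 * (P.1 - o.1)) = _
    rw [inflE, if_neg e2, u2, hy.glueV]
    simp only [sub_add_cancel]
  · show inflE v o y (16 * v * (P.2 - o.2), 2 * (P.1 - o.1)) = _
    rw [inflE, if_neg e2, u0]

/-- validity of one inflated cell: only the tags of the edges of the next level and, at a centre, its tile are used -/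
theorem valid_infl {v : ℤ} (hv : 1 ≤ v) (o : V) {y : V → Tile} (hy : Canon (2 * v) y) (p : V) :
    (infl v o y p).Valid :=
  ifl_valid hv o hy p

theorem canon_infl {v : ℤ} (hv : 1 ≤ v) (o : V) {y : V → Tile} (hy : Canon (2 * v) y) : Canon v (infl v o y) := by
  refine ⟨valid_infl hv o hy, fun p => ?_, fun p => ?_, fun p => ⟨fun h => ?_, fun h => ?_⟩⟩
  · simp only [infl, add_sub_cancel_right]
  · simp only [infl, add_sub_cancel_right]
  · rw [(rel_infl o y).ownH p h]
    rfl
  · rw [(rel_infl o y).ownV p h, ownV]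
    split_ifs with h1
    · rw [decide_eq_false (by omega)]
      rfl
    · rw [decide_eq_true (by omega)]
      rfl

/-- the position is unique -/
theorem pos_unique {v : ℤ} (hv : 1 ≤ v) {o o' : V} {x y y' : V → Tile} (h : Rel v o x y) (h' : Rel v o' x y') :
    (32 * v ∣ o.1 - o'.1) ∧ (2 ∣ o.2 - o'.2) := by
  have key : ∀ k : ℤ, (o.1 + k) / (8 * v) % 4 = (o'.1 + k) / (8 * v) % 4 ∧ (o.2 % 2 = 1 ↔ o'.2 % 2 = 1) := by
    intro k
    have e := (h.ownH (0, 2 * k + 1) (by simp only; omega)).symm.trans (h'.ownH (0, 2 * k + 1) (by simp only; omega))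
    have e1 : (2 * k + 1) / 2 = k := by omega
    simp only [ownH, up, Col.long.injEq, e1, Int.zero_ediv, add_zero, decide_eq_decide, f4, Fin.mk.injEq] at e
    exact ⟨by have := e.2.2.2.2.1; omega, e.2.2.2.2.2⟩
  refine ⟨?_, by have := (key 0).2; omega⟩
  have h0 : (8 * v) ≠ 0 := by omega
  have a1 := (key (-o'.1)).1
  have a2 := (key (-o'.1 - 1)).1
  rw [add_neg_cancel, Int.zero_ediv, ← sub_eq_add_neg] at a1
  have b1 : (o'.1 + (-o'.1 - 1)) / (8 * v) = -1 := by
    rw [show o'.1 + (-o'.1 - 1) = (8 * v - 1) + 8 * v * (-1) by ring, Int.add_mul_ediv_left _ _ h0,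
      Int.ediv_eq_zero_of_lt (by omega) (by omega), zero_add]
  rw [b1] at a2
  have c1 := Int.emod_add_mul_ediv (o.1 - o'.1) (8 * v)
  have c2 := Int.emod_nonneg (o.1 - o'.1) h0
  have c3 := Int.emod_lt_of_pos (o.1 - o'.1) (show 0 < 8 * v by omega)
  generalize (o.1 - o'.1) % (8 * v) = r at c1 c2 c3
  generalize (o.1 - o'.1) / (8 * v) = q at a1 c1
  rcases c2.eq_or_lt with rfl | c4
  · obtain ⟨q', rfl⟩ : ∃ q', q = 4 * q' := ⟨q / 4, by omega⟩
    exact ⟨q', by rw [← c1]; ring⟩
  · rw [show o.1 + (-o'.1 - 1) = (r - 1) + 8 * v * q by linarith, Int.add_mul_ediv_left _ _ h0,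
      Int.ediv_eq_zero_of_lt (by omega) (by omega), zero_add] at a2
    omega

end Crest.Agent.R189.B2
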