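import Crest.Agent.R189.B2.Q4
import Crest.Agent.R189.B2.Infl
import Crest.Agent.R189.B2.Cell
import Crest.Agent.R189.B2.AbsT

/-! Row 189, B2: centres of all levels, without choices (helper1). -/

set_option autoImplicit false

namespace Crest.Agent.R189.B2

/-- shift of a configuration -/
def sh (d : V) (x : V → Tile) : V → Tile := fun p => x (p + d)

@[simp] theorem sh_apply (d : V) (x : V → Tile) (p : V) : sh d x p = x (p + d) := rfl

theorem sh_sh (d e : V) (x : V → Tile) : sh d (sh e x) = sh (d + e) x := by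
  funext p; simp only [sh, add_assoc]

@[simp] theorem sh_zero (x : V → Tile) : sh 0 x = x := by funext p; simp only [sh, add_zero]

/-- width and height of a level-`j` cell -/
def WH : ℕ → ℤ → ℤ × ℤ
  | 0, _ => (1, 1)
  | j + 1, v => (16 * v * (WH j (2 * v)).2, 2 * (WH j (2 * v)).1)

/-- width of a level-`j` cell -/
def Wd (j : ℕ) (v : ℤ) : ℤ := (WH j v).1
/-- height of a level-`j` cell -/
def Hd (j : ℕ) (v : ℤ) : ℤ := (WH j v).2

@[simp] theorem Wd_zero (v : ℤ) : Wd 0 v = 1 := rfl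
@[simp] theorem Hd_zero (v : ℤ) : Hd 0 v = 1 := rfl
theorem Wd_succ (j : ℕ) (v : ℤ) : Wd (j + 1) v = 16 * v * Hd j (2 * v) := rfl
theorem Hd_succ (j : ℕ) (v : ℤ) : Hd (j + 1) v = 2 * Wd j (2 * v) := rfl

/-- the recursion from the top -/
theorem WH_top (j : ℕ) (v : ℤ) :
    Wd (j + 1) v = (if j % 2 = 0 then 16 * (v * 2 ^ j) else 2) * Wd j v ∧
    Hd (j + 1) v = (if j % 2 = 0 then 2 else 16 * (v * 2 ^ j)) * Hd j v := by
  induction j generalizing v with
  | zero => simp [Wd_succ, Hd_succ]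
  | succ j ih =>
    rw [Wd_succ (j + 1), Hd_succ (j + 1), (ih (2 * v)).1, (ih (2 * v)).2, Wd_succ, Hd_succ]
    rcases Nat.mod_two_eq_zero_or_one j with h | h
    · simp only [if_pos h, if_neg (show ¬ (j + 1) % 2 = 0 by omega)]
      exact ⟨by ring, by ring⟩
    · simp only [if_neg (show ¬ j % 2 = 0 by omega), if_pos (show (j + 1) % 2 = 0 by omega), pow_succ]
      exact ⟨by linear_combination, trivial⟩

theorem WH_ge (j : ℕ) {v : ℤ} (hv : 1 ≤ v) : (j : ℤ) < Wd j v ∧ (j : ℤ) < Hd j v := by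
  induction j generalizing v with
  | zero => simp
  | succ j ih =>
    have := ih (v := 2 * v) (by omega)
    rw [Wd_succ, Hd_succ]
    push_cast
    constructor <;> nlinarith [this.1, this.2]

theorem Wd_pos (j : ℕ) {v : ℤ} (hv : 1 ≤ v) : 0 < Wd j v := lt_of_le_of_lt (by positivity) (WH_ge j hv).1
theorem Hd_pos (j : ℕ) {v : ℤ} (hv : 1 ≤ v) : 0 < Hd j v := lt_of_le_of_lt (by positivity) (WH_ge j hv).2

theorem Wd_two (t : ℕ) (v : ℤ) : Wd (2 * (t + 1)) v = 32 * (v * 4 ^ t) * Wd (2 * t) v := by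
  rw [show 2 * (t + 1) = 2 * t + 1 + 1 by ring, (WH_top _ v).1, (WH_top _ v).1, if_neg (by omega), if_pos (by omega),
    pow_mul]
  ring

theorem Hd_even (t : ℕ) (v : ℤ) : Hd (2 * t) v = 2 ^ t * Wd (2 * t) v := by
  induction t with
  | zero => simp
  | succ t ih =>
    rw [Wd_two, show 2 * (t + 1) = 2 * t + 1 + 1 by ring, (WH_top _ v).2, (WH_top _ v).2, if_neg (by omega),
      if_pos (by omega), ih, pow_succ, pow_mul]
    ring

/-- the origin is a level-`j` centre -/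
def Cn : ℕ → ℤ → (V → Tile) → Prop
  | 0, v, x => ∃ s, Canon v (sh s x)
  | j + 1, v, x => Canon v x ∧ Cn j (2 * v) (defl v 0 x)

theorem defl_sh (v : ℤ) (a b : ℤ) (x : V → Tile) :
    defl v 0 (sh (16 * v * b, 2 * a) x) = sh (a, b) (defl v 0 x) := by
  funext P
  simp only [defl, ctr, sh, Prod.mk_add_mk, Prod.fst_add, Prod.snd_add, Prod.fst_zero, Prod.snd_zero]
  congr 3 <;> ring

theorem defl_off (v : ℤ) (o : V) (x : V → Tile) : defl v o x = sh (-o) (defl v 0 x) := by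
  funext P
  simp only [defl, ctr, sh, Prod.fst_add, Prod.snd_add, Prod.fst_zero, Prod.snd_zero, Prod.fst_neg, Prod.snd_neg]
  congr 3 <;> ring

theorem Canon.sh {v : ℤ} (hv : 1 ≤ v) {x : V → Tile} (h : Canon v x) {d : V} (h1 : 16 * v ∣ d.1) (h2 : 2 ∣ d.2) :
    Canon v (sh d x) := by
  refine ⟨fun p => h.valid _, fun p => ?_, fun p => ?_, fun p => ?_⟩
  · rw [sh_apply, h.glueH, sh_apply]; congr 2; ext <;> simp; ring
  · rw [sh_apply, h.glueV, sh_apply]; congr 2; ext <;> simp; ring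
  · have e1 : (p + d).1 % (16 * v) = p.1 % (16 * v) := by
      obtain ⟨k, hk⟩ := h1
      rw [Prod.fst_add, hk, Int.add_mul_emod_self_left]
    have e2 : (p + d).2 % 2 = p.2 % 2 := by rw [Prod.snd_add]; omega
    have := h.tag (p + d)
    simp only [TagOK, tagL, e1, e2, f4_eq_iff.2 (mod16 hv e1).2, usable_congr (mod16 hv e1).1] at this
    exact this

/-- the grid is locally determined -/
theorem Canon.dvd_of_agree {v : ℤ} (hv : 1 ≤ v) {x y : V → Tile} (h : Canon v x) {d : V} (h' : Canon v (B2.sh d y))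
    (hxy : ∀ p : V, 0 ≤ p.1 → p.1 ≤ 2 → 0 ≤ p.2 → p.2 ≤ 1 → x p = y p) : 16 * v ∣ d.1 ∧ 2 ∣ d.2 := by
  have key : ∀ p : V, 0 ≤ p.1 → p.1 ≤ 2 → 0 ≤ p.2 → p.2 ≤ 1 → TagOK v (p - d) (x p) := fun p a b c e => by
    have := h'.tag (p - d)
    rwa [sh_apply, sub_add_cancel, ← hxy p a b c e] at this
  have m1 : (1 : ℤ) % (16 * v) = 1 := Int.emod_eq_of_lt (by omega) (by omega)
  have m2 : (2 : ℤ) % (16 * v) = 2 := Int.emod_eq_of_lt (by omega) (by omega)
  have hd2 : d.2 % 2 = 0 := by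
    by_contra hne
    have a1 := (h.tag (1, 1)).2 (by simp only [m1]; omega)
    have a2 := (h.tag (2, 1)).2 (by simp only [m2]; omega)
    have b1 := (key (1, 1) (by simp) (by simp) (by simp) (by simp)).2
    have b2 := (key (2, 1) (by simp) (by simp) (by simp) (by simp)).2
    have e : (1 - d.2) % 2 = 0 := by omega
    simp only [Prod.fst_sub, Prod.snd_sub, e, a1, a2] at b1 b2
    by_cases c : (1 - d.1) % (16 * v) = 0
    · refine absurd (b2 fun c' => ?_) (by simp)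
      have h3 := dvd_sub (Int.dvd_of_emod_eq_zero c') (Int.dvd_of_emod_eq_zero c)
      rw [show 2 - d.1 - (1 - d.1) = 1 by ring] at h3
      have := Int.le_of_dvd one_pos h3
      omega
    · exact absurd (b1 c) (by simp)
  have a0 := (h.tag (0, 1)).1 (by simp)
  have b0 := (key (0, 1) (by simp) (by simp) (by simp) (by simp)).1 (by simp only [Prod.snd_sub]; omega)
  rw [a0] at b0
  simp only [tagL, Tag.long.injEq, Int.zero_emod, decide_true, Prod.fst_sub, zero_sub] at b0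
  exact ⟨(dvd_neg).1 (Int.dvd_of_emod_eq_zero (of_decide_eq_true b0.1.symm)), Int.dvd_of_emod_eq_zero hd2⟩

theorem Cn.zero {j : ℕ} {v : ℤ} {x : V → Tile} (h : Cn j v x) : Cn 0 v x := by
  cases j with
  | zero => exact h
  | succ j => exact ⟨0, by simpa using h.1⟩

theorem Cn.zero_sh {v : ℤ} {x : V → Tile} (h : Cn 0 v x) (d : V) : Cn 0 v (sh d x) := by
  obtain ⟨s, hs⟩ := h
  exact ⟨s - d, by rwa [sh_sh, sub_add_cancel]⟩

theorem Cn.pred {j : ℕ} {v : ℤ} {x : V → Tile} (h : Cn (j + 1) v x) : Cn j v x := by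
  induction j generalizing v x with
  | zero => exact h.zero
  | succ j ih => exact ⟨h.1, ih h.2⟩

theorem Cn.le {i j : ℕ} {v : ℤ} {x : V → Tile} (h : Cn j v x) (hij : i ≤ j) : Cn i v x := by
  induction j, hij using Nat.le_induction with
  | base => exact h
  | succ j _ ih => exact ih h.pred

theorem Canon.cn_one {v : ℤ} (hv : 1 ≤ v) {x : V → Tile} (h : Canon v x) : Cn 1 v x := by
  obtain ⟨o, -, -, h2⟩ := cstep hv h
  exact ⟨h, -o, by rwa [← defl_off]⟩

theorem Cn.exists {v : ℤ} (hv : 1 ≤ v) {x : V → Tile} (h : Cn 0 v x) (j : ℕ) : ∃ c, Cn j v (sh c x) := by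
  induction j generalizing v x with
  | zero => exact ⟨0, by simpa using h⟩
  | succ j ih =>
    obtain ⟨s, hs⟩ := h
    obtain ⟨c, hc⟩ := ih (v := 2 * v) (by omega) (hs.cn_one hv).2
    refine ⟨(16 * v * c.2, 2 * c.1) + s, ?_⟩
    rw [← sh_sh]
    exact ⟨hs.sh hv (dvd_mul_right _ _) (dvd_mul_right _ _), by rwa [defl_sh]⟩

theorem Cn.sh_iff {j : ℕ} {v : ℤ} (hv : 1 ≤ v) {x : V → Tile} (h : Cn j v x) {d : V} :
    Cn j v (sh d x) ↔ Wd j v ∣ d.1 ∧ Hd j v ∣ d.2 := by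
  induction j generalizing v x d with
  | zero => simpa using h.zero_sh d
  | succ j ih =>
    have hv0 : (16 * v) ≠ 0 := by omega
    rw [Wd_succ, Hd_succ]
    constructor
    · rintro ⟨h1, h2⟩
      obtain ⟨⟨b, hb⟩, ⟨a, ha⟩⟩ := h.1.dvd_of_agree hv h1 fun _ _ _ _ _ => rfl
      obtain rfl : d = (16 * v * b, 2 * a) := Prod.ext hb ha
      rw [defl_sh, ih (by omega) h.2] at h2
      exact ⟨mul_dvd_mul_left _ h2.2, mul_dvd_mul_left _ h2.1⟩
    · rintro ⟨⟨b, hb⟩, ⟨a, ha⟩⟩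
      obtain rfl : d = (16 * v * (Hd j (2 * v) * b), 2 * (Wd j (2 * v) * a)) :=
        Prod.ext (by rw [hb]; ring) (by rw [ha]; ring)
      refine ⟨h.1.sh hv (dvd_mul_right _ _) (dvd_mul_right _ _), ?_⟩
      rw [defl_sh, ih (by omega) h.2]
      exact ⟨dvd_mul_right _ _, dvd_mul_right _ _⟩

/-- at a level-2 centre the offset is zero -/
theorem Cn.rel {j : ℕ} {v : ℤ} (hv : 1 ≤ v) {x : V → Tile} (h : Cn (j + 2) v x) : Rel v 0 x (defl v 0 x) := by
  obtain ⟨o, ho, h1, h2⟩ := cstep hv h.1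
  have h3 := h.2.1.dvd_of_agree (by omega) (by rwa [← defl_off]) fun _ _ _ _ _ => rfl
  have e1 : o.1 = 0 := Int.eq_zero_of_dvd_of_nonneg_of_lt ho.1.1 ho.1.2
    (by have := h3.1; rwa [Prod.fst_neg, dvd_neg, show 16 * (2 * v) = 32 * v by ring] at this)
  have e2 : o.2 = 0 := Int.eq_zero_of_dvd_of_nonneg_of_lt ho.2.1 ho.2.2
    (by have := h3.2; rwa [Prod.snd_neg, dvd_neg] at this)
  obtain rfl : o = 0 := Prod.ext e1 e2
  exact h1

theorem twS : TwS Wd Hd Cn := ⟨Wd_zero, Hd_zero, Wd_succ, Hd_succ, fun h => h.2, fun hv h => h.rel hv⟩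

/-- own edges -/
theorem Cn.own {j : ℕ} {v : ℤ} (hv : 1 ≤ v) {x y : V → Tile} (hx : Cn (j + 1) v x) (hy : Cn (j + 1) v y) (p : V) :
    (¬ Hd j v ∣ p.2 → (x p).E = (y p).E) ∧ (¬ Wd j v ∣ p.1 → (x p).N = (y p).N) :=
  twS.own j hv hx hy (by simp) (by simp)

/-- wires are constant between centres -/
theorem Cn.con {j : ℕ} {v : ℤ} (hv : 1 ≤ v) {x : V → Tile} (hx : Cn j v x) (p : V) :
    (Hd j v ∣ p.2 → ¬ Wd j v ∣ p.1 → (x p).W = (x p).E) ∧ (Wd j v ∣ p.1 → ¬ Hd j v ∣ p.2 → (x p).S = (x p).N) := by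
  cases j with
  | zero => simp
  | succ j =>
    obtain ⟨c, hc⟩ := hx.zero.exists hv (j + 2)
    obtain ⟨c1, c2⟩ := (hx.sh_iff hv).1 hc.pred
    have h := twS.con (j + 1) (p := p - c) hv hc
    have e1 : ((p - c).1 - 1, (p - c).2) + c = (p.1 - 1, p.2) := by ext <;> simp; ring
    have e2 : ((p - c).1, (p - c).2 - 1) + c = (p.1, p.2 - 1) := by ext <;> simp; ring
    simp only [sh_apply, sub_add_cancel, e1, e2] at h
    simp only [Prod.fst_sub, Prod.snd_sub, dvd_sub_left c1, dvd_sub_left c2] at h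
    have eW : (x p).W = (x (p.1 - 1, p.2)).E := by rw [hx.1.glueH]; simp
    have eS : (x p).S = (x (p.1, p.2 - 1)).N := by rw [hx.1.glueV]; simp
    rwa [eW, eS]

/-- centres are locally determined -/
theorem Cn.loc (j : ℕ) {v : ℤ} (hv : 1 ≤ v) : ∃ r : ℕ, ∀ x y : V → Tile, Cn j v x → Cn 0 v y →
    (∀ p ∈ box r, x p = y p) → Cn j v y := by
  induction j generalizing v with
  | zero => exact ⟨0, fun _ _ _ h _ => h⟩
  | succ j ih =>
    obtain ⟨r, hr⟩ := ih (v := 2 * v) (by omega)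
    obtain ⟨w, hw⟩ : ∃ w : ℕ, (w : ℤ) = v := ⟨v.toNat, by omega⟩
    refine ⟨16 * w * r + 2, fun x y hx ⟨s, hs⟩ hxy => ?_⟩
    have hr0 : (0 : ℤ) ≤ r := by positivity
    have hR : ((16 * w * r + 2 : ℕ) : ℤ) = 16 * v * r + 2 := by push_cast; rw [hw]
    have hvr : (r : ℤ) ≤ v * r := by nlinarith
    obtain ⟨h1, h2⟩ := hx.1.dvd_of_agree hv hs fun p a b c d => hxy p (by
      rw [mem_box, hR]; refine ⟨⟨?_, ?_⟩, ?_, ?_⟩ <;> nlinarith)
    have hy : Canon v y := by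
      have := hs.sh hv (d := -s) (dvd_neg.2 h1) (dvd_neg.2 h2)
      rwa [sh_sh, neg_add_cancel, sh_zero] at this
    refine ⟨hy, hr _ _ hx.2 (hy.cn_one hv).2 fun P hP => ?_⟩
    rw [mem_box] at hP
    simp only [defl]
    rw [hxy]
    rw [mem_box, hR]
    simp only [ctr, Prod.fst_zero, Prod.snd_zero, sub_zero]
    refine ⟨⟨?_, ?_⟩, ?_, ?_⟩ <;> nlinarith [hP.1.1, hP.1.2, hP.2.1, hP.2.2]

end Crest.Agent.R189.B2
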