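import Crest.Agent.R189.B2.Abs

/-! Row 189, block B2: COUNT from the absolute picture (helper85). -/

set_option autoImplicit false
set_option linter.unusedSectionVars false

noncomputable section

namespace Crest.Agent.R189.B2

open Finset

theorem sum_tile {M : Type} [AddCommMonoid M] {w q : ℕ} (hw : 0 < w) (hq : w ∣ q) (f : ℕ → M) :
    ∑ u ∈ range q, f u = ∑ u ∈ range q, if w ∣ u then ∑ u' ∈ range w, f (u + u') else 0 := by
  obtain ⟨k, rfl⟩ := hq
  induction k with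
  | zero => simp
  | succ k ih =>
    rw [Nat.mul_succ, sum_range_add, sum_range_add, ← ih]
    congr 1
    symm
    rw [sum_eq_single 0, if_pos (by simp)]
    · rfl
    · intro b hb h0
      rw [if_neg]
      rw [Nat.dvd_add_right (dvd_mul_right _ _)]
      exact Nat.not_dvd_of_pos_of_lt (Nat.pos_of_ne_zero h0) (mem_range.1 hb)
    · intro h
      exact absurd (mem_range.2 hw) h

theorem sum_tile2 {M : Type} [AddCommMonoid M] {w h q : ℕ} (hw : 0 < w) (hh : 0 < h) (hq : w ∣ q) (hq' : h ∣ q)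
    (f : ℕ → ℕ → M) : ∑ u ∈ range q, ∑ v ∈ range q, f u v = ∑ k ∈ range q ×ˢ range q,
      if w ∣ k.1 ∧ h ∣ k.2 then ∑ u' ∈ range w, ∑ v' ∈ range h, f (k.1 + u') (k.2 + v') else 0 := by
  rw [sum_tile hw hq, sum_product]
  refine sum_congr rfl fun u _ => ?_
  by_cases hu : w ∣ u
  · simp only [hu, true_and, if_true]
    rw [sum_congr rfl fun u' _ => sum_tile hh hq' _, sum_comm]
    refine sum_congr rfl fun v _ => ?_
    split_ifs <;> simp
  · simp [hu]

namespace Abs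

variable {X : Type} [TopologicalSpace X] [AddAction V X] [ContinuousConstVAdd V X] {Col : Type} [Fintype Col]
  [DecidableEq Col] {A : Abs X Col} {m : ℕ}

/-- the point at the position `k` -/
def ap (x : X) (k : ℕ × ℕ) : X := (((k.1 : ℤ), (k.2 : ℤ)) : V) +ᵥ x

theorem ap_add (o : V) (x : X) (k : ℕ × ℕ) (u v : ℕ) :
    (o + (((k.1 + u : ℕ) : ℤ), ((k.2 + v : ℕ) : ℤ))) +ᵥ x = (o + ((u : ℤ), (v : ℤ))) +ᵥ ap x k := by
  rw [ap, vadd_vadd]
  congr 1
  ext <;> simp <;> ring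

theorem ap_ap (x : X) (k : ℕ × ℕ) (u v : ℕ) : ap x (k.1 + u, k.2 + v) = ap (ap x k) (u, v) := by
  have := ap_add 0 x k u v
  rwa [zero_add, zero_add] at this

variable (A m) in
/-- number of the positions in `I` with a given tile -/
def cnt (I : Finset (ℕ × ℕ)) (x : X) (τ : Col × Col × Col × Col) : ZMod m := ∑ k ∈ I, if A.T (ap x k) = τ then 1 else 0

theorem T_lc : IsLocallyConstant A.T :=
  (A.E_lc.comp_continuous (continuous_const_vadd _)).prodMk
    (A.E_lc.prodMk ((A.N_lc.comp_continuous (continuous_const_vadd _)).prodMk A.N_lc))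

theorem cnt_lc (I : Finset (ℕ × ℕ)) : IsLocallyConstant (A.cnt m I) := by
  refine (IsLocallyConstant.iff_eventually_eq _).2 fun x => ?_
  filter_upwards [(Filter.eventually_all_finset I).2 fun k _ =>
    ((T_lc (A := A)).comp_continuous (continuous_const_vadd (((k.1 : ℤ), (k.2 : ℤ)) : V))).eventually_eq x] with y hy
  funext τ
  exact sum_congr rfl fun k hk => by rw [show A.T (ap y k) = A.T (ap x k) from hy k hk]

theorem cnt_eq {D : X → Prop} {g : X → ZMod m} (hg : ∀ z z', D z → D z' → A.T z = A.T z' → g z = g z')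
    {J : Finset (ℕ × ℕ)} {p : ℕ × ℕ → Prop} [DecidablePred p] {x y : X} (hx : ∀ k, p k → D (ap x k))
    (hy : ∀ k, p k → D (ap y k)) (h : A.cnt m (J.filter p) x = A.cnt m (J.filter p) y) :
    ∑ k ∈ J, (if p k then g (ap x k) else 0) = ∑ k ∈ J, if p k then g (ap y k) else 0 := by
  classical
  let Γ : Col × Col × Col × Col → ZMod m := fun τ => if h : ∃ z, D z ∧ A.T z = τ then g h.choose else 0
  have hΓ : ∀ z, D z → g z = Γ (A.T z) := fun z hz => by
    have e : ∃ z', D z' ∧ A.T z' = A.T z := ⟨z, hz, rfl⟩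
    simp only [Γ, dif_pos e]
    exact hg _ _ hz e.choose_spec.1 e.choose_spec.2.symm
  have key : ∀ x : X, (∀ k, p k → D (ap x k)) →
      ∑ k ∈ J, (if p k then g (ap x k) else 0) = ∑ τ, Γ τ * A.cnt m (J.filter p) x τ := fun x hx => by
    simp only [cnt, mul_sum]
    rw [sum_comm, ← sum_filter]
    refine sum_congr rfl fun k hk => ?_
    rw [hΓ _ (hx k (mem_filter.1 hk).2)]
    simp
  rw [key x hx, key y hy, h]

theorem Cen.ap {j : ℕ} {x : X} (c : A.Cen j x) {k : ℕ × ℕ} (h1 : A.w j ∣ k.1) (h2 : A.h j ∣ k.2) : A.Cen j (ap x k) :=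
  c.vadd (Int.natCast_dvd_natCast.2 h1) (Int.natCast_dvd_natCast.2 h2)

theorem Same.ap {j : ℕ} {x y : X} (s : A.Same j x y) (k : ℕ × ℕ) : A.Same j (ap x k) (ap y k) := s.vadd _

/-- the horizontal edges of a cell off the level-`j` horizontal lines -/
theorem Cen.apE {j : ℕ} {x y : X} (c : A.Cen j x) (s : A.Same (j + 1) x y) {k : ℕ × ℕ} (h : ¬ A.h j ∣ k.2) :
    (A.T (Abs.ap x k)).1 = (A.T (Abs.ap y k)).1 ∧ (A.T (Abs.ap x k)).2.1 = (A.T (Abs.ap y k)).2.1 := by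
  have h' : ¬ (A.h j : ℤ) ∣ (k.2 : ℤ) := by rwa [Int.natCast_dvd_natCast]
  simp only [T, Abs.ap, vadd_vadd]
  exact ⟨c.ownE s (by simpa using h'), c.ownE s h'⟩

theorem Cen.apN {j : ℕ} {x y : X} (c : A.Cen j x) (s : A.Same (j + 1) x y) {k : ℕ × ℕ} (h : ¬ A.w j ∣ k.1) :
    (A.T (Abs.ap x k)).2.2 = (A.T (Abs.ap y k)).2.2 := by
  have h' : ¬ (A.w j : ℤ) ∣ (k.1 : ℤ) := by rwa [Int.natCast_dvd_natCast]
  simp only [T, Abs.ap, vadd_vadd]
  exact Prod.ext (c.ownN s (by simpa using h')) (c.ownN s h')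

theorem T_ext {x y : X} (h1 : (A.T x).1 = (A.T y).1 ∧ (A.T x).2.1 = (A.T y).2.1) (h2 : (A.T x).2.2 = (A.T y).2.2) :
    A.T x = A.T y := Prod.ext h1.1 (Prod.ext h1.2 h2)

/-- cells on the wires of a level-`(j+1)` cell that are not level-`j` centres -/
theorem Cen.wire {j : ℕ} {z z' : X} (c : A.Cen (j + 1) z) (c' : A.Cen (j + 1) z') (hT : A.T z = A.T z') {k : ℕ × ℕ}
    (h1 : k.1 < A.w (j + 1)) (h2 : k.2 < A.h (j + 1)) (hn : ¬ (A.w j ∣ k.1 ∧ A.h j ∣ k.2))
    (hl : A.w (j + 1) ∣ k.1 ∨ A.h (j + 1) ∣ k.2) : A.T (Abs.ap z k) = A.T (Abs.ap z' k) := by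
  have s := c.same c'
  have c0 := c.le (Nat.le_succ j)
  rcases hl with hl | hl
  · have e : k.1 = 0 := Nat.eq_zero_of_dvd_of_lt hl h1
    have hk : ¬ A.h j ∣ k.2 := fun h => hn ⟨e ▸ dvd_zero _, h⟩
    have k0 : k.2 ≠ 0 := fun h => hk (h ▸ dvd_zero _)
    refine T_ext (c0.apE s hk) ?_
    have hN : A.N z = A.N z' := congrArg (fun τ => τ.2.2.2) hT
    simp only [T, Abs.ap, vadd_vadd, e, Nat.cast_zero, Prod.mk_add_mk, add_zero]
    rw [c.wireN (i := -1 + k.2) (by omega) (by omega), c'.wireN (i := -1 + k.2) (by omega) (by omega),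
      c.wireN (i := k.2) (by omega) (by omega), c'.wireN (i := k.2) (by omega) (by omega)]
    simp only [if_neg (show ¬ (-1 + (k.2 : ℤ) < 0) by omega), if_neg (show ¬ ((k.2 : ℤ) < 0) by omega), hN]
  · have e : k.2 = 0 := Nat.eq_zero_of_dvd_of_lt hl h2
    have hk : ¬ A.w j ∣ k.1 := fun h => hn ⟨h, e ▸ dvd_zero _⟩
    have k0 : k.1 ≠ 0 := fun h => hk (h ▸ dvd_zero _)
    refine T_ext ?_ (c0.apN s hk)
    have hE : A.E z = A.E z' := congrArg (fun τ => τ.2.1) hT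
    simp only [T, Abs.ap, vadd_vadd, e, Nat.cast_zero, Prod.mk_add_mk, add_zero]
    rw [c.wireE (i := -1 + k.1) (by omega) (by omega), c'.wireE (i := -1 + k.1) (by omega) (by omega),
      c.wireE (i := k.1) (by omega) (by omega), c'.wireE (i := k.1) (by omega) (by omega)]
    simp only [if_neg (show ¬ (-1 + (k.1 : ℤ) < 0) by omega), if_neg (show ¬ ((k.1 : ℤ) < 0) by omega), hE, and_self]

theorem count (A : Abs X Col) (H : Hier X) (link : ∀ t₀ j₀ : ℕ, ∃ t, t₀ ≤ t ∧ ∃ j, j₀ ≤ j ∧ A.w j ∣ H.q t ∧ A.h j ∣ H.q t ∧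
    ∀ x, H.ph t x = 0 → A.Cen j x) : H.Count := by
  intro m hm
  have : NeZero m := ⟨hm.ne'⟩
  let κ := (Col × Col × Col × Col → ZMod m)
  let e := Fintype.equivFin (κ × κ × κ × κ)
  refine ⟨Fintype.card (κ × κ × κ × κ), fun ι _ h hlc t₀ => ?_⟩
  obtain ⟨r, hr⟩ := A.det (fun x i => h i x) ((IsLocallyConstant.iff_eventually_eq _).2 fun x => by
    filter_upwards [Filter.eventually_all.2 fun i => (hlc i).eventually_eq x] with y hy using funext hy)
  obtain ⟨t, ht, j, hj, qw, qh, hcen⟩ := link t₀ (2 * r + 5)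
  obtain ⟨μ, rfl⟩ : ∃ μ, j = μ + 3 := ⟨j - 3, by omega⟩
  have wd : ∀ {i}, i ≤ μ + 3 → A.w i ∣ H.q t := fun hi => (Int.natCast_dvd_natCast.1 (w_le hi)).trans qw
  have hd : ∀ {i}, i ≤ μ + 3 → A.h i ∣ H.q t := fun hi => (Int.natCast_dvd_natCast.1 (h_le hi)).trans qh
  have wp : ∀ i, 0 < A.w i := fun i => (A.le_w i).pos
  have hp : ∀ i, 0 < A.h i := fun i => (A.le_h i).pos
  have w0 := A.le_w μ
  have h0 := A.le_h μ
  let o : V := (-((A.w μ / 2 : ℕ) : ℤ), -((A.h μ / 2 : ℕ) : ℤ))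
  let J := range (H.q t) ×ˢ range (H.q t)
  let P : ℕ → ℕ × ℕ → Prop := fun i k => A.w i ∣ k.1 ∧ A.h i ∣ k.2
  refine ⟨t, ht, o, fun x => e (A.cnt m (J.filter (P (μ + 1))) x, A.cnt m (J.filter (P (μ + 2))) x,
    A.cnt m ((range (H.q t) ×ˢ range 1).filter fun k => A.w (μ + 1) ∣ k.1 ∧ k.2 = 0) x,
    A.cnt m ((range 1 ×ˢ range (H.q t)).filter fun k => k.1 = 0 ∧ A.h (μ + 1) ∣ k.2) x),
    ((cnt_lc _).prodMk ((cnt_lc _).prodMk ((cnt_lc _).prodMk (cnt_lc _)))).comp e, fun x y hx hy hc i => ?_⟩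
  have cx := hcen x hx
  have cy := hcen y hy
  have sxy := cx.same cy
  simp only [e.injective.eq_iff, Prod.mk.injEq] at hc
  obtain ⟨e1, e2, e3, e4⟩ := hc
  -- windows in the cell around a level-`μ` centre
  have win : ∀ z z' : X, A.Cen μ z → A.Cen μ z' → A.Same (μ + 1) z z' → ∀ u v : ℕ, u < A.w μ → v < A.h μ →
      (v ≠ 0 → u ≠ 0 → A.T z = A.T z') → (u = 0 → v ≠ 0 → (A.T z).1 = (A.T z').1) →
      (v = 0 → u ≠ 0 → (A.T z).2.2.1 = (A.T z').2.2.1) →
      h i ((o + ((u : ℤ), (v : ℤ))) +ᵥ z) = h i ((o + ((u : ℤ), (v : ℤ))) +ᵥ z') := by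
    intro z z' c c' s u v hu hv a1 a2 a3
    have s1 := (s.le (i := 1) (by omega)).vadd (o + ((u : ℤ), (v : ℤ)))
    refine congrFun (hr _ _ s1.1 s1.2 fun d hd => ?_) i
    rw [mem_box] at hd
    simp only [vadd_vadd]
    refine ⟨c.locE c' s ?_ ?_ (fun b1 b2 => ?_) fun b1 b2 => ?_, c.locN c' s ?_ ?_ (fun b1 b2 => ?_) fun b1 b2 => ?_⟩ <;>
      simp only [o, Prod.fst_add, Prod.snd_add] at * <;> try omega
    · by_cases u0 : u = 0
      · exact a2 u0 (by omega)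
      · rw [a1 (by omega) u0]
    · rw [a1 (by omega) (by omega)]
    · by_cases v0 : v = 0
      · exact a3 v0 (by omega)
      · rw [a1 v0 (by omega)]
    · rw [a1 (by omega) (by omega)]
  refine ⟨?_, ?_, ?_⟩
  · let G : X → ZMod m := fun z => ∑ u ∈ range (A.w μ), ∑ v ∈ range (A.h μ), h i ((o + ((u : ℤ), (v : ℤ))) +ᵥ z)
    have hG : ∀ z z', A.Cen μ z → A.Cen μ z' → A.Same (μ + 1) z z' → A.T z = A.T z' → G z = G z' :=
      fun z z' c c' s hT => sum_congr rfl fun u hu => sum_congr rfl fun v hv =>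
        win z z' c c' s u v (mem_range.1 hu) (mem_range.1 hv) (fun _ _ => hT) (fun _ _ => by rw [hT]) fun _ _ => by rw [hT]
    let Q : ℕ × ℕ → Prop := fun k => P μ k ∧ ¬ P (μ + 1) k ∧ (A.w (μ + 2) ∣ k.1 ∨ A.h (μ + 2) ∣ k.2)
    let K : X → ZMod m := fun z => ∑ u ∈ range (A.w (μ + 2)), ∑ v ∈ range (A.h (μ + 2)),
      if Q (u, v) then G (ap z (u, v)) else 0
    have dec : ∀ x : X, ∑ u ∈ range (H.q t), ∑ v ∈ range (H.q t), h i ((o + ((u : ℤ), (v : ℤ))) +ᵥ x) =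
        ∑ k ∈ J, (if P (μ + 1) k then G (ap x k) else 0) + ∑ k ∈ J, (if P (μ + 2) k then K (ap x k) else 0) +
        ∑ k ∈ J, if P μ k ∧ ¬ P (μ + 1) k ∧ ¬ (A.w (μ + 2) ∣ k.1 ∨ A.h (μ + 2) ∣ k.2) then G (ap x k) else 0 := fun x => by
      have b : ∑ k ∈ J, (if P (μ + 2) k then K (ap x k) else 0) = ∑ k ∈ J, if Q k then G (ap x k) else 0 := by
        rw [sum_product' _ _ fun u v => if Q (u, v) then G (ap x (u, v)) else 0,
          sum_tile2 (wp (μ + 2)) (hp (μ + 2)) (wd (by omega)) (hd (by omega))]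
        refine sum_congr rfl fun k _ => if_ctx_congr Iff.rfl (fun hk => ?_) fun _ => rfl
        refine sum_congr rfl fun u _ => sum_congr rfl fun v _ => ?_
        have d1 := (A.w_dvd (μ + 1)).trans hk.1
        have d2 := (A.h_dvd (μ + 1)).trans hk.2
        rw [ap_ap]
        refine if_congr ?_ rfl rfl
        simp only [Q, P, Nat.dvd_add_right hk.1, Nat.dvd_add_right hk.2, Nat.dvd_add_right d1, Nat.dvd_add_right d2,
          Nat.dvd_add_right ((A.w_dvd μ).trans d1), Nat.dvd_add_right ((A.h_dvd μ).trans d2)]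
      rw [b, sum_tile2 (wp μ) (hp μ) (wd (by omega)) (hd (by omega)), ← sum_add_distrib, ← sum_add_distrib]
      refine sum_congr rfl fun k _ => ?_
      simp only [ap_add]
      have b1 : P (μ + 1) k → P μ k := fun h => ⟨(A.w_dvd μ).trans h.1, (A.h_dvd μ).trans h.2⟩
      change (if P μ k then G (ap x k) else 0) = _
      by_cases a0 : P μ k <;> by_cases a1 : P (μ + 1) k <;>
        by_cases a2 : (A.w (μ + 2) ∣ k.1 ∨ A.h (μ + 2) ∣ k.2) <;> simp_all [Q]
    rw [dec, dec]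
    congr 1
    · congr 1
      · exact cnt_eq (D := A.Cen (μ + 1)) (fun z z' c c' => hG z z' (c.le (by omega)) (c'.le (by omega)) (c.same c'))
          (fun k hk => (cx.le (by omega)).ap hk.1 hk.2) (fun k hk => (cy.le (by omega)).ap hk.1 hk.2) e1
      · refine cnt_eq (D := A.Cen (μ + 2)) (fun z z' c c' hT => ?_)
          (fun k hk => (cx.le (by omega)).ap hk.1 hk.2) (fun k hk => (cy.le (by omega)).ap hk.1 hk.2) e2
        refine sum_congr rfl fun u hu => sum_congr rfl fun v hv => if_ctx_congr Iff.rfl (fun hk => ?_) fun _ => rfl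
        exact hG _ _ ((c.le (by omega)).ap hk.1.1 hk.1.2) ((c'.le (by omega)).ap hk.1.1 hk.1.2)
          (((c.same c').le (by omega)).ap _) (c.wire c' hT (mem_range.1 hu) (mem_range.1 hv) hk.2.1 hk.2.2)
    · refine sum_congr rfl fun k _ => if_ctx_congr Iff.rfl (fun hk => ?_) fun _ => rfl
      exact hG _ _ ((cx.le (by omega)).ap hk.1.1 hk.1.2) ((cy.le (by omega)).ap hk.1.1 hk.1.2) ((sxy.le (by omega)).ap _)
        (T_ext ((cx.le (by omega)).apE sxy fun h => hk.2.2 (Or.inr h)) ((cx.le (by omega)).apN sxy fun h => hk.2.2 (Or.inl h)))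
  · let G : X → ZMod m := fun z => ∑ u ∈ range (A.w μ), h i ((o + ((u : ℤ), ((0 : ℕ) : ℤ))) +ᵥ z)
    have hG : ∀ z z', A.Cen μ z → A.Cen μ z' → A.Same (μ + 1) z z' → (A.T z).2.2 = (A.T z').2.2 → G z = G z' :=
      fun z z' c c' s hT => sum_congr rfl fun u hu => win z z' c c' s u 0 (mem_range.1 hu) (hp μ) (fun h => absurd rfl h)
        (fun _ h => absurd rfl h) fun _ _ => by rw [hT]
    have dec : ∀ x : X, ∑ u ∈ range (H.q t), h i ((o + ((u : ℤ), (0 : ℤ))) +ᵥ x) =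
        ∑ k ∈ range (H.q t) ×ˢ range 1, (if A.w (μ + 1) ∣ k.1 ∧ k.2 = 0 then G (ap x k) else 0) +
        ∑ u ∈ range (H.q t), if A.w μ ∣ u ∧ ¬ A.w (μ + 1) ∣ u then G (ap x (u, 0)) else 0 := fun x => by
      rw [sum_tile (wp μ) (wd (by omega)), sum_product, ← sum_add_distrib]
      refine sum_congr rfl fun u _ => ?_
      have b0 : ∑ u' ∈ range (A.w μ), h i ((o + (((u + u' : ℕ) : ℤ), (0 : ℤ))) +ᵥ x) = G (ap x (u, 0)) :=
        sum_congr rfl fun u' _ => congrArg (h i) (ap_add o x (u, 0) u' 0)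
      have b1 : A.w (μ + 1) ∣ u → A.w μ ∣ u := (A.w_dvd μ).trans
      rw [b0]
      by_cases a0 : A.w μ ∣ u <;> by_cases a1 : A.w (μ + 1) ∣ u <;> simp_all
    rw [dec, dec]
    congr 1
    · exact cnt_eq (D := A.Cen (μ + 1))
        (fun z z' c c' hT => hG z z' (c.le (by omega)) (c'.le (by omega)) (c.same c') (by rw [hT]))
        (fun k hk => (cx.le (by omega)).ap hk.1 (hk.2 ▸ dvd_zero _)) (fun k hk => (cy.le (by omega)).ap hk.1 (hk.2 ▸ dvd_zero _)) e3
    · refine sum_congr rfl fun u _ => if_ctx_congr Iff.rfl (fun hk => ?_) fun _ => rfl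
      exact hG _ _ ((cx.le (by omega)).ap hk.1 (dvd_zero _)) ((cy.le (by omega)).ap hk.1 (dvd_zero _)) ((sxy.le (by omega)).ap _)
        ((cx.le (by omega)).apN (sxy.le (by omega)) hk.2)
  · let G : X → ZMod m := fun z => ∑ v ∈ range (A.h μ), h i ((o + (((0 : ℕ) : ℤ), (v : ℤ))) +ᵥ z)
    have hG : ∀ z z', A.Cen μ z → A.Cen μ z' → A.Same (μ + 1) z z' → (A.T z).1 = (A.T z').1 → G z = G z' :=
      fun z z' c c' s hT => sum_congr rfl fun v hv => win z z' c c' s 0 v (wp μ) (mem_range.1 hv) (fun _ h => absurd rfl h)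
        (fun _ _ => hT) fun _ h => absurd rfl h
    have dec : ∀ x : X, ∑ v ∈ range (H.q t), h i ((o + ((0 : ℤ), (v : ℤ))) +ᵥ x) =
        ∑ k ∈ range 1 ×ˢ range (H.q t), (if k.1 = 0 ∧ A.h (μ + 1) ∣ k.2 then G (ap x k) else 0) +
        ∑ v ∈ range (H.q t), if A.h μ ∣ v ∧ ¬ A.h (μ + 1) ∣ v then G (ap x (0, v)) else 0 := fun x => by
      rw [sum_tile (hp μ) (hd (by omega)), sum_product_right, ← sum_add_distrib]
      refine sum_congr rfl fun v _ => ?_
      have b0 : ∑ v' ∈ range (A.h μ), h i ((o + ((0 : ℤ), ((v + v' : ℕ) : ℤ))) +ᵥ x) = G (ap x (0, v)) :=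
        sum_congr rfl fun v' _ => congrArg (h i) (ap_add o x (0, v) 0 v')
      have b1 : A.h (μ + 1) ∣ v → A.h μ ∣ v := (A.h_dvd μ).trans
      rw [b0]
      by_cases a0 : A.h μ ∣ v <;> by_cases a1 : A.h (μ + 1) ∣ v <;> simp_all
    rw [dec, dec]
    congr 1
    · exact cnt_eq (D := A.Cen (μ + 1))
        (fun z z' c c' hT => hG z z' (c.le (by omega)) (c'.le (by omega)) (c.same c') (by rw [hT]))
        (fun k hk => (cx.le (by omega)).ap (hk.1 ▸ dvd_zero _) hk.2) (fun k hk => (cy.le (by omega)).ap (hk.1 ▸ dvd_zero _) hk.2) e4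
    · refine sum_congr rfl fun v _ => if_ctx_congr Iff.rfl (fun hk => ?_) fun _ => rfl
      exact hG _ _ ((cx.le (by omega)).ap (dvd_zero _) hk.1) ((cy.le (by omega)).ap (dvd_zero _) hk.1) ((sxy.le (by omega)).ap _)
        ((cx.le (by omega)).apE (sxy.le (by omega)) hk.2).1

end Abs

end Crest.Agent.R189.B2
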