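import Crest.Agent.R189.B2.Tiles

/-! Row 189, B2: tile decoding and basic calculus of quantum models (helper26) (see notes189/h8.md) -/

set_option autoImplicit false

namespace Crest.Agent.R189.B2

open COMP

theorem plain_of {τ : Tile} (h : τ.Valid) {c : Fin 4} {g : Bool} (hE : τ.E.tag = .long false c g)
    (hN : τ.N.tag = .short false) : plain τ.W τ.E τ.S τ.N = true := by
  obtain ⟨W, E, S, N⟩ := τ
  cases E <;> cases N <;> simp only [Col.tag, Tag.long.injEq, Tag.short.injEq, reduceCtorEq] at hE hN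
  obtain ⟨rfl, rfl, rfl⟩ := hE
  subst hN
  rcases h with h | h <;> simp only [Tile.okH, Tile.tr, Bool.or_eq_true] at h <;> rcases h with (h | h) | h
  · exact h
  · unfold vwire at h
    split at h <;> simp_all
  · unfold hwire at h
    split at h <;> simp_all
  · unfold plain at h
    split at h <;> simp_all
  · unfold vwire at h
    split at h <;> simp_all
  · unfold hwire at h
    split at h <;> simp_all

theorem vwire_of {τ : Tile} (h : τ.Valid) {c c' : Fin 4} {g g' : Bool} (hE : τ.E.tag = .long true c g)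
    (hW : τ.W.tag = .long false c' g') : vwire τ.W τ.E τ.S τ.N = true := by
  obtain ⟨W, E, S, N⟩ := τ
  cases W <;> cases E <;> simp only [Col.tag, Tag.long.injEq, reduceCtorEq] at hE hW
  obtain ⟨rfl, rfl, rfl⟩ := hE
  obtain ⟨rfl, rfl, rfl⟩ := hW
  rcases h with h | h <;> simp only [Tile.okH, Tile.tr, Bool.or_eq_true] at h <;> rcases h with (h | h) | h
  · unfold plain at h
    split at h <;> simp_all
  · exact h
  · unfold hwire at h
    split at h <;> simp_all
  · unfold plain at h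
    split at h <;> simp_all
  · unfold vwire at h
    split at h <;> simp_all
  · unfold hwire at h
    split at h <;> simp_all

theorem hwire_of {τ : Tile} (h : τ.Valid) (hN : τ.N.tag = .short true) (hS : τ.S.tag = .short false) :
    hwire τ.W τ.E τ.S τ.N = true := by
  obtain ⟨W, E, S, N⟩ := τ
  cases S <;> cases N <;> simp only [Col.tag, Tag.short.injEq, reduceCtorEq] at hN hS
  subst hN hS
  rcases h with h | h <;> simp only [Tile.okH, Tile.tr, Bool.or_eq_true] at h <;> rcases h with (h | h) | h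
  · unfold plain at h
    split at h <;> simp_all
  · unfold vwire at h
    split at h <;> simp_all
  · exact h
  · unfold plain at h
    split at h <;> simp_all
  · unfold vwire at h
    split at h <;> simp_all
  · unfold hwire at h
    split at h <;> simp_all

theorem dec_trU_det {col c : Fin 4} {par : Bool} {s s1 s2 : St} {i o1 o2 : Option Up}
    (h1 : trU col c par s s1 i o1 = true) (h2 : trU col c par s s2 i o2 = true) : s1 = s2 := by
  cases s <;> cases s1 <;> cases s2 <;> cases i <;> cases o1 <;> cases o2 <;> simp_all [trU]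

/-- forward determinism of plain cells -/
theorem plain_det {W E S N E' N' : Col} (h : plain W E S N = true) (h' : plain W E' S N' = true)
    (ht : E.tag = E'.tag) : E = E' := by
  unfold plain at h h'
  split at h
  · split at h'
    · rename_i h1 h2
      simp only [Col.long.injEq, Col.short.injEq] at h1 h2
      obtain ⟨-, -, -, rfl, rfl, rfl⟩ := h1
      obtain ⟨-, rfl⟩ := h2
      simp only [Col.tag, Tag.long.injEq, true_and] at ht
      obtain ⟨rfl, rfl⟩ := ht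
      simp only [Bool.and_eq_true, decide_eq_true_eq] at h h'
      obtain ⟨⟨rfl, rfl⟩, h⟩ := h
      obtain ⟨⟨rfl, rfl⟩, h'⟩ := h'
      split_ifs at h h'
      · rw [dec_trU_det h h']
      · simp only [Bool.and_eq_true, decide_eq_true_eq] at h h'
        rw [← h.1.1, ← h'.1.1]
    · simp at h'
  · simp at h

variable {C : Type} [COMP C] {z : C} (m : QM C z)

theorem QM.le_z (p : V) (A : Tile → Prop) : m.ev p A ≤ z :=
  (m.mono p fun _ _ _ => trivial).trans (m.top p).le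

theorem QM.congr (p : V) {A B : Tile → Prop} (h : ∀ τ, τ.Valid → (A τ ↔ B τ)) : m.ev p A = m.ev p B :=
  le_antisymm (m.mono p fun τ v => (h τ v).1) (m.mono p fun τ v => (h τ v).2)

theorem QM.le_and {u : C} {p : V} {A B : Tile → Prop} (h1 : u ≤ m.ev p A) (h2 : u ≤ m.ev p B) :
    u ≤ m.ev p fun τ => A τ ∧ B τ := by
  rw [m.inf]; exact le_inf' (m.cp p A B) h1 h2

theorem QM.weaken {u : C} {p : V} {A B : Tile → Prop} (h1 : u ≤ m.ev p A) (h : ∀ τ, τ.Valid → A τ → B τ) :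
    u ≤ m.ev p B := h1.trans (m.mono p h)

theorem QM.not_le (p : V) (A : Tile → Prop) : m.ev p (fun τ => ¬ A τ) ≤ (m.ev p A)ᶜ := by
  rw [m.compl]; exact inf_le_r (cp_compl (cp_of_ge (m.le_z p A)))

theorem QM.orth {u : C} {p : V} {A B : Tile → Prop} (h1 : u ≤ m.ev p A) (h : ∀ τ, τ.Valid → A τ → ¬ B τ) :
    u ≤ (m.ev p B)ᶜ := (m.weaken h1 h).trans (m.not_le p B)

theorem QM.le_not {u : C} {p : V} {A : Tile → Prop} (hz : u ≤ z) (h : u ≤ (m.ev p A)ᶜ) :
    u ≤ m.ev p fun τ => ¬ A τ := by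
  rw [m.compl]; exact le_inf' (cp_compl (cp_of_ge (m.le_z p A))) hz h

theorem QM.absurd {u : C} {p : V} {A : Tile → Prop} (h1 : u ≤ m.ev p A) (h : ∀ τ, τ.Valid → ¬ A τ) : u = ⊥ :=
  le_bot_iff.1 ((m.weaken h1 fun τ v a => h τ v a).trans (m.bot p).le)

theorem QM.or (p : V) (A B : Tile → Prop) : m.ev p (fun τ => A τ ∨ B τ) = m.ev p A ⊔ m.ev p B := by
  refine le_antisymm ?_ (sup_le' (m.cp p A B) (m.mono p fun _ _ => Or.inl) (m.mono p fun _ _ => Or.inr))
  have h := m.cp p (fun τ => A τ ∨ B τ) A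
  have h' := cp_compl h
  rw [split h]
  exact sup_le' (cp_of_orth ((inf_le_r h).trans (le_compl_comm.1 (inf_le_r h')))) ((inf_le_r h).trans (le_sup_l (m.cp p A B)))
    ((m.weaken (m.le_and (inf_le_l h') (m.le_not ((inf_le_l h').trans (m.le_z _ _)) (inf_le_r h')))
      fun _ _ h => h.1.resolve_left h.2).trans (le_sup_r (m.cp p A B)))

theorem QM.or_le {u : C} {p : V} {A B : Tile → Prop} (h1 : m.ev p A ≤ u) (h2 : m.ev p B ≤ u) :
    m.ev p (fun τ => A τ ∨ B τ) ≤ u := by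
  rw [m.or]; exact sup_le' (m.cp p A B) h1 h2

theorem QM.ex_ind {ι : Type} [Finite ι] {p : V} {P : C → Prop} (h0 : P ⊥)
    (hs : ∀ A B, P (m.ev p A) → P (m.ev p B) → P (m.ev p A ⊔ m.ev p B)) {A : ι → Tile → Prop} (h : ∀ i, P (m.ev p (A i))) :
    P (m.ev p fun τ => ∃ i, A i τ) := by
  classical
  have := Fintype.ofFinite ι
  have key : ∀ s : Finset ι, P (m.ev p fun τ => ∃ i ∈ s, A i τ) := fun s => by
    induction s using Finset.induction_on with
    | empty => simpa [m.bot] using h0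
    | insert i s _ ih =>
      simp only [Finset.mem_insert, exists_eq_or_imp, m.or]
      exact hs _ _ (h i) ih
  simpa using key Finset.univ

/-- finite disjunctions -/
theorem QM.ex_le {ι : Type} [Finite ι] {u : C} {p : V} {A : ι → Tile → Prop} (h : ∀ i, m.ev p (A i) ≤ u) :
    m.ev p (fun τ => ∃ i, A i τ) ≤ u :=
  m.ex_ind (P := (· ≤ u)) bot_le (fun A B => sup_le' (m.cp p A B)) h

theorem QM.cp_ex {ι : Type} [Finite ι] {u : C} {p : V} {A : ι → Tile → Prop} (h : ∀ i, Cp u (m.ev p (A i))) :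
    Cp u (m.ev p fun τ => ∃ i, A i τ) :=
  m.ex_ind (P := Cp u) (cp_bot u) (fun A B h1 h2 => cp_sup h1 h2 (m.cp p A B)) h

theorem QM.cp_and {u : C} {p : V} {A B : Tile → Prop} (h1 : Cp u (m.ev p A)) (h2 : Cp u (m.ev p B)) :
    Cp u (m.ev p fun τ => A τ ∧ B τ) := by
  rw [m.inf]; exact cp_inf h1 h2 (m.cp p A B)

/-- compatible with the four edges => compatible with the cell -/
theorem QM.cp_cell {u : C} {p : V} (hW : ∀ c, Cp u (m.ev p fun τ => τ.W = c)) (hE : ∀ c, Cp u (m.ev p fun τ => τ.E = c))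
    (hS : ∀ c, Cp u (m.ev p fun τ => τ.S = c)) (hN : ∀ c, Cp u (m.ev p fun τ => τ.N = c)) (A : Tile → Prop) :
    Cp u (m.ev p A) := by
  rw [m.congr p (B := fun τ => ∃ τ₀ : {τ₀ // A τ₀}, (τ.W = τ₀.1.W ∧ τ.E = τ₀.1.E) ∧ τ.S = τ₀.1.S ∧ τ.N = τ₀.1.N) fun τ _ =>
    ⟨fun h => ⟨⟨τ, h⟩, ⟨rfl, rfl⟩, rfl, rfl⟩, fun ⟨τ₀, h⟩ => Tile.ext h.1.1 h.1.2 h.2.1 h.2.2 ▸ τ₀.2⟩]
  exact m.cp_ex fun τ₀ => m.cp_and (m.cp_and (hW _) (hE _)) (m.cp_and (hS _) (hN _))

/-- if `u` forces `g`, and on `g` the N edge is a function of the S and W edges, compatibility passes to the N edge -/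
theorem QM.cp_of_det {u : C} {p : V} {g : Tile → Prop} (hg : u ≤ m.ev p g)
    (hd : ∀ τ τ' : Tile, τ.Valid → τ'.Valid → g τ → g τ' → τ.S = τ'.S → τ.W = τ'.W → τ.N = τ'.N)
    (hS : ∀ c, Cp u (m.ev p fun τ => τ.S = c)) (hW : ∀ c, Cp u (m.ev p fun τ => τ.W = c)) (c : Col) :
    Cp u (m.ev p fun τ => τ.N = c) := by
  rw [m.congr p (B := fun τ => (∃ τ₀ : {τ₀ : Tile // τ₀.Valid ∧ g τ₀ ∧ τ₀.N = c}, g τ ∧ τ.S = τ₀.1.S ∧ τ.W = τ₀.1.W) ∨
    (τ.N = c ∧ ¬ g τ)) fun τ v => ⟨fun h => (em (g τ)).imp (fun h' => ⟨⟨τ, v, h', h⟩, h', rfl, rfl⟩) fun h' => ⟨h, h'⟩,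
      fun h => h.elim (fun ⟨τ₀, h⟩ => (hd τ τ₀.1 v τ₀.2.1 h.1 τ₀.2.2.1 h.2.1 h.2.2).trans τ₀.2.2.2) And.left⟩, m.or]
  exact cp_sup (m.cp_ex fun τ₀ => m.cp_and (cp_of_le hg) (m.cp_and (hS _) (hW _)))
    (cp_of_orth (m.orth hg fun _ _ h h' => h'.2 h)) (m.cp _ _ _)

/-- the own E and N edges of the cell `p` have the colours given by the position `o` -/
def Own (v : ℤ) (o p : V) (τ : Tile) : Prop :=
  (p.2 % 2 = 1 → τ.E = ownH v p.1 (up v o p)) ∧ (p.1 % (16 * v) ≠ 0 → τ.N = ownV v p.1 p.2 (up v o p))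

/-- representatives of the positions -/
def Pos (v : ℤ) (o : V) : Prop := (0 ≤ o.1 ∧ o.1 < 32 * v) ∧ (0 ≤ o.2 ∧ o.2 < 2)

/-- a partition of `z` into position events -/
structure QM.Part (m : QM C z) (v : ℤ) (P : V → C) : Prop where
  le : ∀ o, P o ≤ z
  orth : ∀ o o', Pos v o → Pos v o' → o ≠ o' → P o ≤ (P o')ᶜ
  cover : ∀ u, (∀ o, Pos v o → P o ≤ u) → z ≤ u
  own : ∀ o, Pos v o → ∀ p, P o ≤ m.ev p (Own v o p)

end Crest.Agent.R189.B2
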