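import Crest.Agent.R189.B2.Infl
import Crest.Agent.R189.B2.Arith

/-! Row 189, B2: periodicity of the own colours, translation of `Rel`, the model tower (helper38). -/

set_option autoImplicit false

namespace Crest.Agent.R189.B2

variable {v : ℤ}

theorem mdl_valid_loc (hv : 1 ≤ v) (o : V) {y : V → Tile} (hH : ∀ p : V, (y p).E = (y (p.1 + 1, p.2)).W)
    (hV : ∀ p : V, (y p).N = (y (p.1, p.2 + 1)).S) (ht : ∀ p, TagOK (2 * v) p (y p)) (p : V)
    (hc : p.1 % (16 * v) = 0 → p.2 % 2 = 0 → (y (up v o p)).Valid) : (infl v o y p).Valid := by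
  by_cases h1 : p.1 % (16 * v) = 0 <;> by_cases h2 : p.2 % 2 = 1
  · have e1 := (ifl_pred0 (by omega) h1).1
    have e2 : (p.2 - 1) / 2 = p.2 / 2 := by omega
    refine Or.inl ?_
    simp only [Tile.okH, infl, inflE, inflN, if_pos h1, if_pos h2, Bool.or_eq_true]
    refine Or.inl (Or.inr ?_)
    have := ifl_vwire hv h1 (up v o p) (ht (up v o p)).1
    simp only [up, e1, e2] at this ⊢
    rwa [← add_sub_assoc]
  · rw [ifl_centre hv o hH hV h1 (by omega)]
    exact (hc h1 (by omega)).tr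
  · have e1 := (ifl_pred1 (by omega) h1).1
    have e2 : (p.2 - 1) / 2 = p.2 / 2 := by omega
    refine Or.inl ?_
    simp only [Tile.okH, infl, inflE, inflN, if_neg h1, if_pos h2, Bool.or_eq_true, ownV, if_neg (show ¬(p.2 - 1) % 2 = 1 by omega)]
    refine Or.inl (Or.inl ?_)
    have := ifl_plain hv h1 (up v o p)
    simp only [up, e1, e2] at this ⊢
    exact this
  · have e1 := (ifl_pred1 (by omega) h1).1
    have e2 : (p.2 - 1) / 2 = p.2 / 2 - 1 := by omega
    refine Or.inl ?_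
    simp only [Tile.okH, infl, inflE, inflN, if_neg h1, if_neg h2, Bool.or_eq_true, ownV, if_pos (show (p.2 - 1) % 2 = 1 by omega)]
    refine Or.inr ?_
    have := ifl_hwire p.1 (up v o p) (ht (up v o p)).2
    simp only [up, e1, e2] at this ⊢
    rwa [← add_sub_assoc]

theorem mod_per {n a : ℤ} (h : n ∣ a) (X : ℤ) : (X + a) % n = X % n := by
  obtain ⟨c, rfl⟩ := h
  exact Int.add_mul_emod_self_left _ _ _

theorem f4_per {n a : ℤ} (hn : n ≠ 0) (h : 4 * n ∣ a) (X : ℤ) : f4 ((X + a) / n) = f4 (X / n) := by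
  obtain ⟨c, rfl⟩ := h
  rw [f4_eq_iff, show 4 * n * c = n * (4 * c) by ring, Int.add_mul_ediv_left _ _ hn]
  omega

theorem mk_per {a : ℤ} (h : 8 * v ∣ a) (Y : ℤ) : mk v (Y + a) = mk v Y := by
  rw [mk, mk, mod_per h, mod_per ((show 2 * v ∣ 8 * v from ⟨4, by ring⟩).trans h)]

theorem usable_per {a : ℤ} (h : 4 * v ∣ a) (X : ℤ) : usable v (X + a) = usable v X := by
  rw [usable, usable, mod_per h]

theorem stOf_per {a : ℤ} (h : 8 * v ∣ a) (X Y : ℤ) : stOf v X (Y + a) = stOf v X Y := by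
  rw [stOf, stOf, mod_per h, mk_per h, show Y + a - 1 = Y - 1 + a by ring, mk_per h,
    usable_per (v := 2 * v) (by rwa [show 4 * (2 * v) = 8 * v by ring])]

theorem ownH_per (hv : 1 ≤ v) {a : ℤ} {d : V} (ha : 16 * v ∣ a) (h1 : 32 * v ∣ d.1) (h2 : 2 ∣ d.2) (X : ℤ) (P : V) :
    ownH v (X + a) (P + d) = ownH v X P := by
  have h8 : 8 * v ∣ d.1 := (show 8 * v ∣ 32 * v from ⟨4, by ring⟩).trans h1
  rw [ownH, ownH, Prod.fst_add, Prod.snd_add, mod_per ha, mod_per h2, stOf_per h8,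
    f4_per (by omega) (by rwa [show 4 * (4 * v) = 16 * v by ring]),
    f4_per (by omega) (by rwa [show 4 * (8 * v) = 32 * v by ring]),
    usable_per ((show 4 * v ∣ 16 * v from ⟨4, by ring⟩).trans ha)]

theorem upOf_per (hv : 1 ≤ v) {a : ℤ} {d : V} (ha : 16 * v ∣ a) (h1 : 32 * v ∣ d.1) (h2 : 2 ∣ d.2) (X : ℤ) (P : V) :
    upOf v (X + a) (P + d) = upOf v X P := by
  have h8 : 8 * v ∣ d.1 := (show 8 * v ∣ 32 * v from ⟨4, by ring⟩).trans h1
  rw [upOf, upOf, Prod.fst_add, Prod.snd_add, mod_per ha, mod_per h2, mk_per h8,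
    f4_per (by omega) (by rwa [show 4 * (8 * v) = 32 * v by ring]), add_right_comm P.1 d.1 1, mod_per h1]

theorem ownV_per (hv : 1 ≤ v) {a b : ℤ} {d : V} (ha : 16 * v ∣ a) (hb : 2 ∣ b) (h1 : 32 * v ∣ d.1) (h2 : 2 ∣ d.2)
    (X y : ℤ) (P : V) : ownV v (X + a) (y + b) (P + d) = ownV v X y P := by
  rw [ownV, ownV, mod_per hb, upOf_per hv ha h1 h2,
    show ((P + d).1 - 1, (P + d).2) = (P.1 - 1, P.2) + d from Prod.ext (by simp; ring) rfl, upOf_per hv ha h1 h2]

theorem up_shift (hv : 1 ≤ v) (o o₁ d p : V) :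
    up v o (p + (16 * v * (o₁.2 + d.2 - o.2), 2 * (o₁.1 + d.1 - o.1))) = up v o₁ p + d := by
  refine Prod.ext ?_ ?_
  · simp only [up, Prod.fst_add, Prod.snd_add]
    omega
  · simp only [up, Prod.fst_add, Prod.snd_add]
    rw [Int.add_mul_ediv_left _ _ (by omega)]
    ring

/-- translation of both levels, with a new offset -/
theorem Rel.shift (hv : 1 ≤ v) {o : V} {x y : V → Tile} (h : Rel v o x y) (o₁ : V) {d : V} (h1 : 32 * v ∣ d.1)
    (h2 : 2 ∣ d.2) :
    Rel v o₁ (fun p => x (p + (16 * v * (o₁.2 + d.2 - o.2), 2 * (o₁.1 + d.1 - o.1)))) fun P => y (P + d) := by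
  have a1 : 16 * v ∣ 16 * v * (o₁.2 + d.2 - o.2) := dvd_mul_right _ _
  have a2 : 2 ∣ 2 * (o₁.1 + d.1 - o.1) := dvd_mul_right _ _
  refine ⟨fun p hp => ?_, fun p hp => ?_, fun p hp => ?_, fun p hp => ?_⟩
  · rw [h.ownH _ (by rw [Prod.snd_add, mod_per a2, hp]), up_shift hv, Prod.fst_add, ownH_per hv a1 h1 h2]
  · rw [h.ownV _ (by rwa [Prod.fst_add, mod_per a1]), up_shift hv, Prod.fst_add, Prod.snd_add, ownV_per hv a1 a2 h1 h2]
  · rw [h.wireH _ (by rw [Prod.snd_add, mod_per a2, hp]), up_shift hv]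
  · rw [h.wireV _ (by rwa [Prod.fst_add, mod_per a1]), up_shift hv]

theorem Rel.tag {o : V} {x y : V → Tile} (h : Rel v o x y) (p : V) : TagOK v p (x p) := by
  refine ⟨fun hp => ?_, fun hp => ?_⟩
  · rw [h.ownH p hp]
    rfl
  · rw [h.ownV p hp, B2.ownV]
    split_ifs with h1
    · rw [decide_eq_false (by omega)]
      rfl
    · rw [decide_eq_true (by omega)]
      rfl

/-- a glued configuration is the inflation of the next level -/
theorem Rel.eq_infl {o : V} {x y : V → Tile} (h : Rel v o x y) (hH : ∀ p : V, (x p).E = (x (p.1 + 1, p.2)).W)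
    (hV : ∀ p : V, (x p).N = (x (p.1, p.2 + 1)).S) : x = infl v o y := by
  have e : ∀ p, (x p).E = inflE v o y p := fun p => by
    rw [inflE]
    split_ifs with hp
    exacts [h.ownH p hp, h.wireH p (by omega)]
  have n : ∀ p, (x p).N = inflN v o y p := fun p => by
    rw [inflN]
    split_ifs with hp
    exacts [h.wireV p hp, h.ownV p hp]
  funext p
  refine Tile.ext ?_ (e p) ?_ (n p)
  · show _ = inflE v o y (p.1 - 1, p.2)
    rw [← e, hH]
    simp only [sub_add_cancel]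
  · show _ = inflN v o y (p.1, p.2 - 1)
    rw [← n, hV]
    simp only [sub_add_cancel]

/-- `k` levels with offsets `(1,1)` -/
def Chain : ℕ → ℕ → (V → Tile) → Prop
  | 0, _, _ => True
  | k + 1, t, y => ∃ y', Rel (2 ^ t) (1, 1) y y' ∧ Chain k (t + 1) y'

/-- number of levels that determine the E edge -/
def rkE (p : V) : ℕ := (p.2 - 1).natAbs + 1
/-- number of levels that determine the N edge -/
def rkN (p : V) : ℕ := (2 * p.1 - 3).natAbs

theorem rkN_up {p : V} (hp : p.2 % 2 = 0) : rkN (up v (1, 1) p) < rkE p := by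
  simp only [rkN, rkE, up]
  omega

theorem rkE_up (hv : 1 ≤ v) {p : V} (hp : p.1 % (16 * v) = 0) : rkE (up v (1, 1) p) < rkN p := by
  simp only [rkN, rkE, up]
  have e := Int.mul_ediv_add_emod p.1 (16 * v)
  generalize p.1 / (16 * v) = i at e
  rw [hp, add_zero] at e
  rcases lt_trichotomy i 0 with hi | rfl | hi
  · have : p.1 ≤ 16 * i := by nlinarith
    omega
  · omega
  · have : 16 * i ≤ p.1 := by nlinarith
    omega

theorem one_le_pow2 (t : ℕ) : (1 : ℤ) ≤ 2 ^ t := one_le_pow₀ (by norm_num)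

theorem Chain.det : ∀ {k k' t : ℕ} {y y' : V → Tile}, Chain k t y → Chain k' t y' → ∀ p,
    (rkE p ≤ k → rkE p ≤ k' → (y p).E = (y' p).E) ∧ (rkN p ≤ k → rkN p ≤ k' → (y p).N = (y' p).N)
  | 0, _, _, _, _, _, _, p => ⟨fun h => by simp only [rkE] at h; omega, fun h => by simp only [rkN] at h; omega⟩
  | _, 0, _, _, _, _, _, p => ⟨fun _ h => by simp only [rkE] at h; omega, fun _ h => by simp only [rkN] at h; omega⟩
  | k + 1, k' + 1, t, y, y', ⟨z, h, hz⟩, ⟨z', h', hz'⟩, p => by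
    have ih := Chain.det hz hz' (up (2 ^ t) (1, 1) p)
    refine ⟨fun h1 h2 => ?_, fun h1 h2 => ?_⟩
    · by_cases hp : p.2 % 2 = 1
      · rw [h.ownH p hp, h'.ownH p hp]
      · have := rkN_up (v := 2 ^ t) (p := p) (by omega)
        rw [h.wireH p (by omega), h'.wireH p (by omega), ih.2 (by omega) (by omega)]
    · by_cases hp : p.1 % (16 * 2 ^ t) = 0
      · have := rkE_up (one_le_pow2 t) hp
        rw [h.wireV p hp, h'.wireV p hp, ih.1 (by omega) (by omega)]
      · rw [h.ownV p hp, h'.ownV p hp]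

/-- iterated inflation of junk -/
def itI : ℕ → ℕ → V → Tile
  | 0, _ => fun _ => ⟨.short false none, .short false none, .short false none, .short false none⟩
  | k + 1, t => infl (2 ^ t) (1, 1) (itI k (t + 1))

theorem chain_itI : ∀ k t, Chain k t (itI k t)
  | 0, _ => trivial
  | k + 1, t => ⟨_, rel_infl _ _, chain_itI k (t + 1)⟩

/-- THE MODEL TOWER -/
def model (t : ℕ) (p : V) : Tile :=
  ⟨(itI (rkE (p.1 - 1, p.2)) t (p.1 - 1, p.2)).E, (itI (rkE p) t p).E, (itI (rkN (p.1, p.2 - 1)) t (p.1, p.2 - 1)).N,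
    (itI (rkN p) t p).N⟩

theorem model_glueH (t : ℕ) (p : V) : (model t p).E = (model t (p.1 + 1, p.2)).W := by
  simp only [model, add_sub_cancel_right]

theorem model_glueV (t : ℕ) (p : V) : (model t p).N = (model t (p.1, p.2 + 1)).S := by
  simp only [model, add_sub_cancel_right]

theorem model_rel (t : ℕ) : Rel (2 ^ t) (1, 1) (model t) (model (t + 1)) := by
  have hE : ∀ p, ∃ k, rkE p = k + 1 ∧ (model t p).E = (infl (2 ^ t) (1, 1) (itI k (t + 1)) p).E := fun p =>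
    ⟨_, rfl, rfl⟩
  have hN : ∀ p, ∃ k, rkN p = k + 1 ∧ (model t p).N = (infl (2 ^ t) (1, 1) (itI k (t + 1)) p).N := fun p => by
    obtain ⟨k, hk⟩ : ∃ k, rkN p = k + 1 := ⟨rkN p - 1, by simp only [rkN]; omega⟩
    exact ⟨k, hk, by simp only [model, hk, itI]⟩
  refine ⟨fun p hp => ?_, fun p hp => ?_, fun p hp => ?_, fun p hp => ?_⟩
  · obtain ⟨k, -, e⟩ := hE p
    rw [e, (rel_infl _ _).ownH p hp]
  · obtain ⟨k, -, e⟩ := hN p
    rw [e, (rel_infl _ _).ownV p hp]
  · obtain ⟨k, hk, e⟩ := hE p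
    have := rkN_up (v := 2 ^ t) hp
    rw [e, (rel_infl _ _).wireH p hp]
    exact (Chain.det (chain_itI _ _) (chain_itI _ _) _).2 (by omega) le_rfl
  · obtain ⟨k, hk, e⟩ := hN p
    have := rkE_up (one_le_pow2 t) hp
    rw [e, (rel_infl _ _).wireV p hp]
    exact (Chain.det (chain_itI _ _) (chain_itI _ _) _).1 (by omega) le_rfl

theorem model_valid : ∀ (k t : ℕ) (p : V), rkE p + rkN p ≤ k → (model t p).Valid
  | 0, _, p, h => by simp only [rkE] at h; omega
  | k + 1, t, p, h => by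
    rw [(model_rel t).eq_infl (model_glueH t) (model_glueV t)]
    refine mdl_valid_loc (one_le_pow2 t) _ (model_glueH _) (model_glueV _) (fun q => ?_) p fun h1 h2 => ?_
    · rw [← pow_succ']
      exact (model_rel (t + 1)).tag q
    · have := rkN_up (v := 2 ^ t) h2
      have := rkE_up (one_le_pow2 t) h1
      exact model_valid k _ _ (by omega)

theorem model_canon (t : ℕ) : Canon (2 ^ t) (model t) :=
  ⟨fun p => model_valid _ t p le_rfl, model_glueH t, model_glueV t, (model_rel t).tag⟩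

theorem chain_model : ∀ k t, Chain k t (model t)
  | 0, _ => trivial
  | k + 1, t => ⟨_, model_rel t, chain_model k (t + 1)⟩

/-- every tower looks like the model on `k` levels after a translation -/
theorem exists_chain : ∀ (k t : ℕ) (o : ℕ → V) (x : ℕ → V → Tile), (∀ i, Rel (2 ^ (t + i)) (o i) (x i) (x (i + 1))) →
    ∃ d : V, 16 * 2 ^ t ∣ d.1 ∧ 2 ∣ d.2 ∧ Chain k t fun p => x 0 (p + d)
  | 0, _, _, _, _ => ⟨0, dvd_zero _, dvd_zero _, trivial⟩
  | k + 1, t, o, x, h => by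
    obtain ⟨d, h1, h2, hc⟩ := exists_chain k (t + 1) (fun i => o (i + 1)) (fun i => x (i + 1)) fun i => by
      rw [show t + 1 + i = t + (i + 1) by ring]
      exact h (i + 1)
    exact ⟨_, dvd_mul_right _ _, dvd_mul_right _ _, _,
      (h 0).shift (one_le_pow2 t) (1, 1) (by rwa [show (32 : ℤ) * 2 ^ t = 16 * 2 ^ (t + 1) by ring]) h2, hc⟩

/-- every window of the model occurs in every tower, at the same position modulo the blocks -/
theorem model_occurs (t r : ℕ) (o : ℕ → V) (x : ℕ → V → Tile) (h : ∀ i, Rel (2 ^ (t + i)) (o i) (x i) (x (i + 1)))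
    (hH : ∀ p : V, (x 0 p).E = (x 0 (p.1 + 1, p.2)).W) (hV : ∀ p : V, (x 0 p).N = (x 0 (p.1, p.2 + 1)).S) :
    ∃ d : V, 16 * 2 ^ t ∣ d.1 ∧ 2 ∣ d.2 ∧ ∀ p ∈ box r, x 0 (p + d) = model t p := by
  obtain ⟨d, h1, h2, hc⟩ := exists_chain (2 * r + 5) t o x h
  refine ⟨d, h1, h2, fun p hp => ?_⟩
  rw [mem_box] at hp
  have D := Chain.det hc (chain_model (2 * r + 5) t)
  have bE : ∀ a, rkE (a, p.2) ≤ 2 * r + 5 := fun a => by simp only [rkE]; omega
  have bN : ∀ a, rkN (p.1, a) ≤ 2 * r + 5 := fun a => by simp only [rkN]; omega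
  refine Tile.ext ?_ ((D p).1 (bE _) (bE _)) ?_ ((D p).2 (bN _) (bN _))
  · have e := (D (p.1 - 1, p.2)).1 (bE _) (bE _)
    rw [hH, model_glueH] at e
    simp only [Prod.fst_add, Prod.snd_add, sub_add_cancel, Prod.mk.eta, show p.1 - 1 + d.1 + 1 = p.1 + d.1 by ring] at e
    exact e
  · have e := (D (p.1, p.2 - 1)).2 (bN _) (bN _)
    rw [hV, model_glueV] at e
    simp only [Prod.fst_add, Prod.snd_add, sub_add_cancel, Prod.mk.eta, show p.2 - 1 + d.2 + 1 = p.2 + d.2 by ring] at e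
    exact e

theorem exists_model : ∃ (o : ℕ → V) (m : ℕ → V → Tile),
    (∀ t, Canon (2 ^ t) (m t) ∧ Rel (2 ^ t) (o t) (m t) (m (t + 1))) ∧
    ∀ (t : ℕ) (p : V) (o' : ℕ → V) (x : ℕ → V → Tile),
      (∀ k, Rel (2 ^ (t + k)) (o' k) (x k) (x (k + 1)) ∧ Canon (2 ^ (t + k)) (x k)) → ∃ q, x 0 q = m t p := by
  refine ⟨fun _ => (1, 1), model, fun t => ⟨model_canon t, model_rel t⟩, fun t p o' x h => ?_⟩
  obtain ⟨d, -, -, hd⟩ := model_occurs t (p.1.natAbs + p.2.natAbs) o' x (fun i => (h i).1) (h 0).2.glueH (h 0).2.glueV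
  exact ⟨_, hd p (by rw [mem_box]; omega)⟩

end Crest.Agent.R189.B2
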