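import Crest.Agent.R189.B2.Dec

/-! Row 189, B2: Q2, the position events are central (helper26) (see notes189/h8.md) -/

set_option autoImplicit false

namespace Crest.Agent.R189.B2

open COMP

namespace Q2

/-! ### tiles -/

theorem hwire_eq {W E S N : Col} (h : hwire W E S N = true) : W = E := by
  unfold hwire at h
  split at h <;> simp_all

theorem hwire_link {W E S : Col} {u : Up} (h : hwire W E S (.short true (some u)) = true) (hu : u.nw = false) :
    W.tag = .short (!u.par) := by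
  unfold hwire at h
  split at h
  · simp_all
  · rename_i heq
    simp only [Col.short.injEq, Option.some.injEq, true_and] at heq
    subst heq
    simp only [Bool.and_eq_true, decide_eq_true_eq, Bool.or_eq_true] at h
    obtain ⟨⟨-, rfl⟩, h⟩ := h
    simpa [hu] using h
  · simp at h

theorem vwire_eq {W E S N : Col} (h : vwire W E S N = true) : S = N := by
  unfold vwire at h
  split at h <;> simp_all

theorem vwire_link {W S N : Col} {a c : Fin 4} {b γ : Bool}
    (h : vwire W (.long true a b (.B γ) c true) S N = true) : S.tag = .long false c γ := by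
  unfold vwire at h
  split at h
  · rename_i heq
    simp only [Col.long.injEq, St.B.injEq, true_and] at heq
    obtain ⟨-, -, rfl, rfl, rfl⟩ := heq
    simp only [Bool.and_eq_true, decide_eq_true_eq, Bool.not_true, Bool.false_or] at h
    obtain ⟨⟨⟨-, rfl⟩, -⟩, h⟩ := h
    exact h
  · simp_all
  · simp at h

/-! ### arithmetic -/

theorem f4_eq {a b : ℤ} (h : f4 a = f4 b) : a % 4 = b % 4 := by
  have := congrArg Fin.val h
  simp only [f4] at this
  omega

theorem mk_lo {v : ℤ} (hv : 1 ≤ v) (Y : ℤ) : v ≤ mk v Y := by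
  have h1 : 0 ≤ Y % (8 * v) / (2 * v) := Int.ediv_nonneg (Int.emod_nonneg _ (by omega)) (by omega)
  have h2 : 0 ≤ Y % (2 * v) := Int.emod_nonneg _ (by omega)
  unfold mk
  nlinarith

theorem mk_hi {v : ℤ} (hv : 1 ≤ v) (Y : ℤ) : mk v Y < 15 * v := by
  have h0 : Y % (8 * v) < 8 * v := Int.emod_lt_of_pos _ (by omega)
  have h1 : Y % (8 * v) / (2 * v) < 4 := Int.ediv_lt_of_lt_mul (by omega) (by omega)
  have h2 : Y % (2 * v) < 2 * v := Int.emod_lt_of_pos _ (by omega)
  unfold mk
  nlinarith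

theorem mk_inj {v : ℤ} (hv : 1 ≤ v) {Y Y' : ℤ} (h : mk v Y = mk v Y') : Y % (8 * v) = Y' % (8 * v) := by
  have e : ∀ Y : ℤ, Y % (8 * v) = 2 * v * (Y % (8 * v) / (2 * v)) + Y % (2 * v) := fun Y => by
    have h1 : Y % (8 * v) % (2 * v) = Y % (2 * v) := Int.emod_emod_of_dvd _ ⟨4, by ring⟩
    have h2 := Int.mul_ediv_add_emod (Y % (8 * v)) (2 * v)
    rw [h1] at h2
    exact h2.symm
  have b0 : 0 ≤ Y % (2 * v) := Int.emod_nonneg _ (by omega)
  have b1 : Y % (2 * v) < 2 * v := Int.emod_lt_of_pos _ (by omega)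
  have c0 : 0 ≤ Y' % (2 * v) := Int.emod_nonneg _ (by omega)
  have c1 : Y' % (2 * v) < 2 * v := Int.emod_lt_of_pos _ (by omega)
  unfold mk at h
  rw [e Y, e Y']
  generalize Y % (8 * v) / (2 * v) = a at h ⊢
  generalize Y' % (8 * v) / (2 * v) = a' at h ⊢
  have ha : a = a' := by
    rcases lt_trichotomy a a' with l | l | l
    · nlinarith
    · exact l
    · nlinarith
  subst ha
  omega

theorem mod32 {v : ℤ} (hv : 1 ≤ v) {a a' d : ℤ} (h0 : 0 ≤ a) (h1 : a < 32 * v) (h0' : 0 ≤ a') (h1' : a' < 32 * v)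
    (h8 : (a + d) % (8 * v) = (a' + d) % (8 * v)) (h4 : f4 ((a + d) / (8 * v)) = f4 ((a' + d) / (8 * v))) :
    a = a' := by
  have h := f4_eq h4
  have e := Int.mul_ediv_add_emod (a + d) (8 * v)
  have e' := Int.mul_ediv_add_emod (a' + d) (8 * v)
  rw [← h8] at e'
  generalize (a + d) / (8 * v) = q at h e
  generalize (a' + d) / (8 * v) = q' at h e'
  obtain ⟨t, ht⟩ : ∃ t, q' = q + 4 * t := ⟨(q' - q) / 4, by omega⟩
  subst ht
  have ht : t = 0 := by
    rcases lt_trichotomy t 0 with l | l | l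
    · nlinarith
    · exact l
    · nlinarith
  subst ht
  linarith

theorem blk_mod {n k j : ℤ} (h0 : 0 ≤ j) (h1 : j < n) : (n * k + j) % n = j := by
  rw [Int.mul_add_emod_self_left, Int.emod_eq_of_lt h0 h1]

theorem blk_div {n k j : ℤ} (h0 : 0 ≤ j) (h1 : j < n) : (n * k + j) / n = k := by
  rw [add_comm, Int.add_mul_ediv_left _ _ (by omega), Int.ediv_eq_zero_of_lt h0 h1, zero_add]

/-! ### quantum models -/

variable {C : Type} [COMP C] {z : C} (m : QM C z)

theorem congr_of (p : V) {g A B : Tile → Prop} (hg : z ≤ m.ev p g)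
    (h : ∀ τ, τ.Valid → g τ → (A τ ↔ B τ)) : m.ev p A = m.ev p B :=
  le_antisymm
    (m.weaken (m.le_and le_rfl ((m.le_z p A).trans hg)) fun τ v a => (h τ v a.2).1 a.1)
    (m.weaken (m.le_and le_rfl ((m.le_z p B).trans hg)) fun τ v a => (h τ v a.2).2 a.1)

theorem evW (x y : ℤ) (Q : Col → Prop) :
    m.ev (x, y) (fun τ => Q τ.W) = m.ev (x - 1, y) (fun τ => Q τ.E) := by
  have := m.glueH (x - 1, y) Q
  simp only [sub_add_cancel] at this
  exact this.symm

theorem evS (x y : ℤ) (Q : Col → Prop) :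
    m.ev (x, y) (fun τ => Q τ.S) = m.ev (x, y - 1) (fun τ => Q τ.N) := by
  have := m.glueV (x, y - 1) Q
  simp only [sub_add_cancel] at this
  exact this.symm

variable {m} {v : ℤ}

theorem hw (hc : m.Canon v) {x y : ℤ} (hx : x % (16 * v) ≠ 0) (hy : y % 2 = 0) :
    z ≤ m.ev (x, y) (fun τ => hwire τ.W τ.E τ.S τ.N = true) := by
  have h1 : z ≤ m.ev (x, y) (fun τ => τ.N.tag = .short true) :=
    m.weaken (hc (x, y)) fun τ _ h => by simpa [hy] using h.2 hx
  have h2 : z ≤ m.ev (x, y) (fun τ => τ.S.tag = .short false) := by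
    rw [evS m x y fun c => c.tag = .short false]
    have h' : ¬ (y - 1) % 2 = 0 := by omega
    exact m.weaken (hc (x, y - 1)) fun τ _ h => by simpa only [h', decide_false] using h.2 hx
  exact m.weaken (m.le_and h1 h2) fun τ v h => hwire_of v h.1 h.2

theorem vw (hv : 1 ≤ v) (hc : m.Canon v) (k : ℤ) {y : ℤ} (hy : y % 2 = 1) :
    z ≤ m.ev (16 * v * k, y) (fun τ => vwire τ.W τ.E τ.S τ.N = true) := by
  have h1 : z ≤ m.ev (16 * v * k, y) (fun τ => τ.E.tag = tagL v (16 * v * k)) :=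
    m.weaken (hc (16 * v * k, y)) fun τ _ h => h.1 hy
  have h2 : z ≤ m.ev (16 * v * k, y) (fun τ => τ.W.tag = tagL v (16 * v * k - 1)) := by
    rw [evW m _ y fun c => c.tag = tagL v (16 * v * k - 1)]
    exact m.weaken (hc (16 * v * k - 1, y)) fun τ _ h => h.1 hy
  have e1 : (16 * v * k) % (16 * v) = 0 := Int.mul_emod_right _ _
  have e2 : ¬ (16 * v * k - 1) % (16 * v) = 0 := by
    rw [show 16 * v * k - 1 = 16 * v * (k - 1) + (16 * v - 1) by ring, blk_mod (by omega) (by omega)]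
    omega
  refine m.weaken (m.le_and h1 h2) fun τ v h => ?_
  simp only [tagL, e1, e2, decide_true, decide_false] at h
  exact vwire_of v h.1 h.2

/-- the colour of the horizontal wire is constant between two centres -/
theorem seg (hc : m.Canon v) (k : ℤ) {y : ℤ} (hy : y % 2 = 0) (Q : Col → Prop) {j : ℤ} (h0 : 0 ≤ j)
    (h1 : j < 16 * v) :
    m.ev (16 * v * k + j, y) (fun τ => Q τ.E) = m.ev (16 * v * k, y) (fun τ => Q τ.E) := by
  induction j, h0 using Int.leInduction with
  | base => rw [add_zero]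
  | succ j h0 ih =>
    have hx : (16 * v * k + (j + 1)) % (16 * v) ≠ 0 := by rw [blk_mod (by omega) h1]; omega
    rw [← ih (by omega), ← congr_of m _ (hw hc hx hy) (A := fun τ => Q τ.W)
      (fun τ _ h => by rw [hwire_eq h]), evW, show 16 * v * k + (j + 1) - 1 = 16 * v * k + j by ring]

/-- the vertical wire passes through the own row -/
theorem vseg (hv : 1 ≤ v) (hc : m.Canon v) (k : ℤ) {y : ℤ} (hy : y % 2 = 1) (Q : Col → Prop) :
    m.ev (16 * v * k, y) (fun τ => Q τ.N) = m.ev (16 * v * k, y - 1) (fun τ => Q τ.N) := by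
  rw [← evS]
  exact congr_of m _ (vw hv hc k hy) fun τ _ h => by rw [vwire_eq h]

variable {P : V → C} {o : V}

theorem cp_of_val {u : C} {p : V} {f : Tile → Col} {c₀ : Col} (h : u ≤ m.ev p fun τ => f τ = c₀) (c : Col) :
    Cp u (m.ev p fun τ => f τ = c) := by
  by_cases e : c₀ = c
  · subst e; exact cp_of_le h
  · exact cp_of_orth (m.orth h fun τ _ a b => e (a.symm.trans b))

/-- an event that holds at `o` and fails at the other positions is the position event -/
theorem eq_ev (hP : m.Part v P) {p : V} {A : Tile → Prop} (h : P o ≤ m.ev p A)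
    (h' : ∀ o', Pos v o' → o' ≠ o → P o' ≤ (m.ev p A)ᶜ) : P o = m.ev p A := by
  refine le_antisymm h (le_of_inf_compl_eq_bot (cp_of_ge h) ?_)
  have hc : Cp (m.ev p A) (P o)ᶜ := cp_compl (cp_of_ge h)
  refine eq_bot_of_le_compl le_rfl ((inf_le_l hc).trans ((m.le_z p A).trans (hP.cover _ fun o' ho' => ?_)))
  by_cases e : o' = o
  · subst e; exact le_compl_comm.1 (inf_le_r hc)
  · exact (h' o' ho' e).trans (compl_anti (inf_le_l hc))

theorem ownE (hP : m.Part v P) (ho : Pos v o) {p : V} (hy : p.2 % 2 = 1) :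
    P o ≤ m.ev p fun τ => τ.E = ownH v p.1 (up v o p) :=
  m.weaken (hP.own o ho p) fun _ _ h => h.1 hy

theorem ownN (hP : m.Part v P) (ho : Pos v o) {p : V} (hx : p.1 % (16 * v) ≠ 0) :
    P o ≤ m.ev p fun τ => τ.N = ownV v p.1 p.2 (up v o p) :=
  m.weaken (hP.own o ho p) fun _ _ h => h.2 hx

/-- the N edge of the cell where the signal crosses the horizontal wire -/
theorem crossN (hv : 1 ≤ v) (hP : m.Part v P) (k : ℤ) {y : ℤ} (hy : y % 2 = 0) (Y : ℤ) {o' : V} (ho : Pos v o') :
    P o' ≤ m.ev (16 * v * k + mk v Y, y) fun τ => τ.N = .short true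
      (if mk v Y = mk v (o'.1 + y / 2 - 1) then some ⟨f4 ((o'.1 + y / 2 - 1) / (8 * v)),
        decide ((o'.2 + k) % 2 = 1), decide ((o'.1 + y / 2) % (32 * v) = 0)⟩ else none) := by
  have l := mk_lo hv Y
  have u := mk_hi hv Y
  have e1 : (16 * v * k + mk v Y) % (16 * v) = mk v Y := blk_mod (by omega) (by omega)
  have e2 : (16 * v * k + mk v Y) / (16 * v) = k := blk_div (by omega) (by omega)
  have hy' : ¬ y % 2 = 1 := by omega
  have := ownN hP ho (p := (16 * v * k + mk v Y, y)) (by rw [e1]; omega)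
  simpa only [ownV, upOf, up, e1, e2, hy', if_false, sub_add_cancel] using this

theorem eq_cross (hv : 1 ≤ v) (hP : m.Part v P) (ho : Pos v o) (k : ℤ) {y : ℤ} (hy : y % 2 = 0) :
    ∃ A, P o = m.ev (16 * v * k + mk v (o.1 + y / 2 - 1), y) A := by
  have h := crossN hv hP k hy (o.1 + y / 2 - 1) ho
  rw [if_pos rfl] at h
  refine ⟨_, eq_ev hP h fun o' ho' ne => m.orth (crossN hv hP k hy (o.1 + y / 2 - 1) ho') fun τ _ a b => ne ?_⟩
  rw [a] at b
  split_ifs at b with e
  · simp only [Col.short.injEq, Option.some.injEq, Up.mk.injEq, true_and, decide_eq_decide] at b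
    have e8 := mk_inj hv e
    rw [add_sub_assoc, add_sub_assoc] at e8
    have b1 := b.1
    rw [add_sub_assoc, add_sub_assoc] at b1
    have h1 := mod32 hv ho'.1.1 ho'.1.2 ho.1.1 ho.1.2 e8.symm b1
    have h2 := b.2.1
    have := ho.2
    have := ho'.2
    exact Prod.ext h1 (by omega)
  · simp at b

/-- compatibility with all E edges -/
theorem cpE (hv : 1 ≤ v) (hc : m.Canon v) (hP : m.Part v P) (ho : Pos v o) (p : V) (c : Col) :
    Cp (P o) (m.ev p fun τ => τ.E = c) := by
  obtain ⟨x, y⟩ := p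
  by_cases hy : y % 2 = 1
  · exact cp_of_val (ownE hP ho hy) c
  have hy : y % 2 = 0 := by omega
  obtain ⟨A, hA⟩ := eq_cross hv hP ho (x / (16 * v)) hy
  have l := mk_lo hv (o.1 + y / 2 - 1)
  have u := mk_hi hv (o.1 + y / 2 - 1)
  have ex := Int.mul_ediv_add_emod x (16 * v)
  have e1 := seg hc (x / (16 * v)) hy (fun d => d = c) (Int.emod_nonneg x (by omega))
    (Int.emod_lt_of_pos x (by omega))
  have e2 := seg hc (x / (16 * v)) hy (fun d => d = c) (j := mk v (o.1 + y / 2 - 1)) (by omega) (by omega)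
  rw [ex] at e1
  rw [e1, ← e2, hA]
  exact m.cp _ _ _

theorem cpW (hv : 1 ≤ v) (hc : m.Canon v) (hP : m.Part v P) (ho : Pos v o) (p : V) (c : Col) :
    Cp (P o) (m.ev p fun τ => τ.W = c) := by
  obtain ⟨x, y⟩ := p
  rw [evW m x y fun d => d = c]
  exact cpE hv hc hP ho _ c

/-- the link forces the tag of the short edge of the next level -/
theorem tagE (hv : 1 ≤ v) (hc : m.Canon v) (hP : m.Part v P) (ho : Pos v o) (k : ℤ) {y : ℤ} (hy : y % 2 = 0)
    (hY : (o.1 + y / 2) % (32 * v) ≠ 0) :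
    P o ≤ m.ev (16 * v * k, y) fun τ => τ.E.tag = .short (!decide ((o.2 + k) % 2 = 1)) := by
  have l := mk_lo hv (o.1 + y / 2 - 1)
  have u := mk_hi hv (o.1 + y / 2 - 1)
  have h := crossN hv hP k hy (o.1 + y / 2 - 1) ho
  rw [if_pos rfl] at h
  have hx : (16 * v * k + mk v (o.1 + y / 2 - 1)) % (16 * v) ≠ 0 := by
    rw [blk_mod (by omega) (by omega)]; omega
  rw [← seg hc k hy (fun d => d.tag = .short (!decide ((o.2 + k) % 2 = 1))) (j := mk v (o.1 + y / 2 - 1))
    (by omega) (by omega)]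
  refine m.weaken (m.le_and h ((hP.le o).trans (hw hc hx hy))) fun τ _ a => ?_
  obtain ⟨a, b⟩ := a
  rw [← hwire_eq b]
  rw [a] at b
  exact hwire_link b (by simpa using hY)

/-- the E edge of a cell of the vertical wire -/
theorem wireE (hv : 1 ≤ v) (hP : m.Part v P) (k j : ℤ) {o' : V} (ho : Pos v o') :
    P o' ≤ m.ev (16 * v * k, 2 * j + 1) fun τ => τ.E = .long true (f4 (16 * v * k / (4 * v)))
      (usable v (16 * v * k)) (if (o'.1 + j) % (8 * v) = 0 then .S1 false else .B (usable (2 * v) (o'.1 + j)))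
      (f4 ((o'.1 + j) / (8 * v))) (decide ((o'.2 + k) % 2 = 1)) := by
  have e1 : (16 * v * k) % (16 * v) = 0 := Int.mul_emod_right _ _
  have e2 : (16 * v * k) / (16 * v) = k := Int.mul_ediv_cancel_left _ (by omega)
  have e3 : (2 * j + 1) / 2 = j := by omega
  have l : 0 < mk v (o'.1 + j - 1) := by have := mk_lo hv (o'.1 + j - 1); omega
  have l' : 0 < v := by omega
  have := ownE hP ho (p := (16 * v * k, 2 * j + 1)) (by simp only; omega)
  simpa only [ownH, stOf, up, e1, e2, e3, l, l', if_true, decide_true] using this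

theorem eq_wire (hv : 1 ≤ v) (hP : m.Part v P) (ho : Pos v o) (k : ℤ) {j : ℤ} (hj : (o.1 + j) % (8 * v) = 0) :
    ∃ A, P o = m.ev (16 * v * k, 2 * j + 1) A := by
  have h := wireE hv hP k j ho
  rw [if_pos hj] at h
  refine ⟨_, eq_ev hP h fun o' ho' ne => m.orth (wireE hv hP k j ho') fun τ _ a b => ne ?_⟩
  rw [a] at b
  split_ifs at b with e
  · simp only [Col.long.injEq, true_and, decide_eq_decide] at b
    have h1 := mod32 hv ho'.1.1 ho'.1.2 ho.1.1 ho.1.2 (e.trans hj.symm) b.1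
    have h2 := b.2
    have := ho.2
    have := ho'.2
    exact Prod.ext h1 (by omega)
  · simp at b

/-- one step up through a centre -/
theorem step (hv : 1 ≤ v) (hc : m.Canon v) (hP : m.Part v P) (ho : Pos v o) (k : ℤ) {j : ℤ}
    (hj : (o.1 + j) % (8 * v) ≠ 0) (ih : ∀ c, Cp (P o) (m.ev (16 * v * k, 2 * j) fun τ => τ.S = c)) (c : Col) :
    Cp (P o) (m.ev (16 * v * k, 2 * j) fun τ => τ.N = c) := by
  have hy : (2 * j) % 2 = 0 := by omega
  have hY : (o.1 + 2 * j / 2) % (32 * v) ≠ 0 := by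
    rw [show 2 * j / 2 = j by omega]
    intro e
    apply hj
    rw [← Int.emod_emod_of_dvd _ (show 8 * v ∣ 32 * v from ⟨4, by ring⟩), e, Int.zero_emod]
  have hE := tagE hv hc hP ho k hy hY
  by_cases hp : (o.2 + k) % 2 = 1
  · have h := wireE hv hP k j ho
    rw [if_neg hj] at h
    simp only [hp, decide_true, Bool.not_true] at h hE
    have hN : P o ≤ m.ev (16 * v * k, 2 * j) fun τ =>
        τ.N.tag = .long false (f4 ((o.1 + j) / (8 * v))) (usable (2 * v) (o.1 + j)) := by
      rw [m.glueV (16 * v * k, 2 * j) fun d =>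
        d.tag = .long false (f4 ((o.1 + j) / (8 * v))) (usable (2 * v) (o.1 + j))]
      refine m.weaken (m.le_and h ((hP.le o).trans (vw hv hc k (by omega)))) fun τ _ a => ?_
      obtain ⟨a, b⟩ := a
      rw [a] at b
      exact vwire_link b
    refine m.cp_of_det (m.le_and hN hE) (fun τ τ' t t' g g' eS eW => ?_) ih (cpW hv hc hP ho _) c
    have p1 := plain_of t.tr g.1 g.2
    have p2 := plain_of t'.tr g'.1 g'.2
    simp only [Tile.tr] at p1 p2
    rw [← eS, ← eW] at p2
    exact plain_det p1 p2 (g.1.trans g'.1.symm)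
  · have hp' : (o.2 + (k - 1)) % 2 = 1 := by omega
    have hW := tagE hv hc hP ho (k - 1) hy hY
    simp only [hp, hp', decide_true, decide_false, Bool.not_true, Bool.not_false] at hE hW
    rw [← seg hc (k - 1) hy (fun d => d.tag = .short false) (j := 16 * v - 1) (by omega) (by omega),
      show 16 * v * (k - 1) + (16 * v - 1) = 16 * v * k - 1 by ring, ← evW m _ _ fun d => d.tag = .short false] at hW
    refine m.cp_of_det (m.le_and hE hW) (fun τ τ' t t' g g' eS _ => ?_) ih (cpW hv hc hP ho _) c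
    have p1 := hwire_eq (hwire_of t.tr g.1 g.2)
    have p2 := hwire_eq (hwire_of t'.tr g'.1 g'.2)
    simp only [Tile.tr] at p1 p2
    rw [← p1, ← p2, eS]

theorem cpCtr (hv : 1 ≤ v) (hc : m.Canon v) (hP : m.Part v P) (ho : Pos v o) (k : ℤ) (t : ℕ) :
    ∀ j : ℤ, (o.1 + j) % (8 * v) = t → ∀ c, Cp (P o) (m.ev (16 * v * k, 2 * j) fun τ => τ.N = c) := by
  induction t with
  | zero =>
    intro j hj c
    obtain ⟨A, hA⟩ := eq_wire hv hP ho k (j := j) (by simpa using hj)
    rw [m.glueV (16 * v * k, 2 * j) fun d => d = c, hA]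
    exact m.cp _ _ _
  | succ t ih =>
    intro j hj
    refine step hv hc hP ho k (by omega) fun c => ?_
    rw [evS m _ _ fun d => d = c, vseg hv hc k (by omega) fun d => d = c,
      show 2 * j - 1 - 1 = 2 * (j - 1) by ring]
    refine ih (j - 1) ?_ c
    have l : (o.1 + j) % (8 * v) < 8 * v := Int.emod_lt_of_pos _ (by omega)
    have e := Int.mul_ediv_add_emod (o.1 + j) (8 * v)
    rw [show o.1 + (j - 1) = 8 * v * ((o.1 + j) / (8 * v)) + t by omega]
    exact blk_mod (by omega) (by omega)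

/-- compatibility with all N edges -/
theorem cpN (hv : 1 ≤ v) (hc : m.Canon v) (hP : m.Part v P) (ho : Pos v o) (p : V) (c : Col) :
    Cp (P o) (m.ev p fun τ => τ.N = c) := by
  obtain ⟨x, y⟩ := p
  by_cases hx : x % (16 * v) = 0
  swap
  · exact cp_of_val (ownN hP ho hx) c
  obtain ⟨k, rfl⟩ := Int.dvd_of_emod_eq_zero hx
  have H := cpCtr hv hc hP ho k ((o.1 + y / 2) % (8 * v)).toNat (y / 2)
    (Int.toNat_of_nonneg (Int.emod_nonneg _ (by omega))).symm c
  by_cases hy : y % 2 = 1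
  · rw [vseg hv hc k hy fun d => d = c, show y - 1 = 2 * (y / 2) by omega]
    exact H
  · rw [show y = 2 * (y / 2) by omega]
    exact H

theorem cpS (hv : 1 ≤ v) (hc : m.Canon v) (hP : m.Part v P) (ho : Pos v o) (p : V) (c : Col) :
    Cp (P o) (m.ev p fun τ => τ.S = c) := by
  obtain ⟨x, y⟩ := p
  rw [evS m x y fun d => d = c]
  exact cpN hv hc hP ho _ c

end Q2

theorem q2 {C : Type} [COMP C] {z : C} (m : QM C z) {v : ℤ} (hv : 1 ≤ v) (hc : m.Canon v) {P : V → C}
    (hP : m.Part v P) {o : V} (ho : Pos v o) (p : V) (A : Tile → Prop) : Cp (P o) (m.ev p A) :=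
  m.cp_cell (Q2.cpW hv hc hP ho p) (Q2.cpE hv hc hP ho p) (Q2.cpS hv hc hP ho p) (Q2.cpN hv hc hP ho p) A

end Crest.Agent.R189.B2
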