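import Crest.Agent.R189.B2.Q3a

/-! Row 189, B2: Q3, the model of the next level (helper3) (see notes189/h8.md) -/

set_option autoImplicit false

namespace Crest.Agent.R189.B2

open COMP

variable {C : Type} [COMP C] {z : C}

/-- restriction of a model to a central event -/
theorem QM.exists_res (m : QM C z) {e : C} (he : e ≤ z) (hc : ∀ p A, Cp e (m.ev p A)) :
    ∃ m' : QM C e, ∀ p A, m'.ev p A = e ⊓ m.ev p A :=
  ⟨m.restrict e he hc, fun _ _ => rfl⟩

/-- if the own edges are certain, the centres form a canonical model of the next level; the wires carry its edges -/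
theorem q3 (m : QM C z) {v : ℤ} (hv : 1 ≤ v) (hc : m.Canon v) (o : V) (ho : ∀ p, z ≤ m.ev p (Own v o p)) :
    (∃ m' : QM C z, m'.Canon (2 * v) ∧ ∀ P A, m'.ev P A = m.ev (ctr v o P) fun τ => A τ.tr) ∧
    (∀ (p : V) (Q : Col → Prop), p.2 % 2 = 0 →
      m.ev p (fun τ => Q τ.E) = m.ev (ctr v o (up v o p)) fun τ => Q τ.E) ∧
    (∀ (p : V) (Q : Col → Prop), p.1 % (16 * v) = 0 →
      m.ev p (fun τ => Q τ.N) = m.ev (ctr v o (up v o p)) fun τ => Q τ.N) :=
  ⟨⟨m.macroQ hv hc o, fun P => (Own3.of_own ho).tags hv hc le_rfl P, fun _ _ => rfl⟩,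
    fun p Q hp => m.wireH hv hc o p Q hp, fun p Q hp => m.wireV hv hc o p Q hp⟩

end Crest.Agent.R189.B2
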