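import Crest.Agent.R189.B1.Comp

/-!
# Row 189, block B2: observables in a coherent orthomodular poset

`Obs x`: `x` is a finite partition of unity.  `evt x p`: the event "the value of `x` satisfies `p`".
`Dec u x`: `u` is compatible with all the values of `x`.  `Rel t`: the elements below `t`.
-/

set_option autoImplicit false

namespace Crest.Agent.R189

open COMP

variable {C : Type*} [COMP C] {α β γ : Type*}

/-- finite partition of unity -/
structure Obs (x : α → C) : Prop where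
  fin : {a | x a ≠ ⊥}.Finite
  orth : ∀ a b, a ≠ b → x a ≤ (x b)ᶜ
  cover : ∀ z, (∀ a, x a ≤ z) → z = ⊤

open Classical in
/-- the event "the value of `x` satisfies `p`" -/
noncomputable def evt (x : α → C) (p : α → Prop) : C :=
  if h : {a | x a ≠ ⊥}.Finite then jn (h.toFinset.filter p) x else ⊥

/-- `u` is compatible with all values of `x` -/
def Dec (u : C) (x : α → C) : Prop := ∀ a, Cp u (x a)

/-- image of an observable -/
noncomputable def omap (f : α → β) (x : α → C) : β → C := fun b => evt x (fun a => f a = b)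

namespace Obs

variable {x : α → C} {y : β → C} {p q : α → Prop} {u z : C}

theorem of_fintype [Finite α] (h1 : ∀ a b, a ≠ b → x a ≤ (x b)ᶜ)
    (h2 : ∀ z, (∀ a, x a ≤ z) → z = ⊤) : Obs x := ⟨Set.toFinite _, h1, h2⟩

theorem cp (h : Obs x) (a b : α) : Cp (x a) (x b) := by
  by_cases hab : a = b
  · subst hab; exact cp_refl _
  · exact cp_of_orth (h.orth a b hab)

theorem fcp (h : Obs x) (s : Finset α) : FCp s x := fun a _ b _ => h.cp a b

open Classical in
theorem evt_def (h : Obs x) (p : α → Prop) : evt x p = jn (h.fin.toFinset.filter p) x := by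
  rw [evt, dif_pos h.fin]

theorem le_evt (h : Obs x) {a : α} (ha : p a) : x a ≤ evt x p := by
  classical
  by_cases h0 : x a = ⊥
  · rw [h0]; exact bot_le
  · rw [h.evt_def]
    exact (h.fcp _).le_jn (by simp [h0, ha])

theorem evt_le' (h : Obs x) (hz : ∀ a, x a ≠ ⊥ → p a → x a ≤ z) : evt x p ≤ z := by
  classical
  rw [h.evt_def]
  exact (h.fcp _).jn_le fun a ha => by
    simp only [Finset.mem_filter, Set.Finite.mem_toFinset, Set.mem_ofPred_eq] at ha
    exact hz a ha.1 ha.2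

theorem evt_le (h : Obs x) (hz : ∀ a, p a → x a ≤ z) : evt x p ≤ z :=
  h.evt_le' fun a _ ha => hz a ha

theorem cp_evt' (h : Obs x) (hu : ∀ a, p a → Cp u (x a)) : Cp u (evt x p) := by
  classical
  rw [h.evt_def]
  exact (h.fcp _).cp_jn fun a ha => hu a (Finset.mem_filter.1 ha).2

theorem cp_evt (h : Obs x) (hu : Dec u x) (p : α → Prop) : Cp u (evt x p) :=
  h.cp_evt' fun a _ => hu a

theorem dec_evt (h : Obs x) (p : α → Prop) : Dec (evt x p) x := fun a =>
  cp_symm (h.cp_evt (fun b => h.cp a b) p)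

theorem cp_evt_evt (h : Obs x) (p q : α → Prop) : Cp (evt x p) (evt x q) :=
  h.cp_evt (h.dec_evt p) q

theorem evt_mono' (h : Obs x) (hpq : ∀ a, x a ≠ ⊥ → p a → q a) : evt x p ≤ evt x q :=
  h.evt_le' fun a h0 ha => h.le_evt (hpq a h0 ha)

theorem evt_mono (h : Obs x) (hpq : ∀ a, p a → q a) : evt x p ≤ evt x q :=
  h.evt_mono' fun a _ => hpq a

theorem evt_congr' (h : Obs x) (hpq : ∀ a, x a ≠ ⊥ → (p a ↔ q a)) : evt x p = evt x q :=
  le_antisymm (h.evt_mono' fun a h0 => (hpq a h0).1) (h.evt_mono' fun a h0 => (hpq a h0).2)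

theorem evt_eq_top (h : Obs x) (hp : ∀ a, x a ≠ ⊥ → p a) : evt x p = ⊤ :=
  h.cover _ fun a => by
    by_cases h0 : x a = ⊥
    · rw [h0]; exact bot_le
    · exact h.le_evt (hp a h0)

theorem evt_eq_bot (h : Obs x) (hp : ∀ a, x a ≠ ⊥ → ¬ p a) : evt x p = ⊥ :=
  le_antisymm (h.evt_le' fun a h0 ha => (hp a h0 ha).elim) bot_le

theorem evt_single (h : Obs x) (a : α) : evt x (fun b => b = a) = x a :=
  le_antisymm (h.evt_le fun _ hb => hb ▸ le_rfl) (h.le_evt (p := fun b => b = a) rfl)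

theorem evt_orth (h : Obs x) (hpq : ∀ a, p a → ¬ q a) : evt x p ≤ (evt x q)ᶜ :=
  h.evt_le fun a ha => le_compl_comm.1 (h.evt_le fun b hb => h.orth b a fun e =>
    hpq a ha (e ▸ hb))

theorem mem_blk (h : Obs x) (B : Blk C) (hB : ∀ a, x a ∈ B) (p : α → Prop) : evt x p ∈ B := by
  rw [h.evt_def]; exact B.jn_mem fun a _ => hB a

theorem pt_evt (h : Obs x) {B : Blk C} (hB : ∀ a, x a ∈ B) (o : Pt B) (p : α → Prop) :
    o.p (evt x p) ↔ ∃ a, p a ∧ o.p (x a) := by
  classical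
  rw [h.evt_def, o.jn fun a _ => hB a]
  constructor
  · rintro ⟨a, ha, ho⟩; exact ⟨a, (Finset.mem_filter.1 ha).2, ho⟩
  · rintro ⟨a, ha, ho⟩
    refine ⟨a, ?_, ho⟩
    simp only [Finset.mem_filter, Set.Finite.mem_toFinset, Set.mem_ofPred_eq]
    exact ⟨fun h0 => o.not_bot (h0 ▸ ho), ha⟩

theorem pt_ex (h : Obs x) {B : Blk C} (hB : ∀ a, x a ∈ B) (o : Pt B) : ∃ a, o.p (x a) := by
  have := (h.pt_evt hB o fun _ => True).1 (by rw [h.evt_eq_top fun _ _ => trivial]; exact o.top)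
  obtain ⟨a, -, ha⟩ := this
  exact ⟨a, ha⟩

theorem pt_uniq (h : Obs x) {B : Blk C} (hB : ∀ a, x a ∈ B) (o : Pt B) {a b : α}
    (ha : o.p (x a)) (hb : o.p (x b)) : a = b := by
  by_contra hab
  exact o.not_of_orth (hB a) (hB b) (h.orth a b hab) ha hb

theorem pcp (h : Obs x) : PCp (Set.range x) := by
  rintro _ ⟨a, rfl⟩ _ ⟨b, rfl⟩; exact h.cp a b

theorem mem_own (h : Obs x) (a : α) : x a ∈ h.pcp.blk := Gen.of ⟨a, rfl⟩

theorem evt_compl (h : Obs x) (p : α → Prop) : (evt x p)ᶜ = evt x (fun a => ¬ p a) := by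
  refine h.pcp.blk.eq_of_pt (h.pcp.blk.compl' (h.mem_blk _ h.mem_own _))
    (h.mem_blk _ h.mem_own _) fun o => ?_
  rw [o.compl (h.mem_blk _ h.mem_own _), h.pt_evt h.mem_own, h.pt_evt h.mem_own]
  obtain ⟨a, ha⟩ := h.pt_ex h.mem_own o
  constructor
  · intro hn; exact ⟨a, fun hp => hn ⟨a, hp, ha⟩, ha⟩
  · rintro ⟨b, hb, hb'⟩ ⟨c, hc, hc'⟩
    exact hb (h.pt_uniq h.mem_own o hc' hb' ▸ hc)

theorem evt_inf (h : Obs x) (p q : α → Prop) :
    evt x p ⊓ evt x q = evt x (fun a => p a ∧ q a) := by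
  refine h.pcp.blk.eq_of_pt
    (h.pcp.blk.inf' (h.mem_blk _ h.mem_own _) (h.mem_blk _ h.mem_own _))
    (h.mem_blk _ h.mem_own _) fun o => ?_
  rw [o.inf (h.mem_blk _ h.mem_own _) (h.mem_blk _ h.mem_own _), h.pt_evt h.mem_own,
    h.pt_evt h.mem_own, h.pt_evt h.mem_own]
  constructor
  · rintro ⟨⟨b, hb, hb'⟩, ⟨c, hc, hc'⟩⟩
    exact ⟨b, ⟨hb, h.pt_uniq h.mem_own o hc' hb' ▸ hc⟩, hb'⟩
  · rintro ⟨b, ⟨h1, h2⟩, hb⟩; exact ⟨⟨b, h1, hb⟩, ⟨b, h2, hb⟩⟩

/-- two constraints on the same observable -/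
theorem le_and (h : Obs x) (h1 : u ≤ evt x p) (h2 : u ≤ evt x q) :
    u ≤ evt x (fun a => p a ∧ q a) := by
  rw [← h.evt_inf]; exact le_inf' (h.cp_evt_evt p q) h1 h2

theorem le_evt_iff (h : Obs x) : u ≤ evt x p ↔ ∀ a, ¬ p a → u ≤ (x a)ᶜ := by
  constructor
  · intro hu a ha
    refine hu.trans ?_
    rw [← h.evt_single a]
    exact h.evt_orth fun b hb e => ha (e ▸ hb)
  · intro hu
    have : evt x (fun a => ¬ p a) ≤ uᶜ := h.evt_le fun a ha => le_compl_comm.1 (hu a ha)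
    rw [← h.evt_compl] at this
    exact compl_le_compl_iff.1 this

/-- weaken a constraint -/
theorem weaken (h : Obs x) (h1 : u ≤ evt x p) (hpq : ∀ a, x a ≠ ⊥ → p a → q a) : u ≤ evt x q :=
  h1.trans (h.evt_mono' hpq)

/-- an impossible constraint -/
theorem absurd (h : Obs x) (h1 : u ≤ evt x p) (hp : ∀ a, x a ≠ ⊥ → ¬ p a) : u = ⊥ :=
  le_bot_iff.1 (h.evt_eq_bot hp ▸ h1)

/-- arc consistency: an orthogonality rule between two observables -/
theorem force (h : Obs x) (hy : Obs y) {r : α → β → Prop}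
    (hr : ∀ a b, ¬ r a b → x a ≤ (y b)ᶜ) {q : β → Prop} (h1 : u ≤ evt x p)
    (hq : ∀ a b, x a ≠ ⊥ → y b ≠ ⊥ → p a → r a b → q b) : u ≤ evt y q := by
  refine h1.trans (h.evt_le' fun a h0 ha => hy.le_evt_iff.2 fun b hb => ?_)
  by_cases hb0 : y b = ⊥
  · rw [hb0, compl_bot']; exact le_top
  · exact hr a b fun hab => hb (hq a b h0 hb0 ha hab)

/-- arc consistency backwards -/
theorem force' (h : Obs x) (hy : Obs y) {r : α → β → Prop}
    (hr : ∀ a b, ¬ r a b → x a ≤ (y b)ᶜ) {p : α → Prop} {q : β → Prop} (h1 : u ≤ evt y q)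
    (hq : ∀ a b, x a ≠ ⊥ → y b ≠ ⊥ → q b → r a b → p a) : u ≤ evt x p :=
  hy.force h (r := fun b a => r a b) (fun b a hn => le_compl_comm.1 (hr a b hn)) h1
    fun b a hb ha => hq a b ha hb

theorem map (h : Obs x) (f : α → β) : Obs (omap f x) where
  fin := (h.fin.image f).subset fun b hb => by
    by_contra hn
    exact hb (h.evt_eq_bot fun a h0 e => hn ⟨a, h0, e⟩)
  orth _ _ hab := h.evt_orth fun _ e e' => hab (e.symm.trans e')
  cover z hz := h.cover z fun a => (h.le_evt (p := fun b => f b = f a) rfl).trans (hz (f a))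

theorem evt_map (h : Obs x) (f : α → β) (q : β → Prop) :
    evt (omap f x) q = evt x (fun a => q (f a)) :=
  le_antisymm ((h.map f).evt_le fun b hb => h.evt_mono fun a e => by rw [e]; exact hb)
    (h.evt_le fun a ha => (h.le_evt (p := fun b => f b = f a) rfl).trans ((h.map f).le_evt ha))

theorem omap_ne_bot (h : Obs x) {f : α → β} {b : β} (hb : omap f x b ≠ ⊥) :
    ∃ a, x a ≠ ⊥ ∧ f a = b := by
  by_contra hn
  exact hb (h.evt_eq_bot fun a h0 e => hn ⟨a, h0, e⟩)

theorem dec_map (h : Obs x) (hu : Dec u x) (f : α → β) : Dec u (omap f x) :=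
  fun _ => h.cp_evt hu _

theorem omap_omap (h : Obs x) (f : α → β) (g : β → γ) :
    omap g (omap f x) = omap (fun a => g (f a)) x :=
  funext fun _ => h.evt_map f _

theorem omap_inj (h : Obs x) {f : α → β} {a : α} (hf : ∀ b, x b ≠ ⊥ → f b = f a → b = a) :
    omap f x (f a) = x a :=
  le_antisymm (h.evt_le' fun b h0 e => by rw [hf b h0 e]) (h.le_evt (p := fun b => f b = f a) rfl)

/-- coherence: deciding two functions of an observable decides the pair -/
theorem dec_pair (h : Obs x) {f : α → β} {g : α → γ} (hf : Dec u (omap f x))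
    (hg : Dec u (omap g x)) : Dec u (omap (fun a => (f a, g a)) x) := fun b => by
  have : omap (fun a => (f a, g a)) x b = omap f x b.1 ⊓ omap g x b.2 := by
    rw [omap, omap, omap, h.evt_inf]
    exact h.evt_congr' fun a _ => Prod.ext_iff
  rw [this]
  exact cp_inf (hf _) (hg _) (h.cp_evt_evt _ _)

/-- deciding an injective function of an observable decides it -/
theorem dec_of_map (h : Obs x) {f : α → β} (hf : Dec u (omap f x))
    (hinj : ∀ a b, x a ≠ ⊥ → x b ≠ ⊥ → f a = f b → a = b) : Dec u x := fun a => by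
  by_cases h0 : x a = ⊥
  · rw [h0]; exact cp_bot _
  · rw [← h.omap_inj (f := f) (a := a) fun b hb e => hinj b a hb h0 e]; exact hf _

theorem dec_of_le (h : Obs x) {a : α} (hu : u ≤ x a) : Dec u x := fun b => by
  by_cases e : a = b
  · subst e; exact cp_of_le hu
  · exact cp_of_orth (hu.trans (h.orth a b e))

/-- an element deciding `x` is the sum of its pieces: `≤` -/
theorem le_of_pieces (h : Obs x) (hu : Dec u x) (hz : ∀ a, x a ≠ ⊥ → u ⊓ x a ≤ z) : u ≤ z := by
  classical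
  have hS : PCp (insert u (Set.range x)) := by
    rintro v (rfl | ⟨a, rfl⟩) w (rfl | ⟨b, rfl⟩)
    · exact cp_refl _
    · exact hu b
    · exact cp_symm (hu a)
    · exact h.cp a b
  have hx : ∀ a, x a ∈ hS.blk := fun a => Gen.of (Or.inr ⟨a, rfl⟩)
  have hu' : u ∈ hS.blk := Gen.of (Or.inl rfl)
  have hf : ∀ a ∈ h.fin.toFinset, u ⊓ x a ∈ hS.blk := fun a _ => hS.blk.inf' hu' (hx a)
  have h1 : u ≤ jn h.fin.toFinset fun a => u ⊓ x a := by
    refine hS.blk.le_of_pt hu' (hS.blk.jn_mem hf) fun o ho => (o.jn hf).2 ?_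
    obtain ⟨a, ha⟩ := h.pt_ex hx o
    refine ⟨a, ?_, (o.inf hu' (hx a)).2 ⟨ho, ha⟩⟩
    simp only [Set.Finite.mem_toFinset, Set.mem_ofPred_eq]
    exact fun h0 => o.not_bot (h0 ▸ ha)
  exact h1.trans ((FCp.of_blk _ hf).jn_le fun a ha => hz a (by simpa using ha))

/-- an element deciding `x` is the sum of its pieces: compatibility -/
theorem cp_of_pieces (h : Obs x) (hu : Dec u x) (hz : ∀ a, x a ≠ ⊥ → Cp z (u ⊓ x a)) :
    Cp z u := by
  classical
  have hcp : ∀ a b, Cp (u ⊓ x a) (u ⊓ x b) := fun a b => by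
    by_cases e : a = b
    · subst e; exact cp_refl _
    · exact cp_of_orth ((inf_le_r (hu a)).trans ((h.orth a b e).trans
        (compl_anti (inf_le_r (hu b)))))
  have hf : FCp h.fin.toFinset fun a => u ⊓ x a := fun a _ b _ => hcp a b
  have h1 : u = jn h.fin.toFinset fun a => u ⊓ x a :=
    le_antisymm (h.le_of_pieces hu fun a h0 => hf.le_jn (i := a) (by simpa using h0))
      (hf.jn_le fun a _ => inf_le_l (hu a))
  rw [h1]
  exact hf.cp_jn fun a ha => hz a (by simpa using ha)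

/-- case distinction on a decided observable -/
theorem dec_of_pieces (h : Obs x) (hu : Dec u x) (hz : ∀ a, x a ≠ ⊥ → Dec (u ⊓ x a) y) :
    Dec u y := fun b => cp_symm (h.cp_of_pieces hu fun a h0 => cp_symm (hz a h0 b))

/-- transport: below `u` the function `g` of `x` is determined by the function `f` of `x` -/
theorem dec_transport (h : Obs x) {f : α → β} {g : α → γ} (hf : Dec u (omap f x))
    (hp : u ≤ evt x p)
    (hfg : ∀ a b, x a ≠ ⊥ → x b ≠ ⊥ → p a → p b → f a = f b → g a = g b) : Dec u (omap g x) := by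
  refine (h.map f).dec_of_pieces hf fun b _ => ?_
  have h1 : u ⊓ omap f x b ≤ evt x (fun a => p a ∧ f a = b) :=
    h.le_and ((inf_le_l (hf b)).trans hp) (inf_le_r (hf b))
  by_cases hex : ∃ a, x a ≠ ⊥ ∧ p a ∧ f a = b
  · obtain ⟨a, h0, ha, e⟩ := hex
    refine (h.map g).dec_of_le (a := g a) (h.weaken h1 fun c hc hc' => ?_)
    exact hfg c a hc h0 hc'.1 ha (hc'.2.trans e.symm)
  · rw [h.absurd h1 fun a h0 ha => hex ⟨a, h0, ha⟩]
    exact fun _ => cp_of_le bot_le

/-- gluing compatibility along a partition -/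
theorem cp_glue (h : Obs x) {v : C} (hu : Dec u x) (hv : Dec v x)
    (huv : ∀ a, x a ≠ ⊥ → Cp (u ⊓ x a) (v ⊓ x a)) : Cp u v := by
  refine cp_symm (h.cp_of_pieces hu fun a h0 => cp_symm (h.cp_of_pieces hv fun b _ => ?_))
  by_cases e : a = b
  · subst e; exact huv a h0
  · exact cp_of_orth ((inf_le_r (hu a)).trans ((h.orth a b e).trans
      (compl_anti (inf_le_r (hv b)))))

/-- product of compatible observables -/
theorem prod (h : Obs x) (hy : Obs y) (hxy : ∀ a b, Cp (x a) (y b)) :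
    Obs (fun ab : α × β => x ab.1 ⊓ y ab.2) where
  fin := (h.fin.prod hy.fin).subset fun ab hab =>
    ⟨fun h0 => hab (le_bot_iff.1 (h0 ▸ inf_le_l (hxy _ _))),
      fun h0 => hab (le_bot_iff.1 (h0 ▸ inf_le_r (hxy _ _)))⟩
  orth a b hab := by
    by_cases e : a.1 = b.1
    · have e' : a.2 ≠ b.2 := fun e' => hab (Prod.ext e e')
      exact (inf_le_r (hxy _ _)).trans ((hy.orth _ _ e').trans (compl_anti (inf_le_r (hxy _ _))))
    · exact (inf_le_l (hxy _ _)).trans ((h.orth _ _ e).trans (compl_anti (inf_le_l (hxy _ _))))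
  cover z hz := h.cover z fun a => hy.le_of_pieces (hxy a) fun b _ => hz (a, b)

end Obs

/-! ### relativisation -/

/-- the elements below `t` -/
def Rel (t : C) : Type _ := {a : C // a ≤ t}

namespace Rel

variable {t : C}

theorem cpc (a : Rel t) : Cp a.1ᶜ t := cp_compl_l (cp_of_le a.2)

instance : PartialOrder (Rel t) := inferInstanceAs (PartialOrder {a : C // a ≤ t})

theorem le_def {a b : Rel t} : a ≤ b ↔ a.1 ≤ b.1 := Iff.rfl

open Classical in
noncomputable instance : Min (Rel t) :=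
  ⟨fun a b => if h : Cp a.1 b.1 then ⟨a.1 ⊓ b.1, (inf_le_l h).trans a.2⟩ else a⟩
noncomputable instance : Compl (Rel t) := ⟨fun a => ⟨a.1ᶜ ⊓ t, inf_le_r a.cpc⟩⟩
noncomputable instance : Max (Rel t) := ⟨fun a b => (aᶜ ⊓ bᶜ)ᶜ⟩

theorem val_inf {a b : Rel t} (h : Cp a.1 b.1) : (a ⊓ b).1 = a.1 ⊓ b.1 := by
  have : a ⊓ b = ⟨a.1 ⊓ b.1, (inf_le_l h).trans a.2⟩ := dif_pos h
  rw [this]
theorem val_compl (a : Rel t) : (aᶜ).1 = a.1ᶜ ⊓ t := rfl

theorem le_compl_iff {a b : Rel t} : a ≤ bᶜ ↔ a.1 ≤ b.1ᶜ :=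
  ⟨fun h => le_trans h (inf_le_l b.cpc), fun h => le_inf' b.cpc h a.2⟩

theorem cp_compl' {a b : Rel t} (h : Cp a.1 b.1) : Cp a.1 (bᶜ).1 :=
  cp_inf (cp_compl h) (cp_of_le a.2) b.cpc

theorem blk2 (a b : Rel t) (h : Cp a.1 b.1) : PCp ({a.1, b.1, t} : Set C) := by
  have h1 := cp_of_le a.2
  have h2 := cp_of_le b.2
  rintro u (rfl | rfl | rfl) v (rfl | rfl | rfl) <;>
    first | exact cp_refl _ | assumption | (apply cp_symm; assumption)

theorem compl_compl'' (a : Rel t) : aᶜᶜ = a := by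
  apply Subtype.ext
  have hS := blk2 a a (cp_refl _)
  have ha : a.1 ∈ hS.blk := Gen.of (by simp)
  have ht : t ∈ hS.blk := Gen.of (by simp)
  have h1 := hS.blk.inf' (hS.blk.compl' ha) ht
  refine hS.blk.eq_of_pt (hS.blk.inf' (hS.blk.compl' h1) ht) ha fun o => ?_
  show o.p ((a.1ᶜ ⊓ t)ᶜ ⊓ t) ↔ _
  rw [o.inf (hS.blk.compl' h1) ht, o.compl h1, o.inf (hS.blk.compl' ha) ht, o.compl ha]
  have := o.mono ha ht a.2
  tauto

noncomputable instance : COMP (Rel t) where
  top := ⟨t, le_rfl⟩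
  bot := ⟨⊥, bot_le⟩
  le_top a := a.2
  bot_le a := show (⊥ : C) ≤ a.1 from bot_le
  Cp a b := Cp a.1 b.1
  cp_symm := cp_symm
  cp_of_le := cp_of_le
  cp_compl := cp_compl'
  cp_inf hab hac hbc := by rw [val_inf hbc]; exact cp_inf hab hac hbc
  compl_compl' := compl_compl''
  compl_anti {a b} h := le_compl_iff.2 ((inf_le_l b.cpc).trans (compl_anti h))
  inf_le_l h := by rw [le_def, val_inf h]; exact inf_le_l h
  inf_le_r h := by rw [le_def, val_inf h]; exact inf_le_r h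
  le_inf' h h1 h2 := by rw [le_def, val_inf h]; exact le_inf' h h1 h2
  sup_eq _ _ := rfl
  inf_compl' a := by
    apply Subtype.ext
    have h := cp_compl' (cp_refl a.1)
    rw [val_inf h]
    exact eq_bot_of_le_compl (inf_le_l h) ((inf_le_r h).trans (inf_le_l a.cpc))
  split {a b} h := by
    apply Subtype.ext
    have hS := blk2 a b h
    have ha : a.1 ∈ hS.blk := Gen.of (by simp)
    have hb : b.1 ∈ hS.blk := Gen.of (by simp)
    have ht : t ∈ hS.blk := Gen.of (by simp)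
    have h1 := hS.blk.inf' ha hb
    have h2 := hS.blk.inf' (hS.blk.compl' hb) ht
    have h3 := hS.blk.inf' ha h2
    have h4 := hS.blk.inf' (hS.blk.compl' h1) ht
    have h5 := hS.blk.inf' (hS.blk.compl' h3) ht
    have h6 := hS.blk.inf' h4 h5
    have e1 : ((a ⊓ b)ᶜ).1 = (a.1 ⊓ b.1)ᶜ ⊓ t := by rw [val_compl, val_inf h]
    have e2 : ((a ⊓ bᶜ)ᶜ).1 = (a.1 ⊓ (b.1ᶜ ⊓ t))ᶜ ⊓ t := by
      rw [val_compl, val_inf (cp_compl' h), val_compl]
    have e3 : ((a ⊓ b) ⊔ (a ⊓ bᶜ)).1 =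
        (((a.1 ⊓ b.1)ᶜ ⊓ t) ⊓ ((a.1 ⊓ (b.1ᶜ ⊓ t))ᶜ ⊓ t))ᶜ ⊓ t := by
      show (((a ⊓ b)ᶜ ⊓ (a ⊓ bᶜ)ᶜ)ᶜ).1 = _
      rw [val_compl, val_inf (by rw [e1, e2]; exact hS.blk.cp' h4 h5), e1, e2]
    rw [e3]
    refine hS.blk.eq_of_pt ha (hS.blk.inf' (hS.blk.compl' h6) ht) fun o => ?_
    rw [o.inf (hS.blk.compl' h6) ht, o.compl h6, o.inf h4 h5, o.inf (hS.blk.compl' h1) ht,
      o.inf (hS.blk.compl' h3) ht, o.compl h1, o.compl h3, o.inf ha hb, o.inf ha h2,
      o.inf (hS.blk.compl' hb) ht, o.compl hb]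
    have := o.mono ha ht a.2
    tauto

theorem cp_iff {a b : Rel t} : Cp a b ↔ Cp a.1 b.1 := Iff.rfl
theorem val_top : (⊤ : Rel t).1 = t := rfl
theorem val_bot : (⊥ : Rel t).1 = ⊥ := rfl
theorem eq_bot_iff' {a : Rel t} : a = ⊥ ↔ a.1 = ⊥ := Subtype.ext_iff
theorem eq_top_iff' {a : Rel t} : a = ⊤ ↔ t ≤ a.1 :=
  ⟨fun h => by rw [h]; exact le_rfl, fun h => Subtype.ext (le_antisymm a.2 h)⟩

end Rel

open Classical in
/-- restriction of an element compatible with `t` to `Rel t` -/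
noncomputable def res (t u : C) : Rel t :=
  if h : Cp t u then ⟨t ⊓ u, inf_le_l h⟩ else ⊥

theorem res_val {t u : C} (h : Cp t u) : (res t u).1 = t ⊓ u := by rw [res, dif_pos h]

theorem res_le {t u : C} : (res t u).1 ≤ u := by
  by_cases h : Cp t u
  · rw [res_val h]; exact inf_le_r h
  · rw [res, dif_neg h]; exact bot_le

theorem le_res {t u : C} (h : Cp t u) {w : Rel t} : w ≤ res t u ↔ w.1 ≤ u :=
  ⟨fun hw => le_trans hw res_le, fun hw => by
    rw [Rel.le_def, res_val h]; exact le_inf' h w.2 hw⟩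

theorem Obs.res {x : α → C} (h : Obs x) {t : C} (ht : Dec t x) : Obs (fun a => res t (x a)) where
  fin := h.fin.subset fun a ha h0 => ha (Rel.eq_bot_iff'.2 (le_bot_iff.1 (h0 ▸ res_le)))
  orth a b hab := Rel.le_compl_iff.2 (res_le.trans ((h.orth a b hab).trans (compl_anti res_le)))
  cover z hz := Rel.eq_top_iff'.2 (h.le_of_pieces ht fun a _ => by
    have := hz a; rwa [Rel.le_def, res_val (ht a)] at this)

theorem Obs.evt_res {x : α → C} (h : Obs x) {t : C} (ht : Dec t x) (p : α → Prop) :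
    evt (fun a => R189.res t (x a)) p = R189.res t (evt x p) := by
  refine le_antisymm ((h.res ht).evt_le fun a ha => (le_res (h.cp_evt ht p)).2
    (res_le.trans (h.le_evt ha))) ((h.res ht).le_evt_iff.2 fun a ha => Rel.le_compl_iff.2 ?_)
  exact res_le.trans ((h.le_evt_iff.1 le_rfl a ha).trans (compl_anti res_le))

/-- the classical instance -/
noncomputable instance : COMP Prop where
  Cp _ _ := True
  cp_symm _ := trivial
  cp_of_le _ := trivial
  cp_compl _ := trivial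
  cp_inf _ _ _ := trivial
  compl_compl' := compl_compl
  compl_anti h := compl_le_compl h
  inf_le_l _ := inf_le_left
  inf_le_r _ := inf_le_right
  le_inf' _ := le_inf
  sup_eq a b := by rw [compl_inf, compl_compl, compl_compl]
  inf_compl' _ := inf_compl_eq_bot
  split _ := sup_inf_inf_compl.symm

end Crest.Agent.R189
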