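import Crest.Agent.R189.B2.Q1
import Crest.Agent.R189.B2.Q2
import Crest.Agent.R189.B2.Q3
import Crest.Agent.R189.B2.QL

/-! Row 189, B2: Q4, quantum rigidity and the classical step (helper3) (see notes189/h8.md) -/

set_option autoImplicit false

namespace Crest.Agent.R189.B2

open COMP

section

variable {C : Type} [COMP C] {z : C}

theorem pos_finite (v : ℤ) : {o : V | Pos v o}.Finite :=
  ((Set.finite_Ico 0 (32 * v)).prod (Set.finite_Ico 0 2)).subset fun _ h => h

/-- gluing compatibility along the position events -/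
theorem QM.Part.glue {m : QM C z} {v : ℤ} {P : V → C} (hP : m.Part v P) {a b : C} (ha : a ≤ z)
    (hb : b ≤ z) (ha' : ∀ o, Pos v o → Cp (P o) a) (hb' : ∀ o, Pos v o → Cp (P o) b)
    (h : ∀ o, Pos v o → Cp (P o ⊓ a) (P o ⊓ b)) : Cp a b := by
  classical
  let x : Option V → C := fun o => o.elim zᶜ fun o => if Pos v o then P o else ⊥
  have hle : ∀ o, x (some o) ≤ z := fun o => by
    show (if Pos v o then P o else ⊥) ≤ z
    split_ifs
    · exact hP.le o
    · exact bot_le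
  have hx : Obs x := by
    refine ⟨(((pos_finite v).image some).insert none).subset ?_, ?_, ?_⟩
    · rintro (_ | o) ho
      · exact Or.inl rfl
      · exact Or.inr ⟨o, by_contra fun hn => ho (if_neg hn), rfl⟩
    · rintro (_ | o) (_ | o') hne
      · exact (hne rfl).elim
      · exact compl_anti (hle o')
      · exact le_compl_comm.1 (compl_anti (hle o))
      · show (if Pos v o then P o else ⊥) ≤ (if Pos v o' then P o' else ⊥)ᶜ
        split_ifs with h1 h2
        · exact hP.orth o o' h1 h2 fun e => hne (congrArg some e)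
        · rw [compl_bot']; exact le_top
        · exact bot_le
        · exact bot_le
    · intro w hw
      have h1 : z ≤ w := hP.cover w fun o ho => by
        have := hw (some o)
        rwa [show x (some o) = P o from if_pos ho] at this
      exact top_le_iff.1 ((sup_compl' z).ge.trans (sup_le' (cp_compl (cp_refl z)) h1 (hw none)))
  have dec : ∀ {c : C}, c ≤ z → (∀ o, Pos v o → Cp (P o) c) → Dec c x := by
    rintro c hc hc' (_ | o)
    · exact cp_compl (cp_of_le hc)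
    · show Cp c (if Pos v o then P o else ⊥)
      split_ifs with h1
      · exact cp_symm (hc' o h1)
      · exact cp_bot _
  refine hx.cp_glue (dec ha ha') (dec hb hb') ?_
  rintro (_ | o) h0
  · have : a ⊓ x none = ⊥ := inf_eq_bot_of_le_compl (ha.trans (compl_compl' z).ge)
    rw [this]; exact cp_of_le bot_le
  · have ho : Pos v o := by_contra fun hn => h0 (if_neg hn)
    rw [show x (some o) = P o from if_pos ho, ← inf_comm' (ha' o ho), ← inf_comm' (hb' o ho)]
    exact h o ho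

/-- below `t` every event of the cell `p` is an event of the cell `c` -/
def Hang (m : QM C z) (t : C) (p c : V) : Prop :=
  ∀ A, ∃ A', t ⊓ m.ev p A = t ⊓ m.ev c A'

variable {m : QM C z} {v : ℤ} {o : V} {t : C}

theorem hang_self (p : V) : Hang m t p p := fun A => ⟨A, rfl⟩

theorem hang_plain (h : Own3 m v o t) (hcp : ∀ p A, Cp t (m.ev p A)) {p : V}
    (h1 : p.1 % (16 * v) ≠ 0) (h2 : p.2 % 2 = 1) (c : V) : Hang m t p c := by
  intro A
  have hW := h.H (p.1 - 1, p.2) h2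
  rw [← m.glueW p (fun c => c = _)] at hW
  have hS := h.W (p.1, p.2 - 1) h1
  rw [← m.glueS p (fun c => c = _)] at hS
  have hG := m.and3 (m.and3 hW (h.H p h2)) (m.and3 hS (h.W p h1))
  generalize ownH v (p.1 - 1, p.2).1 _ = cW at hG
  generalize ownH v p.1 _ = cE at hG
  generalize ownV v (p.1, p.2 - 1).1 _ _ = cS at hG
  generalize ownV v p.1 _ _ = cN at hG
  by_cases hA : A ⟨cW, cE, cS, cN⟩
  · refine ⟨fun _ => True, ?_⟩
    rw [(m.top c).trans (m.top p).symm]
    refine m.inf_congr3 (hcp _ _) (hcp _ _) hG fun τ _ hτ => ?_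
    rw [show τ = ⟨cW, cE, cS, cN⟩ from Tile.ext hτ.1.1 hτ.1.2 hτ.2.1 hτ.2.2]
    simp [hA]
  · refine ⟨fun _ => False, ?_⟩
    rw [(m.bot c).trans (m.bot p).symm]
    refine m.inf_congr3 (hcp _ _) (hcp _ _) hG fun τ _ hτ => ?_
    rw [show τ = ⟨cW, cE, cS, cN⟩ from Tile.ext hτ.1.1 hτ.1.2 hτ.2.1 hτ.2.2]
    simp [hA]

theorem hangV0 (h : Own3 m v o t) (hv : 1 ≤ v) (hc : m.Canon v) (htz : t ≤ z)
    (hcp : ∀ p A, Cp t (m.ev p A)) {p : V} (h1 : p.1 % (16 * v) = 0) (h2 : p.2 % 2 = 1)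
    (A : Tile → Prop) : ∃ Q : Col → Prop, t ⊓ m.ev p A = t ⊓ m.ev p (fun τ => Q τ.N) := by
  have hW := h.H (p.1 - 1, p.2) h2
  rw [← m.glueW p (fun c => c = _)] at hW
  have hG := m.and3 (m.and3 hW (h.H p h2)) (htz.trans (m.isV hv hc h1 h2))
  generalize ownH v (p.1 - 1, p.2).1 _ = cW at hG
  generalize ownH v p.1 _ = cE at hG
  refine ⟨fun c => A ⟨cW, cE, c, c⟩, m.inf_congr3 (hcp _ _) (hcp _ _) hG fun τ _ hτ => ?_⟩
  exact iff_of_eq (congrArg A (Tile.ext hτ.1.1 hτ.1.2 (vwire_eq hτ.2) rfl))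

theorem hangH0 (h : Own3 m v o t) (hc : m.Canon v) (htz : t ≤ z)
    (hcp : ∀ p A, Cp t (m.ev p A)) {p : V} (h1 : p.1 % (16 * v) ≠ 0) (h2 : p.2 % 2 = 0)
    (A : Tile → Prop) : ∃ Q : Col → Prop, t ⊓ m.ev p A = t ⊓ m.ev p (fun τ => Q τ.E) := by
  have hS := h.W (p.1, p.2 - 1) h1
  rw [← m.glueS p (fun c => c = _)] at hS
  have hG := m.and3 (m.and3 hS (h.W p h1)) (htz.trans (m.isH hc h1 h2))
  generalize ownV v (p.1, p.2 - 1).1 _ _ = cS at hG
  generalize ownV v p.1 _ _ = cN at hG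
  refine ⟨fun c => A ⟨c, c, cS, cN⟩, m.inf_congr3 (hcp _ _) (hcp _ _) hG fun τ _ hτ => ?_⟩
  exact iff_of_eq (congrArg A (Tile.ext (hwire_eq hτ.2) rfl hτ.1.1 hτ.1.2))

theorem hangV (h : Own3 m v o t) (hv : 1 ≤ v) (hc : m.Canon v) (htz : t ≤ z)
    (hcp : ∀ p A, Cp t (m.ev p A)) {p : V} (h1 : p.1 % (16 * v) = 0) (h2 : p.2 % 2 = 1)
    {y : ℤ} (hy : |y - p.2| ≤ 1) : Hang m t p (p.1, y) := by
  intro A
  obtain ⟨Q, hQ⟩ := hangV0 h hv hc htz hcp h1 h2 A
  have : y = p.2 - 1 ∨ y = p.2 ∨ y = p.2 + 1 := by rw [abs_le] at hy; omega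
  rcases this with rfl | rfl | rfl
  · exact ⟨_, by rw [hQ, ← m.passV hv hc h1 h2, m.glueS]⟩
  · exact ⟨A, rfl⟩
  · exact ⟨_, by rw [hQ, m.glueV]⟩

theorem hangH (h : Own3 m v o t) (hc : m.Canon v) (htz : t ≤ z)
    (hcp : ∀ p A, Cp t (m.ev p A)) {p : V} (h1 : p.1 % (16 * v) ≠ 0) (h2 : p.2 % 2 = 0)
    {x : ℤ} (hx : |x - p.1| ≤ 1) : Hang m t p (x, p.2) := by
  intro A
  obtain ⟨Q, hQ⟩ := hangH0 h hc htz hcp h1 h2 A
  have : x = p.1 - 1 ∨ x = p.1 ∨ x = p.1 + 1 := by rw [abs_le] at hx; omega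
  rcases this with rfl | rfl | rfl
  · exact ⟨_, by rw [hQ, ← m.passH hc h1 h2, m.glueW]⟩
  · exact ⟨A, rfl⟩
  · exact ⟨_, by rw [hQ, m.glueH]⟩

theorem hang_up (h : Own3 m v o t) (hv : 1 ≤ v) (hc : m.Canon v) (htz : t ≤ z)
    (hcp : ∀ p A, Cp t (m.ev p A)) (p : V) : Hang m t p (ctr v o (up v o p)) := by
  by_cases h1 : p.1 % (16 * v) = 0
  · rcases Int.emod_two_eq_zero_or_one p.2 with h2 | h2
    · have e := eq_ctr_add (v := v) o p
      rw [h1, h2, add_zero, add_zero] at e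
      intro A
      exact ⟨A, congrArg (fun q => t ⊓ m.ev q A) e⟩
    · intro A
      obtain ⟨Q, hQ⟩ := hangV0 h hv hc htz hcp h1 h2 A
      exact ⟨_, by rw [hQ, m.wireV hv hc o p Q h1]⟩
  · rcases Int.emod_two_eq_zero_or_one p.2 with h2 | h2
    · intro A
      obtain ⟨Q, hQ⟩ := hangH0 h hc htz hcp h1 h2 A
      exact ⟨_, by rw [hQ, m.wireH hv hc o p Q h2]⟩
    · exact hang_plain h hcp h1 h2 _

theorem hang_near (h : Own3 m v o t) (hv : 1 ≤ v) (hc : m.Canon v) (htz : t ≤ z)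
    (hcp : ∀ p A, Cp t (m.ev p A)) {p q : V} (d1 : |p.1 - q.1| ≤ 1) (d2 : |p.2 - q.2| ≤ 1) :
    ∃ c, Hang m t p c ∧ Hang m t q c := by
  have d1' : |q.1 - p.1| ≤ 1 := by rwa [abs_sub_comm]
  have d2' : |q.2 - p.2| ≤ 1 := by rwa [abs_sub_comm]
  have b2 := abs_le.1 d2
  by_cases hp : p.1 % (16 * v) ≠ 0 ∧ p.2 % 2 = 1
  · exact ⟨q, hang_plain h hcp hp.1 hp.2 _, hang_self _⟩
  by_cases hq : q.1 % (16 * v) ≠ 0 ∧ q.2 % 2 = 1
  · exact ⟨p, hang_self _, hang_plain h hcp hq.1 hq.2 _⟩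
  by_cases hp1 : p.1 % (16 * v) = 0
  · by_cases hq1 : q.1 % (16 * v) = 0
    · have e1 : p.1 = q.1 := by
        have b1 := abs_le.1 d1
        have : p.1 = q.1 - 1 ∨ p.1 = q.1 ∨ q.1 = p.1 - 1 := by omega
        rcases this with e | e | e
        · exact (emod_pred_ne (by omega) hq1 (e ▸ hp1)).elim
        · exact e
        · exact (emod_pred_ne (by omega) hp1 (e ▸ hq1)).elim
      rcases Int.emod_two_eq_zero_or_one p.2 with h2 | h2
      · rcases Int.emod_two_eq_zero_or_one q.2 with h3 | h3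
        · have : p = q := Prod.ext e1 (by omega)
          exact ⟨p, hang_self _, this ▸ hang_self _⟩
        · refine ⟨p, hang_self _, ?_⟩
          have := hangV h hv hc htz hcp hq1 h3 d2
          rwa [← e1] at this
      · refine ⟨q, ?_, hang_self _⟩
        have := hangV h hv hc htz hcp hp1 h2 d2'
        rwa [e1] at this
    · have h3 : q.2 % 2 = 0 := by
        by_contra hn; exact hq ⟨hq1, by omega⟩
      refine ⟨(p.1, q.2), ?_, hangH h hc htz hcp hq1 h3 d1⟩
      rcases Int.emod_two_eq_zero_or_one p.2 with h2 | h2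
      · rw [show q.2 = p.2 by omega]; exact hang_self _
      · exact hangV h hv hc htz hcp hp1 h2 d2'
  · have h2 : p.2 % 2 = 0 := by
      by_contra hn; exact hp ⟨hp1, by omega⟩
    refine ⟨(q.1, p.2), hangH h hc htz hcp hp1 h2 d1', ?_⟩
    rcases Int.emod_two_eq_zero_or_one q.2 with h3 | h3
    · rw [show p.2 = q.2 by omega]; exact hang_self _
    · have hq1 : q.1 % (16 * v) = 0 := by
        by_contra hn; exact hq ⟨hn, h3⟩
      exact hangV h hv hc htz hcp hq1 h3 d2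

end

theorem ediv_dist {n a b d : ℤ} (hn : 2 ≤ n) (hd : 1 ≤ d) (h : |a - b| ≤ d + 1) :
    |a / n - b / n| ≤ d := by
  have ha := Int.mul_ediv_add_emod a n
  have hb := Int.mul_ediv_add_emod b n
  have h1 := Int.emod_nonneg a (b := n) (by omega)
  have h2 := Int.emod_lt_of_pos a (b := n) (by omega)
  have h3 := Int.emod_nonneg b (b := n) (by omega)
  have h4 := Int.emod_lt_of_pos b (b := n) (by omega)
  rw [abs_le] at h ⊢
  constructor
  · by_contra hc
    have : d + 1 ≤ b / n - a / n := by omega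
    nlinarith
  · by_contra hc
    have : d + 1 ≤ a / n - b / n := by omega
    nlinarith

theorem qrigid_aux {C : Type} [COMP C] (d : ℕ) : ∀ {v : ℤ}, 1 ≤ v → ∀ {z : C} (m : QM C z),
    m.Canon v → ∀ p q : V, |p.1 - q.1| ≤ d + 1 → |p.2 - q.2| ≤ d + 1 →
      ∀ A B : Tile → Prop, Cp (m.ev p A) (m.ev q B) := by
  induction d with
  | zero =>
    intro v hv z m hc p q d1 d2 A B
    obtain ⟨P, hP⟩ := q1 m hv hc
    refine hP.glue (m.le_z _ _) (m.le_z _ _) (fun o ho => q2 m hv hc hP ho _ _)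
      (fun o ho => q2 m hv hc hP ho _ _) fun o ho => ?_
    have hcp := q2 m hv hc hP ho
    obtain ⟨c, h1, h2⟩ := hang_near (Own3.of_own (hP.own o ho)) hv hc (hP.le o) hcp
      (p := p) (q := q) (by simpa using d1) (by simpa using d2)
    obtain ⟨A', hA⟩ := h1 A
    obtain ⟨B', hB⟩ := h2 B
    rw [hA, hB]
    exact (m.restrict (P o) (hP.le o) hcp).cp c A' B'
  | succ d ih =>
    intro v hv z m hc p q d1 d2 A B
    obtain ⟨P, hP⟩ := q1 m hv hc
    refine hP.glue (m.le_z _ _) (m.le_z _ _) (fun o ho => q2 m hv hc hP ho _ _)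
      (fun o ho => q2 m hv hc hP ho _ _) fun o ho => ?_
    have hcp := q2 m hv hc hP ho
    have hown := Own3.of_own (hP.own o ho)
    obtain ⟨A', hA⟩ := hang_up hown hv hc (hP.le o) hcp p A
    obtain ⟨B', hB⟩ := hang_up hown hv hc (hP.le o) hcp q B
    rw [hA, hB]
    refine ih (v := 2 * v) (by omega) (m.next hv hc o (P o) (hP.le o) hcp)
      (hown.canon hv hc (hP.le o) hcp) (up v o p) (up v o q) ?_ ?_ (fun τ => A' τ.tr)
      (fun τ => B' τ.tr)
    · simp only [up, add_sub_add_left_eq_sub]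
      exact ediv_dist le_rfl (by omega) (by exact_mod_cast d2)
    · simp only [up, add_sub_add_left_eq_sub]
      exact ediv_dist (by omega) (by omega) (by exact_mod_cast d1)

theorem qrigid {C : Type} [COMP C] {v : ℤ} (hv : 1 ≤ v) {z : C} (m : QM C z) (hc : m.Canon v) (p q : V)
    (A B : Tile → Prop) : Cp (m.ev p A) (m.ev q B) :=
  qrigid_aux ((p.1 - q.1).natAbs + (p.2 - q.2).natAbs) hv m hc p q
    (by rw [abs_le]; omega) (by rw [abs_le]; omega) A B

/-- a valid tiling as a model in `Prop` -/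
def Canon.qm {v : ℤ} {x : V → Tile} (hx : Canon v x) : QM Prop True where
  ev p A := A (x p)
  mono p _ _ h := h _ (hx.valid p)
  top _ := rfl
  bot _ := rfl
  cp _ _ _ := trivial
  inf _ _ _ := rfl
  compl _ _ := propext ⟨fun h => ⟨trivial, h⟩, fun h => h.2⟩
  glueH p P := congrArg P (hx.glueH p)
  glueV p P := congrArg P (hx.glueV p)

theorem Canon.qm_canon {v : ℤ} {x : V → Tile} (hx : Canon v x) : hx.qm.Canon v :=
  fun p _ => hx.tag p

/-- classical desubstitution (`q1`, `q3` at `C = Prop`) -/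
theorem cstep {v : ℤ} (hv : 1 ≤ v) {x : V → Tile} (hx : Canon v x) :
    ∃ o, Pos v o ∧ Rel v o x (defl v o x) ∧ Canon (2 * v) (defl v o x) := by
  obtain ⟨P, hP⟩ := q1 hx.qm hv hx.qm_canon
  obtain ⟨o, ho, hPo⟩ := hP.cover (∃ o, Pos v o ∧ P o) (fun o ho h => ⟨o, ho, h⟩) trivial
  have hown : ∀ p, True ≤ hx.qm.ev p (Own v o p) := fun p _ => hP.own o ho p hPo
  obtain ⟨⟨m', hm', he⟩, hH, hV⟩ := q3 hx.qm hv hx.qm_canon o hown
  refine ⟨o, ho, ⟨fun p => (hown p trivial).1, fun p => (hown p trivial).2, fun p hp => ?_,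
    fun p hp => ?_⟩, ⟨fun P => (hx.valid _).tr, fun P => ?_, fun P => ?_, fun P => ?_⟩⟩
  · exact (hH p (fun c => (x p).E = c) hp).mp rfl
  · exact (hV p (fun c => (x p).N = c) hp).mp rfl
  · have := m'.glueH P (fun c => (defl v o x P).E = c)
    rw [he, he] at this
    exact this.mp rfl
  · have := m'.glueV P (fun c => (defl v o x P).N = c)
    rw [he, he] at this
    exact this.mp rfl
  · have := hm' P trivial
    rw [he] at this
    exact this

end Crest.Agent.R189.B2
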