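import Crest.Agent.R189.B2.Cell
import Crest.Agent.R189.B2.Q4
import Crest.Agent.R189.B2.Model
import Crest.Agent.R189.Basic

/-! Row 189, B2 (helper95): minimality at the level of tilings. -/

set_option autoImplicit false

namespace Crest.Agent.R189.B2

namespace Mn

variable {v : ℤ}

/-- `τ` occurs in every canonical tiling of parameter `v` -/
def Occ (v : ℤ) (τ : Tile) : Prop := ∀ y, Canon v y → ∃ p, y p = τ

theorem Occ.down (hv : 1 ≤ v) {τ : Tile} (h : Occ (2 * v) τ) : Occ v τ.tr := fun y hy => by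
  obtain ⟨o, -, -, h3⟩ := cstep hv hy
  obtain ⟨P, rfl⟩ := h _ h3
  exact ⟨_, rfl⟩

theorem one_le_pow (j : ℕ) : (1 : ℤ) ≤ 4 ^ j := one_le_pow₀ (by norm_num)

theorem exists_stable : ∃ j : ℕ, ∀ i, j ≤ i → ∀ τ, Occ (4 ^ j) τ → Occ (4 ^ i) τ := by
  have h : Antitone fun j : ℕ => {τ | Occ (4 ^ j) τ} := antitone_nat_of_succ_le fun j τ h => by
    have h1 := one_le_pow j
    have : Occ (2 * (2 * 4 ^ j)) τ := by rw [show (2 : ℤ) * (2 * 4 ^ j) = 4 ^ (j + 1) by ring]; exact h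
    exact (this.down (by omega)).down h1
  obtain ⟨_, ⟨j, rfl⟩, hj⟩ := (wellFounded_lt (α := Set Tile)).has_min (Set.range fun j : ℕ => {τ | Occ (4 ^ j) τ})
    ⟨_, 0, rfl⟩
  exact ⟨j, fun i hi τ hτ => ((h hi).eq_or_lt.resolve_right (hj _ ⟨i, rfl⟩)).ge hτ⟩

/-- colour of the E (`true`) or N (`false`) edge of a cell -/
def cl (x : V → Tile) (b : Bool) (p : V) : Col := if b then (x p).E else (x p).N

/-- own edges -/
def own (v : ℤ) (e : Bool × V) : Prop := if e.1 then e.2.2 % 2 = 1 else e.2.1 % (16 * v) ≠ 0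

/-- the pattern of `x` on the edges `F` occurs in every canonical tiling (if `L`: at a position of the same class) -/
def O (L : Prop) (v : ℤ) (x : V → Tile) (F : Set (Bool × V)) : Prop :=
  ∀ y, Canon v y → ∃ u : V, (L → 16 * v ∣ u.1 ∧ 2 ∣ u.2) ∧ ∀ e ∈ F, cl y e.1 (e.2 + u) = cl x e.1 e.2

theorem step (hv : 1 ≤ v) {L : Prop} {x x' : V → Tile} {o : V} (hr : Rel v o x x') {F F' : Set (Bool × V)}
    (hL : ∀ e ∈ F, own v e → L) (hF : ∀ e ∈ F, ¬ own v e → (!e.1, up v o e.2) ∈ F') (h : O L (2 * v) x' F') :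
    O True v x F := fun y hy => by
  obtain ⟨o', -, hr', hy'⟩ := cstep hv hy
  obtain ⟨u, hu, he⟩ := h _ hy'
  have h0 : 16 * v ≠ 0 := by omega
  let w : V := (16 * v * (u.2 + o.2 - o'.2), 2 * (u.1 + o.1 - o'.1))
  have k1 : ∀ p : V, (p + w).1 % (16 * v) = p.1 % (16 * v) := fun p => Int.add_mul_emod_self_left _ _ _
  have k2 : ∀ p : V, (p + w).2 % 2 = p.2 % 2 := fun p => Int.add_mul_emod_self_left _ _ _
  have k3 : ∀ p : V, up v o' (p + w) = up v o p + u := fun p => by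
    refine Prod.ext ?_ ?_
    · simp only [up, w, Prod.snd_add, Prod.fst_add]; omega
    · simp only [up, w, Prod.snd_add, Prod.fst_add, Int.add_mul_ediv_left _ _ h0]; omega
  have k4 : L → ∀ P : V, (P + u).1 % (32 * v) = P.1 % (32 * v) ∧ (P + u).2 % 2 = P.2 % 2 := fun l P => by
    obtain ⟨⟨a, ha⟩, ⟨b, hb⟩⟩ := hu l
    rw [Prod.fst_add, Prod.snd_add, ha, hb, show 16 * (2 * v) = 32 * v by ring]
    exact ⟨Int.add_mul_emod_self_left _ _ _, Int.add_mul_emod_self_left _ _ _⟩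
  refine ⟨w, fun _ => ⟨dvd_mul_right _ _, dvd_mul_right _ _⟩, ?_⟩
  rintro ⟨b, p⟩ hp
  by_cases ho : own v (b, p)
  · obtain ⟨l1, l2⟩ := k4 (hL _ hp ho) (up v o p)
    cases b
    · replace ho : p.1 % (16 * v) ≠ 0 := ho
      show (y (p + w)).N = (x p).N
      rw [hr.ownV p ho, hr'.ownV _ (by rwa [k1]), k3]
      exact ownV_congr hv (k1 p) (k2 p) l1 l2
    · replace ho : p.2 % 2 = 1 := ho
      show (y (p + w)).E = (x p).E
      rw [hr.ownH p ho, hr'.ownH _ (by rwa [k2]), k3]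
      exact ownH_congr hv (k1 p) l1 l2
  · have := he _ (hF _ hp ho)
    cases b
    · replace ho : p.1 % (16 * v) = 0 := not_not.1 ho
      show (y (p + w)).N = (x p).N
      rw [hr.wireV p ho, hr'.wireV _ (by rwa [k1]), k3]
      exact this
    · replace ho : ¬ p.2 % 2 = 1 := ho
      show (y (p + w)).E = (x p).E
      rw [hr.wireH p (by omega), hr'.wireH _ (by rw [k2]; omega), k3]
      exact this

/-- the four edges of a cell -/
def cellE (c : V) : Set (Bool × V) := {e | e.2 = c ∨ e = (true, (c.1 - 1, c.2)) ∨ e = (false, (c.1, c.2 - 1))}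

theorem O_occ {x : V → Tile} (hx : Canon v x) {c : V} (h : Occ v (x c)) : O False v x (cellE c) := fun y hy => by
  obtain ⟨q, hq⟩ := h y hy
  refine ⟨q - c, False.elim, ?_⟩
  rintro ⟨b, p⟩ (rfl | e | e)
  · simp only [add_sub_cancel, cl, hq]
  · obtain ⟨rfl, rfl⟩ := Prod.ext_iff.1 e
    show (y _).E = (x _).E
    rw [hy.glueH, hx.glueH, sub_add_cancel, ← hq]
    congr 2; ext <;> simp
  · obtain ⟨rfl, rfl⟩ := Prod.ext_iff.1 e
    show (y _).N = (x _).N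
    rw [hy.glueV, hx.glueV, sub_add_cancel, ← hq]
    congr 2; ext <;> simp

/-- a window of edges -/
def win (a : V) (d : ℕ) : Set (Bool × V) := {e | (a.1 ≤ e.2.1 ∧ e.2.1 ≤ a.1 + d) ∧ a.2 ≤ e.2.2 ∧ e.2.2 ≤ a.2 + d}

theorem win_one (hv : 1 ≤ v) (o a : V) : ∀ e ∈ win a 1, ¬ own v e →
    (!e.1, up v o e.2) ∈ cellE (up v o (a.1 + 1, a.2 + 1)) := by
  rintro ⟨b, p1, p2⟩ ⟨h1, h2⟩ ho
  have hn : 0 < 16 * v := by omega
  have k1 := pred_of_eq (X := a.1 + 1) hn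
  have k2 := pred_of_ne (X := a.1 + 1) hn
  rw [add_sub_cancel_right] at k1 k2
  simp only [Nat.cast_one] at h1 h2
  have : p1 = a.1 ∨ p1 = a.1 + 1 := by omega
  cases b <;> simp only [own, cellE, up, Set.mem_ofPred_eq, Prod.ext_iff, Bool.false_eq_true, if_true, if_false,
    Bool.not_true, Bool.not_false, true_and, false_and, Bool.true_eq_false, or_false, false_or] at ho ⊢ <;>
    rcases this with rfl | rfl <;> by_cases e : (a.1 + 1) % (16 * v) = 0 <;> omega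

theorem win_succ (hv : 1 ≤ v) (o a : V) (d : ℕ) : ∀ e ∈ win a (d + 2), (!e.1, up v o e.2) ∈ win (up v o a) (d + 1) := by
  rintro ⟨b, p1, p2⟩ ⟨h1, h2⟩
  have hn : 0 < 16 * v := by omega
  have k1 := Int.ediv_le_ediv hn h1.1
  have k2 : p1 / (16 * v) ≤ (a.1 + 16 * v * (d + 1)) / (16 * v) := Int.ediv_le_ediv hn (by
    have := h1.2
    push_cast at this
    nlinarith)
  rw [Int.add_mul_ediv_left _ _ hn.ne'] at k2
  simp only [win, up, Set.mem_ofPred_eq] at *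
  push_cast at *
  omega

section
variable {T : ℤ → Tile → Prop} (T1 : ∀ v τ, T v τ → Occ v τ) (T2 : ∀ v τ, T v τ → T (2 * v) τ.tr)
include T1 T2

omit T1 in
theorem next (hv : 1 ≤ v) {x : V → Tile} (hx : Canon v x) (hT : ∀ p, T v (x p)) :
    ∃ o x', Rel v o x x' ∧ Canon (2 * v) x' ∧ ∀ p, T (2 * v) (x' p) := by
  obtain ⟨o, -, h1, h2⟩ := cstep hv hx
  exact ⟨o, _, h1, h2, fun p => T2 _ _ (hT _)⟩

theorem O_edge (hv : 1 ≤ v) {x : V → Tile} (hx : Canon v x) (hT : ∀ p, T v (x p)) (e : Bool × V) :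
    O True v x {e} := by
  obtain ⟨o, x', h1, h2, h3⟩ := next T2 hv hx hT
  by_cases ho : own v e
  · exact step hv h1 (L := True) (F' := ∅) (fun _ _ _ => trivial) (fun _ h h' => h' (h ▸ ho))
      fun _ _ => ⟨0, fun _ => ⟨dvd_zero _, dvd_zero _⟩, fun _ h => h.elim⟩
  · exact step hv h1 (fun _ h h' => ho (h ▸ h')) (fun _ h _ => Or.inl (h ▸ rfl)) (O_occ h2 (T1 _ _ (h3 (up v o e.2))))

theorem O_cell (hv : 1 ≤ v) {x : V → Tile} (hx : Canon v x) (hT : ∀ p, T v (x p)) (c : V) :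
    O True v x (cellE c) := by
  obtain ⟨o, x', h1, h2, h3⟩ := next T2 hv hx hT
  by_cases e1 : c.2 % 2 = 1
  · refine step hv h1 (fun _ _ _ => trivial) ?_ (O_edge T1 T2 (by omega) h2 h3 (true, up v o c))
    rintro ⟨b, p⟩ (rfl | e | e) ho
    · cases b
      · rfl
      · exact absurd e1 ho
    · rw [e] at ho; exact absurd e1 ho
    · rw [e]; exact congrArg (Prod.mk true) ((up_south o c).trans (if_neg (by omega)))
  by_cases e2 : c.1 % (16 * v) ≠ 0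
  · refine step hv h1 (fun _ _ _ => trivial) ?_ (O_edge T1 T2 (by omega) h2 h3 (false, up v o c))
    rintro ⟨b, p⟩ (rfl | e | e) ho
    · cases b
      · exact absurd e2 ho
      · rfl
    · rw [e]; exact congrArg (Prod.mk false) ((up_west hv o c).trans (if_neg e2))
    · rw [e] at ho; exact absurd e2 ho
  refine step hv h1 ?_ ?_ (O_occ h2 (T1 _ _ (h3 (up v o c))))
  · rintro ⟨b, p⟩ (rfl | e | e) ho
    · cases b
      · exact e2 ho
      · exact e1 ho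
    · rw [e] at ho; exact e1 ho
    · rw [e] at ho; exact e2 ho
  · rintro ⟨b, p⟩ (rfl | e | e) -
    · exact Or.inl rfl
    · rw [e]; exact Or.inr (Or.inr (congrArg (Prod.mk false) ((up_west hv o c).trans (if_pos (not_not.1 e2)))))
    · rw [e]; exact Or.inr (Or.inl (congrArg (Prod.mk true) ((up_south o c).trans (if_pos (by omega)))))

theorem O_win (d : ℕ) : ∀ {v : ℤ} (_ : 1 ≤ v) {x : V → Tile} (_ : Canon v x) (_ : ∀ p, T v (x p)) (a : V),
    O True v x (win a (d + 1)) := by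
  induction d with
  | zero =>
    intro v hv x hx hT a
    obtain ⟨o, x', h1, h2, h3⟩ := next T2 hv hx hT
    exact step hv h1 (fun _ _ _ => trivial) (win_one hv o a) (O_cell T1 T2 (by omega) h2 h3 _)
  | succ d ih =>
    intro v hv x hx hT a
    obtain ⟨o, x', h1, h2, h3⟩ := next T2 hv hx hT
    exact step hv h1 (fun _ _ _ => trivial) (fun e he _ => win_succ hv o a d e he) (ih (by omega) h2 h3 _)

theorem O_box (hv : 1 ≤ v) {x y : V → Tile} (hx : Canon v x) (hT : ∀ p, T v (x p)) (hy : Canon v y) (r : ℕ) :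
    ∃ u : V, 16 * v ∣ u.1 ∧ 2 ∣ u.2 ∧ ∀ p ∈ box r, y (p + u) = x p := by
  obtain ⟨u, hu, h⟩ := O_win T1 T2 (2 * r) hv hx hT (-(r : ℤ) - 1, -(r : ℤ) - 1) y hy
  refine ⟨u, (hu trivial).1, (hu trivial).2, fun p hp => ?_⟩
  rw [mem_box] at hp
  have m : ∀ (b : Bool) (q : V), p.1 - 1 ≤ q.1 → q.1 ≤ p.1 → p.2 - 1 ≤ q.2 → q.2 ≤ p.2 →
      cl y b (q + u) = cl x b q := fun b q _ _ _ _ => h (b, q) (by
    simp only [win, Set.mem_ofPred_eq]; push_cast; omega)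
  refine Tile.ext ?_ (m true p (by omega) le_rfl (by omega) le_rfl) ?_ (m false p (by omega) le_rfl (by omega) le_rfl)
  · have : (y _).E = (x _).E := m true (p.1 - 1, p.2) le_rfl (by simp) (by simp) le_rfl
    rw [hy.glueH, hx.glueH, sub_add_cancel] at this
    convert this using 3; ext <;> simp only [Prod.fst_add, Prod.snd_add]; omega
  · have : (y _).N = (x _).N := m false (p.1, p.2 - 1) (by simp) le_rfl le_rfl (by simp)
    rw [hy.glueV, hx.glueV, sub_add_cancel] at this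
    convert this using 3; ext <;> simp only [Prod.fst_add, Prod.snd_add]; omega

end

/-- every canonical tiling is the bottom of a tower -/
theorem exists_tower (t : ℕ) {y : V → Tile} (hy : Canon (2 ^ t) y) : ∃ (o : ℕ → V) (x : ℕ → V → Tile), x 0 = y ∧
    ∀ k, Rel (2 ^ (t + k)) (o k) (x k) (x (k + 1)) ∧ Canon (2 ^ (t + k)) (x k) := by
  have h : ∀ (k : ℕ) (x : {x // Canon (2 ^ (t + k)) x}), ∃ p : V × {x // Canon (2 ^ (t + (k + 1))) x},
      Rel (2 ^ (t + k)) p.1 x.1 p.2.1 := fun k x => by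
    obtain ⟨o, -, h1, h2⟩ := cstep (one_le_pow₀ (by norm_num)) x.2
    exact ⟨(o, ⟨_, by rw [← add_assoc, pow_succ']; exact h2⟩), h1⟩
  choose f hf using h
  let x : ∀ k : ℕ, {x // Canon (2 ^ (t + k)) x} := fun k => Nat.rec ⟨y, hy⟩ (fun k x => (f k x).2) k
  exact ⟨fun k => (f k (x k)).1, fun k => (x k).1, rfl, fun k => ⟨hf k (x k), (x k).2⟩⟩

theorem min_of (hm : ∀ j : ℕ, ∃ x, Canon (4 ^ j) x ∧ ∀ p, Occ (4 ^ j) (x p)) :
    ∃ (j : ℕ) (T : Tile → Prop), (∃ x, Canon (4 ^ j) x ∧ ∀ p, T (x p)) ∧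
      ∀ x y, Canon (4 ^ j) x → (∀ p, T (x p)) → Canon (4 ^ j) y → ∀ r : ℕ,
        ∃ u : V, 16 * 4 ^ j ∣ u.1 ∧ 2 ∣ u.2 ∧ ∀ p ∈ box r, y (p + u) = x p := by
  obtain ⟨j, hj⟩ := exists_stable
  refine ⟨j, Occ (4 ^ j), hm j, fun x y hx hT hy r => O_box
    (T := fun v τ => ∃ i, j ≤ i ∧ ((v = 4 ^ i ∧ Occ (4 ^ j) τ) ∨ (v = 2 * 4 ^ i ∧ Occ (4 ^ j) τ.tr))) ?_ ?_
    (one_le_pow j) hx (fun p => ⟨j, le_rfl, Or.inl ⟨rfl, hT p⟩⟩) hy r⟩
  · rintro _ τ ⟨i, hi, ⟨rfl, h⟩ | ⟨rfl, h⟩⟩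
    · exact hj i hi τ h
    · have h1 := one_le_pow i
      have := hj (i + 1) (by omega) _ h
      rw [show (4 : ℤ) ^ (i + 1) = 2 * (2 * 4 ^ i) by ring] at this
      exact this.down (by omega)
  · rintro _ τ ⟨i, hi, ⟨rfl, h⟩ | ⟨rfl, h⟩⟩
    · exact ⟨i, hi, Or.inr ⟨rfl, h⟩⟩
    · exact ⟨i + 1, by omega, Or.inl ⟨by ring, h⟩⟩

end Mn

/-- **minimality at the level of tilings** -/
theorem exists_min : ∃ (j : ℕ) (T : Tile → Prop), (∃ x, Canon (4 ^ j) x ∧ ∀ p, T (x p)) ∧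
    ∀ x y, Canon (4 ^ j) x → (∀ p, T (x p)) → Canon (4 ^ j) y → ∀ r : ℕ,
      ∃ u : V, 16 * 4 ^ j ∣ u.1 ∧ 2 ∣ u.2 ∧ ∀ p ∈ box r, y (p + u) = x p := by
  refine Mn.min_of fun j => ?_
  obtain ⟨o, m, h1, h2⟩ := exists_model
  rw [show (4 : ℤ) ^ j = 2 ^ (2 * j) by rw [pow_mul]; norm_num]
  refine ⟨m (2 * j), (h1 _).1, fun p y hy => ?_⟩
  obtain ⟨o2, x, rfl, h⟩ := Mn.exists_tower _ hy
  exact h2 _ p o2 x h

end Crest.Agent.R189.B2
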