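import Crest.Agent.R189.B2.Sft
import Crest.Agent.R189.B2.Min

/-! Row 189, B2 (helper95): the subshift is minimal. -/

set_option autoImplicit false

namespace Crest.Agent.R189.B2

variable {n : ℕ} {T : Tile → Prop} [NeZero n] {ne : ∃ x, Canon n x ∧ ∀ p, T (x p)}

theorem minimal_XT (hmin : ∀ x y, Canon n x → (∀ p, T (x p)) → Canon n y → ∀ r : ℕ,
      ∃ u : V, 16 * (n : ℤ) ∣ u.1 ∧ 2 ∣ u.2 ∧ ∀ p ∈ box r, y (p + u) = x p)
    (x y : (XT n T ne).Pt) (r : ℕ) : ∃ v : V, SFT.agree r (v +ᵥ x) y := by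
  obtain ⟨s, hs⟩ := cn_zero x
  obtain ⟨t, ht⟩ := cn_zero y
  obtain ⟨k, hk⟩ := exists_mem_box (-t)
  obtain ⟨u, h1, h2, h⟩ := hmin _ _ ht (fun p => tl_T y _) hs (r + k)
  refine ⟨u + s - t, fun p hp => lt_eq (c := t) ?_ ht ?_⟩
  · rw [tl_vadd, sh_sh, add_sub_cancel, ← sh_sh]
    exact hs.sh one_le h1 h2
  · have := h _ (add_mem_box hp hk)
    rw [sh_apply, sh_apply, neg_add_cancel_right] at this
    rw [← this, tl_vadd, sh_apply]
    congr 1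
    abel

/-- a minimal instance of the subshift -/
theorem exists_minimal_XT : ∃ (n : ℕ) (_ : NeZero n) (T : Tile → Prop) (ne : ∃ x, Canon n x ∧ ∀ p, T (x p)),
    ∀ (x y : (XT n T ne).Pt) (r : ℕ), ∃ v : V, SFT.agree r (v +ᵥ x) y := by
  obtain ⟨j, T, h1, h2⟩ := exists_min
  have e : ((4 ^ j : ℕ) : ℤ) = 4 ^ j := by push_cast; rfl
  exact ⟨4 ^ j, inferInstance, T, e ▸ h1, minimal_XT (e ▸ h2)⟩

end Crest.Agent.R189.B2
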