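import Crest.Agent.R189.Basic
import Crest.Agent.R189.B2.QL

/-! Row 189, block B2: nearest-neighbour subshifts and their quantum configurations. -/

set_option autoImplicit false

namespace Crest.Agent.R189

open COMP

namespace SFT

variable {X : SFT} {C : Type} [COMP C] {e : V → X.A → C}

theorem Cells.obs (h : X.Cells C e) (v : V) : Obs (e v) :=
  Obs.of_fintype (h.orth v) (h.cover v)

theorem Cells.pcp (h : X.Cells C e) (v : V) :
    PCp {z | ∃ u ∈ box X.R0, ∃ a, z = e (u + v) a} := by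
  rintro _ ⟨u, hu, a, rfl⟩ _ ⟨w, hw, b, rfl⟩
  refine h.near _ _ _ _ ?_
  have := add_mem_box hw (neg_mem_box hu)
  rw [two_mul]
  convert this using 1
  abel

/-- a partial pattern that does not occur in `X` has zero meet -/
theorem Cells.eq_bot (h : X.Cells C e) (v : V) (s : Finset V) (hs : s ⊆ box X.R0) (p : V → X.A)
    (hp : ¬ ∃ y ∈ X.X, ∀ u ∈ s, y u = p u) (z : C) (hz : ∀ u ∈ s, z ≤ e (u + v) (p u)) :
    z = ⊥ := by
  have hm : ∀ u ∈ box X.R0, ∀ a, e (u + v) a ∈ (h.pcp v).blk := fun u hu a =>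
    Gen.of ⟨u, hu, a, rfl⟩
  have hm' : ∀ u ∈ s, e (u + v) (p u) ∈ (h.pcp v).blk := fun u hu => hm u (hs hu) _
  have h1 : z ≤ mt s fun u => e (u + v) (p u) := (FCp.of_blk _ hm').le_mt hz
  have h2 : (mt s fun u => e (u + v) (p u)) = ⊥ := by
    refine (h.pcp v).blk.eq_bot_of_pt ((h.pcp v).blk.mt_mem hm') fun o ho => ?_
    rw [o.mt hm'] at ho
    have hex : ∀ u : V, ∃ a, u ∈ box X.R0 → o.p (e (u + v) a) := fun u => by
      by_cases hu : u ∈ box X.R0
      · obtain ⟨a, ha⟩ := (h.obs (u + v)).pt_ex (hm u hu) o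
        exact ⟨a, fun _ => ha⟩
      · exact ⟨p u, fun h' => (hu h').elim⟩
    choose q hq using hex
    have hm2 : ∀ u ∈ box X.R0, e (u + v) (q u) ∈ (h.pcp v).blk := fun u hu => hm u hu _
    have h3 : (mt (box X.R0) fun u => e (u + v) (q u)) = ⊥ := by
      refine h.rule v q ?_ _ fun u hu => (FCp.of_blk _ hm2).mt_le hu
      rintro ⟨y, hy, hyq⟩
      refine hp ⟨y, hy, fun u hu => (hyq u (hs hu)).trans ?_⟩
      exact (h.obs (u + v)).pt_uniq (hm u (hs hu)) o (hq u (hs hu)) (ho u hu)
    exact o.not_bot (h3 ▸ (o.mt hm2).2 hq)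
  exact le_bot_iff.1 (h2 ▸ h1)

/-- a letter that does not occur -/
theorem Cells.letter (h : X.Cells C e) (v : V) {a : X.A} (ha : ∀ y ∈ X.X, y 0 ≠ a) :
    e v a = ⊥ := by
  refine h.eq_bot v {0} (by simpa using zero_mem_box _) (fun _ => a) ?_ _ (by simp)
  rintro ⟨y, hy, h'⟩
  exact ha y hy (h' 0 (by simp))

/-- a pair of letters that does not occur -/
theorem Cells.pair (h : X.Cells C e) (v : V) {u : V} (hu : u ∈ box X.R0) (hu0 : u ≠ 0)
    {a b : X.A} (hab : ∀ y ∈ X.X, y 0 = a → y u ≠ b) : e v a ≤ (e (v + u) b)ᶜ := by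
  classical
  have hcp : Cp (e v a) (e (v + u) b) := h.near _ _ _ _ (by
    rw [add_sub_cancel_left]; exact box_mono (by omega) hu)
  refine le_compl_of_inf_eq_bot hcp (h.eq_bot v {0, u} ?_ (fun w => if w = 0 then a else b) ?_ _ ?_)
  · intro w hw
    simp only [Finset.mem_insert, Finset.mem_singleton] at hw
    rcases hw with rfl | rfl
    · exact zero_mem_box _
    · exact hu
  · rintro ⟨y, hy, h'⟩
    have h0 := h' 0 (by simp)
    have h1 := h' u (by simp)
    simp only [if_true, if_neg hu0] at h0 h1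
    exact hab y hy h0 h1
  · intro w hw
    simp only [Finset.mem_insert, Finset.mem_singleton] at hw
    rcases hw with rfl | rfl
    · simpa using inf_le_l hcp
    · simpa [hu0, add_comm] using inf_le_r hcp

end SFT

/-- configurations obeying nearest-neighbour rules -/
def NNset {A : Type} (ok : A → Prop) (rE rN : A → A → Prop) : Set (V → A) :=
  {x | ∀ v : V, ok (x v) ∧ rE (x v) (x (v + (1, 0))) ∧ rN (x v) (x (v + (0, 1)))}

/-- the nearest-neighbour subshift -/
def nnSFT (A : Type) [Fintype A] [DecidableEq A] (ok : A → Prop) (rE rN : A → A → Prop)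
    (ne : (NNset ok rE rN).Nonempty) : SFT where
  A := A
  X := NNset ok rE rN
  shift_mem x hx v u := by
    have := hx (u + v)
    simpa only [add_right_comm u v] using this
  R0 := 1
  sft x hx v := by
    obtain ⟨y, hy, hyx⟩ := hx v
    have h0 := hyx 0 (zero_mem_box _)
    have h1 := hyx (1, 0) (by rw [mem_box]; simp)
    have h2 := hyx (0, 1) (by rw [mem_box]; simp)
    have := hy 0
    simp only [zero_add] at this h0
    rw [h0, h1, h2, add_comm _ v, add_comm _ v] at this
    exact this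
  ne := ne

/-- quantum configuration for nearest-neighbour rules: only orthogonality -/
structure QNN {A : Type} (ok : A → Prop) (rE rN : A → A → Prop) {C : Type} [COMP C]
    (e : V → A → C) : Prop where
  obs : ∀ v, Obs (e v)
  ok : ∀ v a, e v a ≠ ⊥ → ok a
  adjE : ∀ v a b, ¬ rE a b → e v a ≤ (e (v + (1, 0)) b)ᶜ
  adjN : ∀ v a b, ¬ rN a b → e v a ≤ (e (v + (0, 1)) b)ᶜ

theorem QNN.of_cells {A : Type} [Fintype A] [DecidableEq A] {ok : A → Prop} {rE rN : A → A → Prop}
    {ne : (NNset ok rE rN).Nonempty} {C : Type} [COMP C] {e : V → A → C}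
    (h : (nnSFT A ok rE rN ne).Cells C e) : QNN ok rE rN e where
  obs := h.obs
  ok v a ha := by
    by_contra hn
    exact ha (h.letter v fun y hy e' => hn (e' ▸ (hy 0).1))
  adjE v a b hab := h.pair v (u := (1, 0)) (by rw [mem_box]; simp [nnSFT]) (by simp)
    fun y hy h0 h1 => hab (by have := (hy 0).2.1; rwa [zero_add, h0, h1] at this)
  adjN v a b hab := h.pair v (u := (0, 1)) (by rw [mem_box]; simp [nnSFT]) (by simp)
    fun y hy h0 h1 => hab (by have := (hy 0).2.2; rwa [zero_add, h0, h1] at this)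

/-- a classical configuration is a quantum configuration in `Prop` -/
theorem QNN.of_mem {A : Type} {ok : A → Prop} {rE rN : A → A → Prop} {x : V → A}
    (hx : x ∈ NNset ok rE rN) : QNN ok rE rN (C := Prop) (fun v a => x v = a) where
  obs v := ⟨(Set.finite_singleton (x v)).subset fun a ha => by
      by_contra hn
      exact ha (eq_false fun e => hn e.symm),
    fun a b hab h1 h2 => hab (h1.symm.trans h2),
    fun z hz => eq_true (hz _ rfl)⟩
  ok v a ha := by
    by_contra hn
    exact ha (eq_false fun e => hn (e ▸ (hx v).1))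
  adjE v a b hab h1 h2 := hab (h1 ▸ h2 ▸ (hx v).2.1)
  adjN v a b hab h1 h2 := hab (h1 ▸ h2 ▸ (hx v).2.2)

end Crest.Agent.R189
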