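import Crest.Agent.R189.B2.Q4
import Crest.Agent.R189.B2.Cell
import Crest.Agent.R189.B2.NN

/-! Row 189, B2: rigidity of a subshift whose letters are tiles with coordinates (helper3). -/

set_option autoImplicit false

namespace Crest.Agent.R189.B2

open COMP

/-- congruent coordinates -/
def Cg (v : ℤ) (p q : V) : Prop := p.1 % (16 * v) = q.1 % (16 * v) ∧ p.2 % 2 = q.2 % 2

theorem Cg.symm {v : ℤ} {p q : V} (h : Cg v p q) : Cg v q p := ⟨h.1.symm, h.2.symm⟩
theorem Cg.trans {v : ℤ} {p q r : V} (h : Cg v p q) (h' : Cg v q r) : Cg v p r :=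
  ⟨h.1.trans h'.1, h.2.trans h'.2⟩
theorem Cg.add {v : ℤ} {p q : V} (h : Cg v p q) (u : V) : Cg v (p + u) (q + u) :=
  ⟨Int.ModEq.add_right u.1 h.1, Int.ModEq.add_right u.2 h.2⟩
theorem Cg.of_add {v : ℤ} {p q u : V} (h : Cg v (p + u) (q + u)) : Cg v p q := by
  simpa using h.add (-u)

theorem TagOK.congr {v : ℤ} (hv : 1 ≤ v) {p q : V} (h : Cg v p q) {τ : Tile} (hτ : TagOK v p τ) :
    TagOK v q τ := by
  have e : tagL v p.1 = tagL v q.1 := by
    simp only [tagL, h.1, f4_eq_iff.2 (mod16 hv h.1).2, usable_congr (mod16 hv h.1).1]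
  unfold TagOK at *
  rw [← h.1, ← h.2, ← e]
  exact hτ

section

variable {A : Type} {C : Type} [COMP C] {e : V → A → C} {v : ℤ} {til : A → Tile} {pos : A → V}

/-- the nearest-neighbour rules of tiles with coordinates -/
abbrev QT (v : ℤ) (til : A → Tile) (pos : A → V) (e : V → A → C) : Prop :=
  QNN (fun a => (til a).Valid ∧ TagOK v (pos a) (til a))
    (fun a b => (til a).E = (til b).W ∧ Cg v (pos b) (pos a + (1, 0)))
    (fun a b => (til a).N = (til b).S ∧ Cg v (pos b) (pos a + (0, 1))) e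

theorem QT.stepE (h : QT v til pos e) (p q : V) (P : Col → Prop) :
    evt (e p) (fun a => Cg v (pos a) q ∧ P (til a).E) =
      evt (e (p + (1, 0))) (fun a => Cg v (pos a) (q + (1, 0)) ∧ P (til a).W) :=
  le_antisymm
    ((h.obs p).force (h.obs _) (h.adjE p) le_rfl fun _ _ _ _ ha hab =>
      ⟨hab.2.trans (ha.1.add _), hab.1 ▸ ha.2⟩)
    ((h.obs p).force' (h.obs _) (h.adjE p) le_rfl fun _ _ _ _ hb hab =>
      ⟨(hab.2.symm.trans hb.1).of_add, hab.1 ▸ hb.2⟩)

theorem QT.stepN (h : QT v til pos e) (p q : V) (P : Col → Prop) :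
    evt (e p) (fun a => Cg v (pos a) q ∧ P (til a).N) =
      evt (e (p + (0, 1))) (fun a => Cg v (pos a) (q + (0, 1)) ∧ P (til a).S) :=
  le_antisymm
    ((h.obs p).force (h.obs _) (h.adjN p) le_rfl fun _ _ _ _ ha hab =>
      ⟨hab.2.trans (ha.1.add _), hab.1 ▸ ha.2⟩)
    ((h.obs p).force' (h.obs _) (h.adjN p) le_rfl fun _ _ _ _ hb hab =>
      ⟨(hab.2.symm.trans hb.1).of_add, hab.1 ▸ hb.2⟩)

theorem const_of_steps {β : Type*} (f : V → β) (h1 : ∀ p, f (p + (1, 0)) = f p)
    (h2 : ∀ p, f (p + (0, 1)) = f p) (p : V) : f p = f 0 := by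
  obtain ⟨x, y⟩ := p
  have a : ∀ x y : ℤ, f (x, y) = f (0, y) := fun x y => by
    induction x using Int.induction_on with
    | zero => rfl
    | succ i ih => rw [← ih, ← h1 ((i : ℤ), y)]; simp
    | pred i ih => rw [← ih, ← h1 (-(i : ℤ) - 1, y)]; simp
  rw [a]
  induction y using Int.induction_on with
  | zero => rfl
  | succ i ih => rw [← ih, ← h2 (0, (i : ℤ))]; simp
  | pred i ih => rw [← ih, ← h2 (0, -(i : ℤ) - 1)]; simp

theorem QT.phase (h : QT v til pos e) (c p : V) :
    evt (e p) (fun a => Cg v (pos a) (c + p)) = evt (e 0) (fun a => Cg v (pos a) c) := by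
  have := const_of_steps (fun p => evt (e p) (fun a => Cg v (pos a) (c + p))) (fun p => by
      have := h.stepE p (c + p) fun _ => True
      simp only [and_true] at this
      simp only [this, add_assoc]) (fun p => by
      have := h.stepN p (c + p) fun _ => True
      simp only [and_true] at this
      simp only [this, add_assoc]) p
  simpa using this

/-- the model below the phase `c` -/
noncomputable def QT.qm (h : QT v til pos e) (c : V) :
    QM C (evt (e 0) (fun a => Cg v (pos a) c)) where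
  ev q A := evt (e (q - c)) (fun a => Cg v (pos a) q ∧ A (til a))
  mono q _ _ hAB := (h.obs _).evt_mono' fun a h0 ha => ⟨ha.1, hAB _ (h.ok _ a h0).1 ha.2⟩
  top q := by rw [← h.phase c (q - c)]; simp
  bot q := (h.obs _).evt_eq_bot fun _ _ ha => ha.2
  cp q A B := (h.obs _).cp_evt_evt _ _
  inf q A B := by
    rw [(h.obs _).evt_inf]
    exact (h.obs _).evt_congr' fun a _ => by tauto
  compl q A := by
    rw [← h.phase c (q - c), (h.obs _).evt_compl, (h.obs _).evt_inf, add_sub_cancel]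
    exact (h.obs _).evt_congr' fun a _ => by tauto
  glueH q P := by
    rw [h.stepE (q - c) q P, show ((q.1 + 1, q.2) : V) = q + (1, 0) from by ext <;> simp,
      sub_add_eq_add_sub]
  glueV q P := by
    rw [h.stepN (q - c) q P, show ((q.1, q.2 + 1) : V) = q + (0, 1) from by ext <;> simp,
      sub_add_eq_add_sub]

theorem QT.canon (h : QT v til pos e) (hv : 1 ≤ v) (c : V) : (h.qm c).Canon v := fun q =>
  ((h.qm c).top q).ge.trans ((h.obs _).evt_mono' fun a h0 ha =>
    ⟨ha.1, (h.ok _ a h0).2.congr hv ha.1⟩)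

theorem QT.cp (h : QT v til pos e) (hv : 1 ≤ v)
    (inj : ∀ a b, til a = til b → Cg v (pos a) (pos b) → a = b) (p q : V) (a b : A) :
    Cp (e p a) (e q b) := by
  let κ : A → V := fun a => ((pos a).1 % (16 * v), (pos a).2 % 2)
  have hκ : ∀ c, omap κ (e 0) c ≠ ⊥ → omap κ (e 0) c = evt (e 0) (fun a => Cg v (pos a) c) := by
    intro c hc
    obtain ⟨a, -, rfl⟩ := (h.obs 0).omap_ne_bot hc
    exact (h.obs 0).evt_congr' fun b _ => by simp [κ, Cg]
  have dec : ∀ p a, Dec (e p a) (omap κ (e 0)) := fun p a c => by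
    by_cases hc : omap κ (e 0) c = ⊥
    · rw [hc]; exact cp_bot _
    · rw [hκ c hc, ← h.phase c p]
      exact cp_symm ((h.obs p).dec_evt _ a)
  have key : ∀ c p a, e p a ⊓ evt (e 0) (fun a => Cg v (pos a) c) =
      (h.qm c).ev (c + p) (fun τ => τ = til a ∧ Cg v (pos a) (c + p)) := fun c p a => by
    show _ = evt (e (c + p - c)) _
    rw [← h.phase c p, ← (h.obs p).evt_single a, (h.obs p).evt_inf, add_sub_cancel_left]
    refine (h.obs p).evt_congr' fun b _ => ⟨?_, ?_⟩
    · rintro ⟨rfl, hb⟩; exact ⟨hb, rfl, hb⟩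
    · rintro ⟨h1, h2, h3⟩; exact ⟨inj _ _ h2 (h1.trans h3.symm), h1⟩
  refine ((h.obs 0).map κ).cp_glue (dec p a) (dec q b) fun c hc => ?_
  rw [hκ c hc, key, key]
  exact qrigid hv (h.qm c) (h.canon hv c) _ _ _ _

end

/-- RIGIDITY of a subshift of tiles with coordinates -/
theorem rigid_of (X : SFT) (hR : 1 ≤ X.R0) {v : ℤ} (hv : 1 ≤ v) (til : X.A → Tile) (pos : X.A → V)
    (inj : ∀ a b, til a = til b → Cg v (pos a) (pos b) → a = b)
    (ok : ∀ y ∈ X.X, (til (y 0)).Valid ∧ TagOK v (pos (y 0)) (til (y 0)))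
    (rE : ∀ y ∈ X.X, (til (y 0)).E = (til (y (1, 0))).W ∧
      Cg v (pos (y (1, 0))) (pos (y 0) + (1, 0)))
    (rN : ∀ y ∈ X.X, (til (y 0)).N = (til (y (0, 1))).S ∧
      Cg v (pos (y (0, 1))) (pos (y 0) + (0, 1))) : X.Rigid := by
  intro C _ e he p q a b
  have h : QT v til pos e := by
    refine ⟨he.obs, fun p a ha => ?_, fun p a b hab => ?_, fun p a b hab => ?_⟩
    · by_contra hn
      exact ha (he.letter p fun y hy e' => hn (e' ▸ ok y hy))
    · refine he.pair p (box_mono hR (by rw [mem_box]; simp)) (by simp) fun y hy h0 h1 => hab ?_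
      rw [← h0, ← h1]; exact rE y hy
    · refine he.pair p (box_mono hR (by rw [mem_box]; simp)) (by simp) fun y hy h0 h1 => hab ?_
      rw [← h0, ← h1]; exact rN y hy
  exact h.cp hv inj p q a b

end Crest.Agent.R189.B2
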