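import Crest.Agent.R189.B2.Sft
import Crest.Agent.R189.B2.Rigid

/-! Row 189, B2: the subshift is rigid (helper3). -/

set_option autoImplicit false

namespace Crest.Agent.R189.B2

theorem zmod_val_emod_iff {m : ℕ} [NeZero m] (a : ZMod m) (k : ℤ) :
    (a.val : ℤ) % (m : ℤ) = k % (m : ℤ) ↔ a = (k : ZMod m) := by
  rw [← ZMod.intCast_eq_intCast_iff', Int.cast_natCast, ZMod.natCast_zmod_val]

theorem cg_iff {n : ℕ} [NeZero n] (a : Let n) (q : V) :
    Cg n ((a.2.1.val : ℤ), (a.2.2.val : ℤ)) q ↔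
      a.2.1 = (q.1 : ZMod (16 * n)) ∧ a.2.2 = (q.2 : ZMod 2) := by
  have h1 := zmod_val_emod_iff a.2.1 q.1
  have h2 := zmod_val_emod_iff a.2.2 q.2
  push_cast at h1 h2
  exact and_congr h1 h2

theorem rigid_XT {n : ℕ} {T : Tile → Prop} [NeZero n] {ne : ∃ x, Canon n x ∧ ∀ p, T (x p)} :
    (XT n T ne).Rigid := by
  refine rigid_of (XT n T ne) le_rfl (v := n) one_le (fun a : Let n => a.1)
    (fun a : Let n => ((a.2.1.val : ℤ), (a.2.2.val : ℤ))) ?_ ?_ ?_ ?_
  · intro (a : Let n) (b : Let n) h1 h2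
    have := (cg_iff a _).1 h2
    simp only [Int.cast_natCast, ZMod.natCast_zmod_val] at this
    exact Prod.ext h1 (Prod.ext this.1 this.2)
  · intro (y : V → Let n) hy
    exact (hy 0).1.2
  · intro (y : V → Let n) hy
    have h := (hy 0).2.1
    rw [zero_add] at h
    refine ⟨h.1, (cg_iff _ _).2 ⟨?_, ?_⟩⟩
    · simp [h.2.1]
    · simp [h.2.2]
  · intro (y : V → Let n) hy
    have h := (hy 0).2.2
    rw [zero_add] at h
    refine ⟨h.1, (cg_iff _ _).2 ⟨?_, ?_⟩⟩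
    · simp [h.2.1]
    · simp [h.2.2]

end Crest.Agent.R189.B2
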