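import Crest.Agent.R189.B2.Cn
import Crest.Agent.R189.B2.NN
import Crest.Agent.R189.B2.Abs

/-! Row 189, B2: the subshift, its absolute picture and its hierarchy (helper1). -/

set_option autoImplicit false

noncomputable section

namespace Crest.Agent.R189.B2

/-- letters: a tile and the position in the level-0 block -/
abbrev Let (n : ℕ) : Type := Tile × ZMod (16 * n) × ZMod 2

variable (n : ℕ) (T : Tile → Prop)

def lok (a : Let n) : Prop := T a.1 ∧ a.1.Valid ∧ TagOK n ((a.2.1.val : ℤ), (a.2.2.val : ℤ)) a.1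
def lE (a b : Let n) : Prop := a.1.E = b.1.W ∧ b.2.1 = a.2.1 + 1 ∧ b.2.2 = a.2.2
def lN (a b : Let n) : Prop := a.1.N = b.1.S ∧ b.2.1 = a.2.1 ∧ b.2.2 = a.2.2 + 1

instance [NeZero n] : NeZero (16 * n) := ⟨mul_ne_zero (by norm_num) (NeZero.ne n)⟩

/-- the point of the subshift given by a canonical configuration -/
def ofCanon (x : V → Tile) : V → Let n := fun p => (x p, (p.1 : ZMod (16 * n)), (p.2 : ZMod 2))

variable {n T}

theorem sft_tag_val [NeZero n] (p : V) (τ : Tile) :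
    TagOK n ((((p.1 : ZMod (16 * n)).val : ℕ) : ℤ), (((p.2 : ZMod 2).val : ℕ) : ℤ)) τ ↔ TagOK n p τ := by
  have hv : (1 : ℤ) ≤ n := by exact_mod_cast Nat.one_le_iff_ne_zero.2 (NeZero.ne n)
  have h1 : p.1 % (16 * n) % (16 * n) = p.1 % (16 * n) := Int.emod_emod_of_dvd _ dvd_rfl
  have h2 : p.2 % 2 % 2 = p.2 % 2 := by omega
  rw [ZMod.val_intCast, ZMod.val_intCast]
  push_cast
  simp only [TagOK, tagL, h1, h2, f4_eq_iff.2 (mod16 hv h1).2, usable_congr (mod16 hv h1).1]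

theorem ofCanon_mem [NeZero n] {x : V → Tile} (hx : Canon n x) (hT : ∀ p, T (x p)) :
    ofCanon n x ∈ NNset (lok n T) (lE n) (lN n) := by
  intro p
  refine ⟨⟨hT p, hx.valid p, ?_⟩, ⟨?_, ?_, ?_⟩, ?_, ?_, ?_⟩
  · exact (sft_tag_val p _).2 (hx.tag p)
  · exact (hx.glueH p).trans (by simp only [ofCanon]; congr 2; ext <;> simp)
  · simp [ofCanon]
  · simp [ofCanon]
  · exact (hx.glueV p).trans (by simp only [ofCanon]; congr 2; ext <;> simp)
  · simp [ofCanon]
  · simp [ofCanon]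

variable (n T)

/-- THE SUBSHIFT -/
def XT [NeZero n] (ne : ∃ x, Canon n x ∧ ∀ p, T (x p)) : SFT :=
  nnSFT (Let n) (lok n T) (lE n) (lN n) (ne.elim fun _ h => ⟨_, ofCanon_mem h.1 h.2⟩)

variable {n T} [NeZero n] {ne : ∃ x, Canon n x ∧ ∀ p, T (x p)}

theorem one_le : (1 : ℤ) ≤ n := by exact_mod_cast Nat.one_le_iff_ne_zero.2 (NeZero.ne n)

/-- the letters of a point -/
def lt (x : (XT n T ne).Pt) : V → Let n := x.1

/-- the tiles of a point -/
def tl (x : (XT n T ne).Pt) : V → Tile := fun p => (lt x p).1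

theorem lt_mem (x : (XT n T ne).Pt) : lt x ∈ NNset (lok n T) (lE n) (lN n) := x.2

theorem tl_vadd (d : V) (x : (XT n T ne).Pt) : tl (d +ᵥ x) = sh d (tl x) := rfl

theorem tl_T (x : (XT n T ne).Pt) (p : V) : T (tl x p) := (lt_mem x p).1.1

/-- the coordinates are affine -/
theorem lt_crd (x : (XT n T ne).Pt) (p : V) :
    (lt x p).2 = ((lt x 0).2.1 + (p.1 : ZMod (16 * n)), (lt x 0).2.2 + (p.2 : ZMod 2)) := by
  obtain ⟨a, b⟩ := p
  have hE : ∀ a b : ℤ, (lt x (a + 1, b)).2 = ((lt x (a, b)).2.1 + 1, (lt x (a, b)).2.2) := fun a b => by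
    have := (lt_mem x (a, b)).2.1
    rw [Prod.mk_add_mk, add_zero] at this
    exact Prod.ext this.2.1 this.2.2
  have hN : ∀ a b : ℤ, (lt x (a, b + 1)).2 = ((lt x (a, b)).2.1, (lt x (a, b)).2.2 + 1) := fun a b => by
    have := (lt_mem x (a, b)).2.2
    rw [Prod.mk_add_mk, add_zero] at this
    exact Prod.ext this.2.1 this.2.2
  have h0 : (lt x (0, b)).2 = ((lt x 0).2.1, (lt x 0).2.2 + (b : ZMod 2)) := by
    induction b using Int.induction_on with
    | zero => simp [← Prod.zero_eq_mk]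
    | succ i ih => rw [hN, ih]; simp [add_assoc]
    | pred i ih =>
      have := hN 0 (-(i : ℤ) - 1)
      rw [sub_add_cancel, ih, Prod.mk.injEq] at this
      refine Prod.ext this.1.symm ?_
      rw [eq_sub_iff_add_eq.2 this.2.symm]
      push_cast
      ring
  induction a using Int.induction_on with
  | zero => simpa using h0
  | succ i ih => rw [hE, ih]; simp [add_assoc]
  | pred i ih =>
    have := hE (-(i : ℤ) - 1) b
    rw [sub_add_cancel, ih, Prod.mk.injEq] at this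
    refine Prod.ext ?_ this.2.symm
    rw [eq_sub_iff_add_eq.2 this.1.symm]
    push_cast
    ring

theorem sft_lt_vadd (d : V) (x : (XT n T ne).Pt) (p : V) : lt (d +ᵥ x) p = lt x (p + d) := rfl

theorem sft_canon (x : (XT n T ne).Pt) (h : (lt x 0).2 = 0) : Canon n (tl x) := by
  refine ⟨fun p => (lt_mem x p).1.2.1, fun p => ?_, fun p => ?_, fun p => ?_⟩
  · exact (lt_mem x p).2.1.1.trans (by simp only [tl]; congr 3; ext <;> simp)
  · exact (lt_mem x p).2.2.1.trans (by simp only [tl]; congr 3; ext <;> simp)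
  · have := (lt_mem x p).1.2.2
    rw [lt_crd, h, Prod.fst_zero, Prod.snd_zero, zero_add, zero_add] at this
    exact (sft_tag_val p _).1 this

theorem sft_exists (x : (XT n T ne).Pt) : ∃ c, (lt x c).2 = 0 :=
  ⟨(-((lt x 0).2.1.val : ℤ), -((lt x 0).2.2.val : ℤ)), by rw [lt_crd]; simp [CharTwo.add_self_eq_zero]⟩

/-- the coordinates give the level-1 grid -/
theorem canon_tl_iff (x : (XT n T ne).Pt) : Canon n (tl x) ↔ (lt x 0).2 = 0 := by
  refine ⟨fun h => ?_, sft_canon x⟩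
  obtain ⟨c, hc⟩ := sft_exists x
  have h1 := h.dvd_of_agree one_le (tl_vadd c x ▸ sft_canon (c +ᵥ x) (by rwa [sft_lt_vadd, zero_add])) fun _ _ _ _ _ => rfl
  rwa [lt_crd, (ZMod.intCast_zmod_eq_zero_iff_dvd _ _).2 (by exact_mod_cast h1.1),
    (ZMod.intCast_zmod_eq_zero_iff_dvd _ _).2 (by exact_mod_cast h1.2), add_zero, add_zero] at hc

theorem cn_zero (x : (XT n T ne).Pt) : Cn 0 n (tl x) := by
  obtain ⟨c, hc⟩ := sft_exists x
  exact ⟨c, tl_vadd c x ▸ sft_canon (c +ᵥ x) (by rwa [sft_lt_vadd, zero_add])⟩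

/-- two points with the same level-1 grid and the same tile at `p` have the same letter at `p` -/
theorem lt_eq {x y : (XT n T ne).Pt} {c : V} (hx : Canon n (sh c (tl x))) (hy : Canon n (sh c (tl y))) {p : V}
    (h : tl x p = tl y p) : x.1 p = y.1 p := by
  refine Prod.ext h ?_
  have h1 := lt_crd (c +ᵥ x) (p - c)
  have h2 := lt_crd (c +ᵥ y) (p - c)
  rw [(canon_tl_iff (c +ᵥ x)).1 hx, sft_lt_vadd, sub_add_cancel] at h1
  rw [(canon_tl_iff (c +ᵥ y)).1 hy, sft_lt_vadd, sub_add_cancel] at h2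
  exact h1.trans h2.symm

/-- a level-`j` centre -/
def cen (j : ℕ) (x : (XT n T ne).Pt) : V := ((cn_zero x).exists one_le j).choose

theorem cn_cen (j : ℕ) (x : (XT n T ne).Pt) : Cn j n (sh (cen j x) (tl x)) := ((cn_zero x).exists one_le j).choose_spec

theorem cn_iff (j : ℕ) (x : (XT n T ne).Pt) (c : V) :
    Cn j n (sh c (tl x)) ↔ Wd j n ∣ c.1 - (cen j x).1 ∧ Hd j n ∣ c.2 - (cen j x).2 := by
  rw [← Prod.fst_sub, ← Prod.snd_sub, ← (cn_cen j x).sh_iff one_le, sh_sh, sub_add_cancel]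

/-- the position modulo any divisors of the level-`j` periods is locally constant and equivariant -/
def crd (j : ℕ) (a b : ℕ) (x : (XT n T ne).Pt) : ZMod a × ZMod b := ((-(cen j x).1 : ℤ), (-(cen j x).2 : ℤ))

theorem crd_eq {j a b : ℕ} (ha : (a : ℤ) ∣ Wd j n) (hb : (b : ℤ) ∣ Hd j n) {x : (XT n T ne).Pt} {c : V}
    (hc : Cn j n (sh c (tl x))) : crd j a b x = (((-c.1 : ℤ) : ZMod a), ((-c.2 : ℤ) : ZMod b)) := by
  obtain ⟨h1, h2⟩ := (cn_iff j x c).1 hc
  refine Prod.ext ?_ ?_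
  · exact (ZMod.intCast_eq_intCast_iff_dvd_sub _ _ _).2 (by
      rw [show -c.1 - -(cen j x).1 = -(c.1 - (cen j x).1) by ring]; exact dvd_neg.2 (ha.trans h1))
  · exact (ZMod.intCast_eq_intCast_iff_dvd_sub _ _ _).2 (by
      rw [show -c.2 - -(cen j x).2 = -(c.2 - (cen j x).2) by ring]; exact dvd_neg.2 (hb.trans h2))

theorem crd_vadd {j a b : ℕ} (ha : (a : ℤ) ∣ Wd j n) (hb : (b : ℤ) ∣ Hd j n) (d : V) (x : (XT n T ne).Pt) :
    crd j a b (d +ᵥ x) = ((d.1 : ZMod a), (d.2 : ZMod b)) + crd j a b x := by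
  rw [crd_eq ha hb (x := d +ᵥ x) (c := cen j x - d) (by rw [tl_vadd, sh_sh, sub_add_cancel]; exact cn_cen j x), crd]
  ext <;> simp only [Prod.fst_sub, Prod.snd_sub, Prod.fst_add, Prod.snd_add] <;> push_cast <;> ring

theorem crd_lc {j a b : ℕ} (ha : (a : ℤ) ∣ Wd j n) (hb : (b : ℤ) ∣ Hd j n) :
    IsLocallyConstant (crd (ne := ne) j a b) := by
  obtain ⟨r, hr⟩ := Cn.loc j (v := n) one_le
  rw [IsLocallyConstant.iff_eventually_eq]
  intro x
  obtain ⟨s, hs⟩ := exists_mem_box (cen j x)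
  refine SFT.mem_nhds_iff.2 ⟨r + s, fun y hy => ?_⟩
  have : Cn j n (sh (cen j x) (tl y)) := hr _ _ (cn_cen j x) ((cn_zero y).zero_sh _) fun p hp =>
    congrArg Prod.fst (hy _ (add_mem_box hp hs))
  exact crd_eq ha hb this

theorem crd_eq_zero {j a b : ℕ} (ha : (a : ℤ) ∣ Wd j n) (hb : (b : ℤ) ∣ Hd j n) (x : (XT n T ne).Pt) :
    crd j a b x = 0 ↔ ∃ c : V, (a : ℤ) ∣ c.1 ∧ (b : ℤ) ∣ c.2 ∧ Cn j n (sh c (tl x)) := by
  constructor
  · intro h
    exact ⟨cen j x, dvd_neg.1 ((ZMod.intCast_zmod_eq_zero_iff_dvd _ _).1 (congrArg Prod.fst h)),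
      dvd_neg.1 ((ZMod.intCast_zmod_eq_zero_iff_dvd _ _).1 (congrArg Prod.snd h)), cn_cen j x⟩
  · rintro ⟨c, h1, h2, hc⟩
    rw [crd_eq ha hb hc]
    exact Prod.ext ((ZMod.intCast_zmod_eq_zero_iff_dvd _ _).2 (dvd_neg.2 h1))
      ((ZMod.intCast_zmod_eq_zero_iff_dvd _ _).2 (dvd_neg.2 h2))

theorem toNat_W (j : ℕ) : (((Wd j n).toNat : ℕ) : ℤ) = Wd j n := Int.toNat_of_nonneg (Wd_pos _ one_le).le
theorem toNat_H (j : ℕ) : (((Hd j n).toNat : ℕ) : ℤ) = Hd j n := Int.toNat_of_nonneg (Hd_pos _ one_le).le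

theorem tl_W (x : (XT n T ne).Pt) (p : V) : (tl x p).W = (tl x (p + (-1, 0))).E := by
  have := (lt_mem x (p + (-1, 0))).2.1.1
  rw [show p + (-1, 0) + (1, 0) = p by ext <;> simp] at this
  exact this.symm

theorem tl_S (x : (XT n T ne).Pt) (p : V) : (tl x p).S = (tl x (p + (0, -1))).N := by
  have := (lt_mem x (p + (0, -1))).2.2.1
  rw [show p + (0, -1) + (0, 1) = p by ext <;> simp] at this
  exact this.symm

theorem cn_same {j : ℕ} {x y : (XT n T ne).Pt} (h1 : (((Wd j n).toNat : ℕ) : ℤ) ∣ (-cen j x).1 - (-cen j y).1)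
    (h2 : (((Hd j n).toNat : ℕ) : ℤ) ∣ (-cen j x).2 - (-cen j y).2) : Cn j n (sh (cen j x) (tl y)) := by
  rw [toNat_W, ← dvd_neg] at h1
  rw [toNat_H, ← dvd_neg] at h2
  exact (cn_iff j y _).2 ⟨(congrArg _ (by simp; ring)).mp h1, (congrArg _ (by simp; ring)).mp h2⟩

theorem tl_lc (p : V) : IsLocallyConstant fun x : (XT n T ne).Pt => tl x p :=
  SFT.isLocallyConstant_iff.2 ⟨(exists_mem_box p).choose, fun _ _ h =>
    congrArg (fun a : Let n => a.1) (h p (exists_mem_box p).choose_spec)⟩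

variable (ne) in
/-- the absolute picture -/
def absT : Abs (XT n T ne).Pt Col where
  w j := (Wd j n).toNat
  h j := (Hd j n).toNat
  le_w j := by have := (WH_ge j (one_le (n := n))).1; omega
  le_h j := by have := (WH_ge j (one_le (n := n))).2; omega
  w_dvd j := by rw [← Int.natCast_dvd_natCast, toNat_W, toNat_W]; exact (twS.dvd j n).1
  h_dvd j := by rw [← Int.natCast_dvd_natCast, toNat_H, toNat_H]; exact (twS.dvd j n).2
  pos j x := -cen j x
  pos_vadd j v x := by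
    have h := cn_cen j (v +ᵥ x)
    rw [tl_vadd, sh_sh, cn_iff] at h
    rw [toNat_W, toNat_H]
    exact ⟨dvd_neg.1 ((congrArg _ (by simp; ring)).mp h.1), dvd_neg.1 ((congrArg _ (by simp; ring)).mp h.2)⟩
  pos_succ j x := by
    have h := (cn_iff j x _).1 (cn_cen (j + 1) x).pred
    rw [toNat_W, toNat_H]
    exact ⟨dvd_neg.1 ((congrArg _ (by simp; ring)).mp h.1), dvd_neg.1 ((congrArg _ (by simp; ring)).mp h.2)⟩
  E x := (tl x 0).E
  N x := (tl x 0).N
  E_lc := (tl_lc 0).comp Tile.E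
  N_lc := (tl_lc 0).comp Tile.N
  ownE j x y h1 h2 h := by
    have := ((cn_cen (j + 1) x).own one_le (cn_same h1 h2) (-cen (j + 1) x)).1 fun h' => h (by
      have e := dvd_add h' ((cn_iff j x _).1 (cn_cen (j + 1) x).pred).2
      rw [toNat_H]
      exact (congrArg _ (by simp; ring)).mp e)
    simpa using this
  ownN j x y h1 h2 h := by
    have := ((cn_cen (j + 1) x).own one_le (cn_same h1 h2) (-cen (j + 1) x)).2 fun h' => h (by
      have e := dvd_add h' ((cn_iff j x _).1 (cn_cen (j + 1) x).pred).1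
      rw [toNat_W]
      exact (congrArg _ (by simp; ring)).mp e)
    simpa using this
  conE j x h1 h2 := by
    rw [toNat_H] at h1
    rw [toNat_W] at h2
    have := ((cn_cen j x).con one_le (-cen j x)).1 h1 h2
    rwa [sh_apply, neg_add_cancel, tl_W] at this
  conN j x h1 h2 := by
    rw [toNat_W] at h1
    rw [toNat_H] at h2
    have := ((cn_cen j x).con one_le (-cen j x)).2 h1 h2
    rwa [sh_apply, neg_add_cancel, tl_S] at this
  det f hf := by
    obtain ⟨r, hr⟩ := SFT.isLocallyConstant_iff.1 hf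
    refine ⟨r + 1, fun x y h1 h2 h => hr x y fun u hu => lt_eq (cn_cen 1 x).1 (cn_same h1 h2).1 ?_⟩
    have e : ∀ d ∈ box (r + 1), (tl x d).E = (tl y d).E ∧ (tl x d).N = (tl y d).N := fun d hd => by
      simpa only [tl_vadd, sh_apply, zero_add] using h d hd
    have hu' := box_mono (Nat.le_succ r) hu
    ext
    · rw [tl_W, tl_W, (e _ (add_mem_box hu (by rw [mem_box]; simp))).1]
    · exact (e u hu').1
    · rw [tl_S, tl_S, (e _ (add_mem_box hu (by rw [mem_box]; simp))).2]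
    · exact (e u hu').2

theorem q_cast (t : ℕ) : (((Wd t n).toNat : ℕ) : ℤ) = Wd t n := Int.toNat_of_nonneg (Wd_pos _ one_le).le

theorem q_dvdW (t : ℕ) : (((Wd (2 * t) n).toNat : ℕ) : ℤ) ∣ Wd (2 * t) n := (q_cast _).dvd
theorem q_dvdH (t : ℕ) : (((Wd (2 * t) n).toNat : ℕ) : ℤ) ∣ Hd (2 * t) n := by
  rw [q_cast, Hd_even]; exact Dvd.intro_left _ rfl

variable (ne) in
/-- the hierarchy of squares -/
def HT : Hier (XT n T ne).Pt where
  q t := (Wd (2 * t) n).toNat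
  a t := 32 * (n * 4 ^ t)
  q_pos t := by have := Wd_pos (2 * t) (one_le (n := n)); omega
  q_succ t := by
    apply Nat.cast_injective (R := ℤ)
    rw [q_cast, Wd_two]; push_cast; rw [q_cast]
  a_ge t := by
    have h1 := Nat.pos_of_ne_zero (NeZero.ne n)
    have h2 : 0 < n * 4 ^ t := by positivity
    omega
  a_tend := by
    refine Filter.tendsto_atTop_mono (fun t => ?_) Filter.tendsto_id
    have h1 := Nat.pos_of_ne_zero (NeZero.ne n)
    have h2 : t < 4 ^ t := Nat.lt_pow_self (by norm_num)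
    show t ≤ _
    nlinarith
  ph t := crd (2 * t) _ _
  ph_lc t := crd_lc (q_dvdW t) (q_dvdH t)
  ph_vadd t := crd_vadd (q_dvdW t) (q_dvdH t)
  ph_succ t x h := by
    obtain ⟨c, h1, h2, hc⟩ := (crd_eq_zero (q_dvdW _) (q_dvdH _) x).1 h
    have d : (((Wd (2 * t) n).toNat : ℕ) : ℤ) ∣ (((Wd (2 * (t + 1)) n).toNat : ℕ) : ℤ) := by
      rw [q_cast, q_cast, Wd_two]; exact Dvd.intro_left _ rfl
    exact (crd_eq_zero (q_dvdW _) (q_dvdH _) x).2 ⟨c, d.trans h1, d.trans h2, hc.le (by omega)⟩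

theorem HT_q (t : ℕ) : (((HT ne).q t : ℕ) : ℤ) = Wd (2 * t) n := Int.toNat_of_nonneg (Wd_pos _ one_le).le

theorem HT_ph_eq_zero (t : ℕ) (x : (XT n T ne).Pt) : (HT ne).ph t x = 0 ↔
    ∃ c : V, Wd (2 * t) n ∣ c.1 ∧ Wd (2 * t) n ∣ c.2 ∧ Cn (2 * t) n (sh c (tl x)) := by
  have := crd_eq_zero (q_dvdW t) (q_dvdH t) x
  rw [q_cast] at this
  exact this

/-- the hypothesis of `Abs.count` -/
theorem HT_cen (t0 j0 : ℕ) : ∃ t, t0 ≤ t ∧ ∃ j, j0 ≤ j ∧ (absT ne).w j ∣ (HT ne).q t ∧ (absT ne).h j ∣ (HT ne).q t ∧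
    ∀ x, (HT ne).ph t x = 0 → (absT ne).Cen j x := by
  have h1 : Wd (2 * (t0 + j0)) n ∣ Wd (2 * (t0 + j0 + 1)) n := (twS.dvd_le (by omega) n).1
  have h2 : Hd (2 * (t0 + j0)) n ∣ Wd (2 * (t0 + j0 + 1)) n := by
    rw [Hd_even, Wd_two, show (4 : ℤ) = 2 * 2 by norm_num, mul_pow]
    exact ⟨32 * (n * 2 ^ (t0 + j0)), by ring⟩
  refine ⟨t0 + j0 + 1, by omega, 2 * (t0 + j0), by omega, ?_, ?_, fun x hx => ?_⟩
  · rw [← Int.natCast_dvd_natCast, HT_q]
    exact (toNat_W (n := n) _).dvd.trans h1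
  · rw [← Int.natCast_dvd_natCast, HT_q]
    exact (toNat_H (n := n) _).dvd.trans h2
  · obtain ⟨c, c1, c2, hc⟩ := (HT_ph_eq_zero _ x).1 hx
    have h := (cn_iff _ x c).1 (hc.le (i := 2 * (t0 + j0)) (by omega))
    have e1 := dvd_sub h.1 (h1.trans c1)
    have e2 := dvd_sub h.2 (h2.trans c2)
    rw [sub_sub_cancel_left] at e1 e2
    exact ⟨(toNat_W (n := n) _).dvd.trans e1, (toNat_H (n := n) _).dvd.trans e2⟩

end Crest.Agent.R189.B2
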