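import Crest.Agent.R189.B2.Zone
import Crest.Agent.R189.B2.Sft

/-! Row 189, block B2: ZONE for the subshift `XT` (helper40). -/

set_option autoImplicit false

namespace Crest.Agent.R189.B2

namespace Z

variable {v : ℤ}

theorem sz_outer (t : ℕ) (v : ℤ) : sz v (t + 1) =
    if t % 2 = 0 then (2 * (sz (2 * v) t).1, 16 * v * (sz (2 * v) t).2)
    else (16 * v * (sz (2 * v) t).1, 2 * (sz (2 * v) t).2) := by
  induction t with
  | zero => simp [sz]
  | succ t ih =>
    rw [sz, ih]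
    rcases Nat.mod_two_eq_zero_or_one t with h | h
    · rw [if_pos h, if_neg (by omega)]; simp only [sz]; exact Prod.ext (by simp only; ring) (by simp only; ring)
    · rw [if_neg (by omega), if_pos (by omega)]; simp only [sz]
      exact Prod.ext (by ring) (by simp only; ring)

theorem wd_hd (t : ℕ) (v : ℤ) : (Wd t v, Hd t v) = tp (dir t) (sz v t) := by
  induction t generalizing v with
  | zero => simp [sz, dir]
  | succ t ih =>
    have h1 := congrArg Prod.fst (ih (2 * v))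
    have h2 := congrArg Prod.snd (ih (2 * v))
    simp only at h1 h2
    rw [Wd_succ, Hd_succ, h1, h2, sz_outer, dir_succ]
    rcases Nat.mod_two_eq_zero_or_one t with h | h <;> simp [dir, h, tp, xy]

theorem wd_two_mul (s : ℕ) (v : ℤ) : Wd (2 * s) v = (sz v (2 * s)).1 := by
  have := congrArg Prod.fst (wd_hd (2 * s) v)
  rwa [dir_two_mul] at this

/-- iterated deflation -/
def dn (v : ℤ) (x : V → Tile) : ℕ → V → Tile
  | 0 => x
  | t + 1 => defl (v * 2 ^ t) 0 (dn v x t)

theorem cn_dn {x : V → Tile} (t k : ℕ) (h : Cn (t + k) v x) : Cn k (v * 2 ^ t) (dn v x t) := by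
  induction t generalizing k with
  | zero => simpa [dn] using h
  | succ t ih =>
    have := ih (k + 1) (by rwa [show t + (k + 1) = t + 1 + k by ring])
    rw [lev_succ]; exact this.2

theorem tow_of_cn (hv : 1 ≤ v) {x : V → Tile} {N j : ℕ} (hN : N + 1 ≤ j) (h : Cn j v x) :
    Tow v N (dn v x) := by
  constructor
  · intro t ht
    obtain ⟨k, rfl⟩ : ∃ k, j = t + (k + 1) := ⟨j - t - 1, by omega⟩
    exact (cn_dn t _ h).1
  · intro t ht
    obtain ⟨k, rfl⟩ : ∃ k, j = t + (k + 2) := ⟨j - t - 2, by omega⟩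
    exact Cn.rel (lev_pos hv t) (cn_dn t _ h)

variable {n : ℕ} {T : Tile → Prop} [NeZero n] {ne : ∃ x, Canon n x ∧ ∀ p, T (x p)}

theorem tied_XT : Tied (XT n T ne) (HT ne) n := by
  refine ⟨fun s => by rw [HT_q, wd_two_mul], fun a : Let n => a.1,
    fun τ i j => ((τ, (i : ZMod (16 * n)), (j : ZMod 2)) : Let n), fun N => ⟨N + 1, by omega, fun y => ?_⟩⟩
  have hc := cn_cen (2 * (N + 1)) y
  refine ⟨-cen (2 * (N + 1)) y, dn n (sh (cen (2 * (N + 1)) y) (tl y)), tow_of_cn one_le (by omega) hc, rfl,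
    fun u => ?_⟩
  generalize cen (2 * (N + 1)) y = c at hc
  have e : dn n (sh c (tl y)) 0 (-c + u) = tl y u := by simp [dn, sh]
  refine ⟨e.symm, ?_⟩
  rw [e]
  have h1 : Canon n (tl (c +ᵥ y)) := by
    rw [tl_vadd]
    rw [show 2 * (N + 1) = (2 * N + 1) + 1 by ring] at hc
    exact hc.1
  have h2 := lt_crd (c +ᵥ y) (-c + u)
  rw [(canon_tl_iff _).1 h1] at h2
  have h3 : lt (c +ᵥ y) (-c + u) = lt y u := by
    show y.1 (-c + u + c) = y.1 u
    rw [neg_add_cancel_comm]
  rw [h3] at h2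
  have h4 : (((-c + u).1 % (16 * (n : ℤ)) : ℤ) : ZMod (16 * n)) = ((-c + u).1 : ℤ) := by
    have := ZMod.intCast_mod (-c + u).1 (16 * n)
    push_cast at this ⊢
    exact this
  have h5 : (((-c + u).2 % 2 : ℤ) : ZMod 2) = ((-c + u).2 : ℤ) := ZMod.intCast_mod _ 2
  show lt y u = ((lt y u).1, _, _)
  rw [h4, h5]
  exact Prod.ext rfl (by simpa using h2)

end Z

theorem zone_XT {n : ℕ} {T : Tile → Prop} [NeZero n] (ne : ∃ x, Canon n x ∧ ∀ p, T (x p)) (b : Bool) :
    SFT.Zone (HT ne) b := Z.zone_of_tied one_le Z.tied_XT b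

end Crest.Agent.R189.B2
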