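import Crest.Agent.R189.Iface
import Crest.Agent.R189.B2.Min
import Crest.Agent.R189.B2.Count
import Crest.Agent.R189.B2.RigidX
import Crest.Agent.R189.B2.MinX
import Crest.Agent.R189.B2.ZoneX

/-! Row 189, B2: the subshift is good. -/

set_option autoImplicit false

namespace Crest.Agent.R189

open B2

theorem s_B2 : S_B2 := by
  obtain ⟨j, T, ne, hmin⟩ := exists_min
  haveI : NeZero (4 ^ j) := ⟨by positivity⟩
  have e : ((4 ^ j : ℕ) : ℤ) = 4 ^ j := by push_cast; rfl
  rw [← e] at ne hmin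
  exact ⟨XT (4 ^ j) T ne, ⟨⟨HT ne, rigid_XT, minimal_XT hmin, (absT ne).count _ HT_cen, zone_XT ne⟩⟩⟩

end Crest.Agent.R189
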