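import Crest.Agent.R189.B2.Q1b

/-! Row 189, B2: Q1, the position events (helper8) (see notes189/h8.md) -/

set_option autoImplicit false

namespace Crest.Agent.R189.B2

open COMP A8

variable {C : Type} [COMP C] {z : C} {v : ℤ}

theorem part_le {ι : Type} {S : ι → Prop} {a b : ι → C} (hab : ∀ i, S i → a i ≤ b i)
    (hb : ∀ i j, S i → S j → i ≠ j → b j ≤ (b i)ᶜ) (ha : ∀ u, (∀ i, S i → a i ≤ u) → z ≤ u) {i : ι} (hi : S i)
    (hz : b i ≤ z) : b i ≤ a i := by
  have c1 : Cp (b i)ᶜ (a i) := cp_compl_l (cp_of_ge (hab i hi))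
  have h1 : z ≤ (b i)ᶜ ⊔ a i := ha _ fun j hj => by
    by_cases e : i = j
    · exact e ▸ le_sup_r c1
    · exact ((hab j hj).trans (hb i j hi hj e)).trans (le_sup_l c1)
  have c2 : Cp (b i) (a i) := cp_of_ge (hab i hi)
  refine le_of_inf_compl_eq_bot c2 (eq_bot_of_le_compl ((inf_le_l (cp_compl c2)).trans (hz.trans h1)) ?_)
  rw [compl_sup', compl_compl']

variable {m : QM C z} (hv : 1 ≤ v) (hc : m.Canon v)
include hv

theorem M_congr (c y : ℤ) {Y Y' : ℤ} (h : 32 * v ∣ Y - Y') (π : Bool) : m.M v c y Y π = m.M v c y Y' π := by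
  unfold QM.M; rw [mk_congr h, f4_congr hv h]

theorem dvd_mod (Y : ℤ) : 32 * v ∣ Y - Y % (32 * v) := Int.dvd_self_sub_emod

theorem eq_of_dvd {Y Y' : ℤ} (h0 : 0 ≤ Y) (h1 : Y < 32 * v) (h0' : 0 ≤ Y') (h1' : Y' < 32 * v) (h : 32 * v ∣ Y - Y') :
    Y = Y' := by
  have := Int.eq_zero_of_abs_lt_dvd h (abs_lt.2 ⟨by omega, by omega⟩)
  omega

include hc

/-- an inequality along a bijection of two partitions is an equality -/
theorem M_rev {c y c' y' k : ℤ} {f : Bool → Bool} (hf : Function.Injective f)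
    (h : ∀ Y π, m.M v c y Y π ≤ m.M v c' y' (Y + k) (f π)) (Y : ℤ) (π : Bool) :
    m.M v c y Y π = m.M v c' y' (Y + k) (f π) := by
  refine le_antisymm (h Y π) ?_
  have d := dvd_mod hv Y
  rw [M_congr hv c y d, M_congr hv c' y' (Y' := Y % (32 * v) + k) (by rwa [add_sub_add_right_eq_sub])]
  refine part_le (z := z) (S := fun i : ℤ × Bool => 0 ≤ i.1 ∧ i.1 < 32 * v) (a := fun i => m.M v c y i.1 i.2)
    (b := fun i => m.M v c' y' (i.1 + k) (f i.2)) (fun i _ => h _ _) (fun i j hi hj e => M_orth hv hc fun a => e ?_)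
    (fun u hu => M_cover hv hc fun Y π a b => hu (Y, π) ⟨a, b⟩) (i := (Y % (32 * v), π))
    ⟨Int.emod_nonneg _ (by omega), Int.emod_lt_of_pos _ (by omega)⟩ (m.le_z _ _)
  rw [add_sub_add_right_eq_sub] at a
  exact Prod.ext (eq_of_dvd hv hj.1 hj.2 hi.1 hi.2 a.1).symm (hf a.2).symm

theorem M_up_eq (c y Y : ℤ) (π : Bool) : m.M v c y Y π = m.M v c (y + 1) (Y + 1) π :=
  M_rev hv hc (f := id) Function.injective_id (fun Y π => M_up hv hc c y Y π) Y π

theorem M_vert (c y Y : ℤ) (π : Bool) (k : ℤ) : m.M v c y Y π = m.M v c (y + k) (Y + k) π := by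
  induction k using Int.induction_on with
  | zero => simp
  | succ n ih => rw [ih, M_up_eq hv hc, add_assoc, add_assoc]
  | pred n ih => rw [ih, M_up_eq hv hc c (y + (-n - 1))]; congr 1 <;> ring

theorem M_left (c y Y : ℤ) (π : Bool) : m.M v (c + 1) y Y π = m.M v c y Y !π := by
  have := M_rev hv hc (c := c + 1) (y := y) (c' := c) (y' := y) (k := 0) (f := not)
    (fun a b h => by simpa using h) (fun Y π => ?_) Y π
  · rwa [add_zero] at this
  · rw [add_zero, M_vert hv hc (c + 1) y Y π (-(Y % (8 * v))), M_vert hv hc c y Y _ (-(Y % (8 * v)))]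
    refine M_left0 hv hc _ _ ?_ _
    rw [← sub_eq_add_neg]
    exact Int.emod_eq_zero_of_dvd Int.dvd_self_sub_emod

theorem M_all (o : V) (c y : ℤ) :
    m.M v 0 0 o.1 (decide (o.2 % 2 = 1)) = m.M v c y (o.1 + y) (decide ((o.2 + c) % 2 = 1)) := by
  rw [M_vert hv hc 0 0 o.1 _ y, zero_add]
  have e : ∀ n : ℤ, decide ((o.2 + n) % 2 = 1) = !decide ((o.2 + (n + 1)) % 2 = 1) := fun n => by
    by_cases h : (o.2 + n) % 2 = 1
    · rw [decide_eq_true h, decide_eq_false (by omega)]; rfl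
    · rw [decide_eq_false h, decide_eq_true (by omega)]; rfl
  induction c using Int.induction_on with
  | zero => simp
  | succ n ih => rw [ih, M_left hv hc, e]
  | pred n ih =>
    rw [ih, e (-n - 1), ← M_left hv hc, sub_add_cancel]

/-- the signals of the own row -/
theorem M_N {c y Y X : ℤ} {π : Bool} (h0 : 0 < X) (h1 : X < 16 * v) :
    m.M v c y Y π ≤ m.R v c y X fun τ => τ.N.up = if X = mk v Y then
      some ⟨f4 (Y / (8 * v)), π, decide ((Y + 1) % (32 * v) = 0)⟩ else none := by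
  have b := mk_bounds hv Y
  split_ifs with e
  · subst e
    have a0 : m.M v c y Y π ≤ m.R v c (y + 1) (mk v Y) fun τ =>
        τ.S.up ≠ none ∧ ∃ nw, τ.S.up = some ⟨f4 (Y / (8 * v)), π, nw⟩ := by
      unfold QM.M
      rw [R_up hv hc (X := mk v Y) h0 h1 fun u => ∃ nw, u = some ⟨f4 (Y / (8 * v)), π, nw⟩]
      exact m.mono _ fun τ _ ⟨nw, q⟩ => ⟨by simp [q], nw, q⟩
    rw [R_up hv hc h0 h1 fun u => u = some ⟨f4 (Y / (8 * v)), π, decide ((Y + 1) % (32 * v) = 0)⟩]
    have m32 := mod32_iff hv (Y + 1)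
    by_cases hY : (Y + 1) % (8 * v) = 0
    · have e1 := (mk_wrap hv hY).1
      have sc := succ_cases hv Y
      have bd := mod8_bounds hv Y
      have e3 : (Y + 1) / (8 * v) = Y / (8 * v) + 1 := by omega
      rw [e3, f4_succ] at m32
      rw [e1] at a0 ⊢
      refine m.weaken (inn_last hv hc a0) fun τ _ ⟨⟨_, c', q2, q3⟩, nw, q4⟩ => ?_
      rw [q2] at q4 ⊢
      simp only [Option.some.injEq, Up.mk.injEq] at q4 ⊢
      refine ⟨q4.1, q4.2.1, ?_⟩
      rw [← q3, q4.1]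
      simp [m32, hY]
    · refine m.weaken (inn_mid hv hc hY a0) fun τ _ ⟨⟨_, q2⟩, nw, q4⟩ => ?_
      rw [q2] at q4 ⊢
      simp only [Option.some.injEq, Up.mk.injEq] at q4 ⊢
      exact ⟨q4.1, q4.2.1, by simp [m32, hY]⟩
  · exact m.weaken (m.le_not (m.le_z _ _) ((M_le_Out _ _ _ _).trans
      (out_orth hv hc (by omega) (by omega) h0 h1 (Ne.symm e)))) fun τ _ q => not_not.1 q

/-- the scan states of the own row -/
theorem M_st {c y Y X : ℤ} {π : Bool} (h0 : 0 ≤ X) (h1 : X < 16 * v) :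
    m.M v c y Y π ≤ m.R v c y X fun τ => τ.E.st = stOf v X Y := by
  have b := mk_bounds hv Y
  have b' := mk_bounds hv (Y - 1)
  have hS : ∀ Z, 0 < Z → Z < 16 * v → m.M v c y Y π ≤ m.R v c y Z fun τ => (τ.S.up = none ↔ Z ≠ mk v (Y - 1)) := by
    intro Z z0 z1
    have := M_N hv hc (c := c) (y := y + -1) (Y := Y + -1) (π := π) z0 z1
    rw [← M_vert hv hc, R_up hv hc z0 z1 fun u => u = if Z = mk v (Y + -1) then
      some ⟨f4 ((Y + -1) / (8 * v)), π, decide ((Y + -1 + 1) % (32 * v) = 0)⟩ else none, neg_add_cancel_right,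
      ← sub_eq_add_neg] at this
    refine m.weaken this fun τ _ q => ?_
    rw [q]; split_ifs with e <;> simp [e]
  have hk : m.M v c y Y π ≤ m.R v c y (mk v Y) fun τ => τ.W.st = .S1 (usable (2 * v) Y) ∧ τ.E.st = .A :=
    R_pc hv hc (by omega) (by omega) (M_le_Out _ _ _ _) fun τ p q => by
      rw [← good_mk hv]; exact ⟨(p.mark q).2.1, (p.mark q).2.2.1⟩
  have hA : ∀ Z, mk v Y ≤ Z → Z < 16 * v → (∀ X, mk v Y < X → X ≤ Z → X ≠ mk v (Y - 1)) →
      m.M v c y Y π ≤ m.R v c y Z fun τ => τ.E.st = .A := fun Z z0 z1 hz =>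
    right_ind (fun E => E.st = .A) z0 (fun X x0 x1 h =>
      R_pc hv hc (by omega) (by omega) (m.le_and h (hS X (by omega) (by omega))) fun τ p q => by
        have q2 := q.2.2 (hz X x0 x1)
        cases hg : usable v X
        · exact (p.tp hg).1.symm.trans q.1
        · rcases p.us hg with ⟨_, a, _⟩ | ⟨γ, a, _⟩ | ⟨_, _, a, _⟩ | ⟨_, a, _⟩ | ⟨_, _, _, a, _⟩
          · simp [a] at q
          · simp [a] at q
          · exact a
          · exact a
          · simp [a] at q2) (m.weaken hk fun τ _ q => q.2)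
  have hS1 : ∀ Z, 0 ≤ Z → Z < mk v Y → (∀ X, Z < X → X < mk v Y → usable v X = false) →
      m.M v c y Y π ≤ m.R v c y Z fun τ => τ.E.st = .S1 (usable (2 * v) Y) := fun Z z0 z1 hz =>
    tp_left hv hc (fun st _ _ => st = .S1 (usable (2 * v) Y)) (b := mk v Y - 1) z0 (by omega) (by omega)
      (fun X x0 x1 => hz X x0 (by omega))
      (toE (fun E => E.st = .S1 (usable (2 * v) Y)) (sub_add_cancel _ 1) (m.weaken hk fun τ _ q => q.1))
  unfold stOf
  by_cases hY : Y % (8 * v) = 0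
  · obtain ⟨e1, e2⟩ := mk_wrap hv (Y := Y - 1) (by rwa [sub_add_cancel])
    rw [sub_add_cancel] at e2
    have e3 : usable (2 * v) Y = false := by rw [← Bool.not_eq_true, usable2_iff]; omega
    rw [if_pos hY]
    split_ifs with c1 c2
    · rw [← e3]
      exact hS1 X h0 (by omega) fun Z z0 z1 => tp_lo hv (by omega) (by omega)
    · exact hA X (by omega) h1 fun Z z0 z1 => by omega
    · have a1 := inn_last hv hc (A := fun _ => True) (m.weaken (hS (15 * v - 1) (by omega) (by omega))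
        fun τ _ q => ⟨fun e => q.1 e e1.symm, trivial⟩)
      exact tp_right hv hc (fun st _ _ => st = .S2) (a := 15 * v - 1) (by omega) (by omega) h1
        (fun Z z0 z1 => tp_hi hv z0 (by omega)) (m.weaken a1 fun τ _ q => q.1.1)
  · have hY' : (Y - 1 + 1) % (8 * v) ≠ 0 := by rwa [sub_add_cancel]
    have lt := mk_lt hv hY'
    have gp := fun Z => gap hv (X := Z) hY'
    rw [sub_add_cancel] at lt gp
    rw [if_neg hY]
    split_ifs with c1 c2
    · have a1 := hS1 (mk v (Y - 1)) (by omega) lt gp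
      have a2 : _ ≤ m.R v c y (mk v (Y - 1)) fun τ => τ.W.st = .B (usable (2 * v) Y) :=
        R_pc hv hc (by omega) (by omega) a1 fun τ p q => by
          rcases p.us (usable_mk hv _) with ⟨_, _, a, _⟩ | ⟨γ, a, a', _⟩ | ⟨_, _, a, _⟩ | ⟨_, a, _⟩ | ⟨_, _, a, _⟩
          · simp [a] at q
          · rw [a'] at q; cases q; exact a
          all_goals simp [a] at q
      refine left_ind (b := mk v (Y - 1) - 1) (fun E => E.st = .B (usable (2 * v) Y)) (by omega) (fun Z z0 z1 h =>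
        R_pc hv hc (by omega) (by omega) h fun τ p q => ?_)
        (toE (fun E => E.st = .B (usable (2 * v) Y)) (sub_add_cancel _ 1) a2)
      cases hg : usable v Z
      · exact (p.tp hg).1.trans q
      · rcases p.us hg with ⟨_, a, a', _⟩ | ⟨γ, _, a, _⟩ | ⟨_, _, a, _⟩ | ⟨_, a, _⟩ | ⟨_, _, a, _⟩
        · rw [a'] at q; cases q; exact a
        all_goals simp [a] at q
    · exact hS1 X h0 c2 fun Z z0 z1 => gp Z (by omega) z1
    · exact hA X (by omega) h1 fun Z z0 z1 => by omega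

theorem M_E {c y X : ℤ} {P : V} (h0 : 0 ≤ X) (h1 : X < 16 * v) :
    m.M v c y P.1 (decide (P.2 % 2 = 1)) ≤ m.R v c y X fun τ => τ.E = ownH v (16 * v * c + X) P := by
  have b := mk_bounds hv P.1
  have a0 : m.M v c y P.1 (decide (P.2 % 2 = 1)) ≤ m.R v c y (mk v P.1) fun τ =>
      τ.E.c = f4 (P.1 / (8 * v)) ∧ τ.E.par = decide (P.2 % 2 = 1) :=
    R_pc hv hc (by omega) (by omega) le_rfl fun τ p ⟨nw, q⟩ => by
      obtain ⟨-, -, -, -, nw', q2⟩ := p.mark (by simp [q])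
      rw [q2] at q
      simp only [Option.some.injEq, Up.mk.injEq] at q
      exact ⟨q.1, q.2.1⟩
  have a1 := m.le_and (cp_row hv hc (fun c' p' => c' = f4 (P.1 / (8 * v)) ∧ p' = decide (P.2 % 2 = 1)) (by omega)
    (by omega) h0 h1 a0) (M_st hv hc h0 h1)
  unfold ownH
  rw [blk_mod hv h0 h1, usable_blk, f4_blk hv]
  rcases h0.eq_or_lt with rfl | h0
  · refine R_vw hv hc a1 fun τ p ⟨⟨q1, q2⟩, q3⟩ => ?_
    rw [p.E, q1, q2, q3, tp_lo hv le_rfl (by omega), Int.zero_ediv]; rfl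
  · refine R_pc hv hc h0 h1 a1 fun τ p ⟨⟨q1, q2⟩, q3⟩ => ?_
    rw [p.E, q1, q2, q3, decide_eq_false (by omega : ¬ X = 0)]

omit hv hc in
theorem q1 {C : Type} [COMP C] {z : C} (m : QM C z) {v : ℤ} (hv : 1 ≤ v) (hc : m.Canon v) :
    ∃ P : V → C, m.Part v P := by
  refine ⟨fun o => m.M v 0 0 o.1 (decide (o.2 % 2 = 1)), fun o => m.le_z _ _, fun o o' ho ho' e => M_orth hv hc fun a => e ?_,
    fun u hu => M_cover hv hc (c := 0) (y := 0) fun Y π a b => ?_, fun o _ p => ?_⟩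
  · have := a.2
    rw [decide_eq_decide] at this
    exact Prod.ext (eq_of_dvd hv ho.1.1 ho.1.2 ho'.1.1 ho'.1.2 a.1) (by have := ho.2; have := ho'.2; omega)
  · cases π
    · exact hu (Y, 0) ⟨⟨a, b⟩, by simp⟩
    · exact hu (Y, 1) ⟨⟨a, b⟩, by simp⟩
  · obtain ⟨a, b⟩ := p
    obtain ⟨c, X, h0, h1, rfl⟩ := exists_blk hv a
    obtain ⟨y, hy⟩ : ∃ y, b = 2 * y + 1 ∨ b = 2 * y := ⟨b / 2, by omega⟩
    have eu : up v o (16 * v * c + X, b) = (o.1 + y, o.2 + c) := by
      simp only [up, blk_div hv h0 h1, Prod.mk.injEq, and_true]; omega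
    have em := blk_mod (c := c) hv h0 h1
    unfold Own
    rw [eu]
    dsimp only
    rw [em]
    rcases hy with rfl | rfl
    · rw [M_all hv hc o c y]
      have hE := M_E hv hc (c := c) (y := y) (P := (o.1 + y, o.2 + c)) h0 h1
      rcases h0.eq_or_lt with rfl | h0
      · exact m.weaken hE fun τ _ q => ⟨fun _ => q, fun h => absurd rfl h⟩
      · refine R_pc hv hc h0 h1 (m.le_and hE (M_N hv hc h0 h1)) fun τ p q => ⟨fun _ => q.1, fun _ => ?_⟩
        rw [p.N, q.2, ownV, if_pos (by omega : (2 * y + 1) % 2 = 1), upOf, em]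
    · rcases h0.eq_or_lt with rfl | h0
      · exact (m.le_z _ _).trans ((m.top _).ge.trans (m.mono _ fun τ _ _ => ⟨fun h => by omega, fun h => absurd rfl h⟩))
      · rw [M_all hv hc o c (y - 1)]
        have hN := M_N hv hc (c := c) (y := y - 1) (Y := o.1 + (y - 1)) (π := decide ((o.2 + c) % 2 = 1)) h0 h1
        rw [R_up0 hv hc h0 h1 fun u => u = if X = mk v (o.1 + (y - 1)) then some ⟨f4 ((o.1 + (y - 1)) / (8 * v)),
          decide ((o.2 + c) % 2 = 1), decide ((o.1 + (y - 1) + 1) % (32 * v) = 0)⟩ else none, sub_add_cancel] at hN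
        refine m.with (hw_fact hv hc h0 h1) hN fun τ _ g q => ⟨fun h => by omega, fun _ => ?_⟩
        rw [g.2, q, ownV, if_neg (by omega : ¬ 2 * y % 2 = 1), upOf, em, add_sub_assoc]

end Crest.Agent.R189.B2
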