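import Crest.Agent.R189.B2.Dec
import Crest.Agent.R189.B2.Arith8

/-! Row 189, B2: Q1, part a: one-cell facts and transport along a row (helper8) -/

set_option autoImplicit false

namespace Crest.Agent.R189.B2

open COMP A8

def Col.st : Col → St
  | .long _ _ _ st _ _ => st
  | _ => .A
def Col.c : Col → Fin 4
  | .long _ _ _ _ c _ => c
  | _ => 0
def Col.par : Col → Bool
  | .long _ _ _ _ _ p => p
  | _ => false
def Col.up : Col → Option Up
  | .short _ u => u
  | _ => none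

/-- the transitions of a usable cell -/
def TrU (col c : Fin 4) (par : Bool) (st st' : St) (inn out : Option Up) : Prop :=
  (∃ γ, st = .B γ ∧ st' = .B γ ∧ inn = none ∧ out = none) ∨
  (∃ γ, st = .B γ ∧ st' = .S1 γ ∧ inn = some ⟨c, par, false⟩ ∧ out = none) ∨
  (∃ nw, st = .S1 (good col) ∧ st' = .A ∧ inn = none ∧ out = some ⟨c, par, nw⟩) ∨
  (st = .A ∧ st' = .A ∧ inn = none ∧ out = none) ∨
  (∃ c', st = .A ∧ st' = .S2 ∧ inn = some ⟨c', par, decide (c = 0)⟩ ∧ out = none ∧ c' + 1 = c)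

theorem trU_spec {col c : Fin 4} {par : Bool} {st st' : St} {inn out : Option Up}
    (h : trU col c par st st' inn out = true) : TrU col c par st st' inn out := by
  unfold TrU
  rcases inn with _ | ⟨a, b, d⟩ <;> rcases out with _ | ⟨a', b', d'⟩ <;> cases st <;> cases st' <;>
    simp_all [trU]

/-- a plain cell with class `(col, g)` -/
structure PC (g : Bool) (col : Fin 4) (τ : Tile) : Prop where
  c : τ.W.c = τ.E.c
  par : τ.W.par = τ.E.par
  N : τ.N = .short false τ.N.up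
  E : τ.E = .long false col g τ.E.st τ.E.c τ.E.par
  us : g = true → TrU col τ.E.c τ.E.par τ.W.st τ.E.st τ.S.up τ.N.up
  tp : g = false → τ.W.st = τ.E.st ∧ τ.S.up = none ∧ τ.N.up = none

theorem pc_of {τ : Tile} {g : Bool} {col : Fin 4} (h : plain τ.W τ.E τ.S τ.N = true)
    (hE : τ.E.tag = .long false col g) : PC g col τ := by
  obtain ⟨W, E, S, N⟩ := τ
  rcases W with ⟨a1, a2, a3, a4, a5, a6⟩ | _ <;> rcases E with ⟨_ | _, b2, b3, b4, b5, b6⟩ | _ <;>
    rcases S with _ | ⟨c1, c2⟩ <;> rcases N with _ | ⟨_ | _, d2⟩ <;> simp only [plain, Bool.false_eq_true] at h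
  simp only [Col.tag, Tag.long.injEq, true_and] at hE
  obtain ⟨rfl, rfl⟩ := hE
  simp only [Bool.and_eq_true, decide_eq_true_eq] at h
  obtain ⟨⟨rfl, rfl⟩, h⟩ := h
  refine ⟨rfl, rfl, rfl, rfl, fun hg => ?_, fun hg => ?_⟩
  · subst hg; exact trU_spec (by simpa [Col.st, Col.up, Col.c, Col.par] using h)
  · subst hg; simpa [Col.st, Col.up, and_assoc] using h

/-- a cell of the vertical wire -/
structure VW (τ : Tile) : Prop where
  c : τ.W.c = τ.E.c
  par : τ.E.par = !τ.W.par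
  E : τ.E = .long true 0 false τ.E.st τ.E.c τ.E.par
  st : (τ.W.st = .A ∧ ∃ γ, τ.E.st = .B γ) ∨ (τ.W.st = .S2 ∧ ∃ γ, τ.E.st = .S1 γ)

theorem vw_of {τ : Tile} (h : vwire τ.W τ.E τ.S τ.N = true) (hE : τ.E.tag = .long true 0 false) : VW τ := by
  obtain ⟨W, E, S, N⟩ := τ
  rcases W with ⟨_ | _, a2, a3, a4, a5, a6⟩ | _ <;> rcases E with ⟨_ | _, b2, b3, b4, b5, b6⟩ | _ <;>
    (try cases a4) <;> (try cases b4) <;> simp only [vwire, Bool.false_eq_true] at h <;>
    simp only [Col.tag, Tag.long.injEq, true_and] at hE <;> obtain ⟨rfl, rfl⟩ := hE <;>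
    simp only [Bool.and_eq_true, decide_eq_true_eq] at h <;> obtain ⟨⟨⟨-, rfl⟩, rfl⟩, -⟩ := h
  · exact ⟨rfl, rfl, rfl, .inl ⟨rfl, _, rfl⟩⟩
  · exact ⟨rfl, rfl, rfl, .inr ⟨rfl, _, rfl⟩⟩

theorem hw_of {τ : Tile} (h : hwire τ.W τ.E τ.S τ.N = true) : τ.S.up = τ.N.up ∧ τ.N = .short true τ.N.up := by
  obtain ⟨W, E, S, N⟩ := τ
  rcases S with _ | ⟨_ | _, _ | c2⟩ <;> rcases N with _ | ⟨_ | _, _ | d2⟩ <;>
    simp only [hwire, Bool.false_eq_true] at h
  · exact ⟨rfl, rfl⟩
  · simp only [Bool.and_eq_true, decide_eq_true_eq] at h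
    obtain ⟨⟨-, rfl⟩, -⟩ := h
    exact ⟨rfl, rfl⟩

variable {C : Type} [COMP C] {z : C} (m : QM C z) {v : ℤ}

/-- events of the own-row cell in column `X` of the block `(c, y)` -/
def QM.R (v c y X : ℤ) (A : Tile → Prop) : C := m.ev (16 * v * c + X, 2 * y + 1) A

theorem QM.R_glue (c y X : ℤ) (P : Col → Prop) :
    m.R v c y X (fun τ => P τ.E) = m.R v c y (X + 1) fun τ => P τ.W := by
  unfold QM.R; rw [m.glueH, add_assoc]

theorem QM.R_wrap (c y : ℤ) (A : Tile → Prop) : m.R v c y (16 * v) A = m.R v (c + 1) y 0 A := by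
  unfold QM.R; rw [mul_add, mul_one, add_zero]

theorem QM.with {u : C} {p : V} {A B G : Tile → Prop} (hG : z ≤ m.ev p G) (hu : u ≤ m.ev p A)
    (h : ∀ τ, τ.Valid → G τ → A τ → B τ) : u ≤ m.ev p B :=
  m.weaken (m.le_and ((hu.trans (m.le_z _ _)).trans hG) hu) fun τ hτ a => h τ hτ a.1 a.2

variable {m} (hv : 1 ≤ v) (hc : m.Canon v)
include hv hc

theorem R_pc {c y X : ℤ} (h0 : 0 < X) (h1 : X < 16 * v) {u : C} {A B : Tile → Prop} (hu : u ≤ m.R v c y X A)
    (h : ∀ τ, PC (usable v X) (f4 (X / (4 * v))) τ → A τ → B τ) : u ≤ m.R v c y X B := by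
  refine m.with (hc _) hu fun τ hτ hG => h τ ?_
  have e := blk_mod (c := c) hv h0.le h1
  have hE := hG.1 (by dsimp only; omega)
  have hN := hG.2 (by dsimp only; omega)
  dsimp only at hE hN
  rw [tagL, e, usable_blk, f4_blk hv, decide_eq_false (by omega)] at hE
  rw [decide_eq_false (by omega)] at hN
  exact pc_of (plain_of hτ hE hN) hE

theorem R_vw {c y : ℤ} {u : C} {A B : Tile → Prop} (hu : u ≤ m.R v c y 0 A)
    (h : ∀ τ, VW τ → A τ → B τ) : u ≤ m.R v c y 0 B := by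
  have hW : z ≤ m.R v c y 0 fun τ => τ.W.tag = tagL v (16 * v * (c - 1) + (16 * v - 1)) := by
    have h1 : z ≤ m.R v (c - 1) y (16 * v - 1) fun τ => τ.E.tag = tagL v (16 * v * (c - 1) + (16 * v - 1)) :=
      m.weaken (hc _) fun τ _ hG => hG.1 (by dsimp only; omega)
    rw [m.R_glue _ _ _ fun E => E.tag = tagL v (16 * v * (c - 1) + (16 * v - 1)), sub_add_cancel, m.R_wrap,
      sub_add_cancel] at h1
    exact h1
  refine m.with (m.le_and (hc _) hW) hu fun τ hτ hG => h τ ?_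
  have hE := hG.1.1 (by dsimp only; omega)
  have hW := hG.2
  dsimp only at hE
  rw [tagL, blk_mod hv (by omega) (by omega), decide_eq_false (by omega)] at hW
  rw [tagL, blk_mod hv le_rfl (by omega), usable_blk, f4_blk hv, decide_eq_true rfl, Int.zero_ediv,
    show usable v 0 = false by simp only [usable, Int.zero_emod, decide_eq_false_iff_not]; omega] at hE
  exact vw_of (vwire_of hτ hE hW) hE

theorem hw_fact {c y X : ℤ} (h0 : 0 < X) (h1 : X < 16 * v) :
    z ≤ m.ev (16 * v * c + X, 2 * y) fun τ => τ.S.up = τ.N.up ∧ τ.N = .short true τ.N.up := by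
  have e := blk_mod (c := c) hv h0.le h1
  have hS : z ≤ m.ev (16 * v * c + X, 2 * y) fun τ => τ.S.tag = .short false := by
    have h1 : z ≤ m.ev (16 * v * c + X, 2 * y - 1) fun τ => τ.N.tag = .short false :=
      m.weaken (hc _) fun τ _ hG => by
        have := hG.2 (by dsimp only; omega)
        dsimp only at this
        rwa [decide_eq_false (by omega)] at this
    rw [m.glueV _ fun N => N.tag = .short false] at h1
    simpa using h1
  refine m.weaken (m.le_and (hc _) hS) fun τ hτ hG => ?_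
  have hN := hG.1.2 (by dsimp only; omega)
  dsimp only at hN
  rw [decide_eq_true (by omega)] at hN
  exact hw_of (hwire_of hτ hN hG.2)

theorem R_up0 {c y X : ℤ} (h0 : 0 < X) (h1 : X < 16 * v) (P : Option Up → Prop) :
    m.R v c y X (fun τ => P τ.N.up) = m.ev (16 * v * c + X, 2 * (y + 1)) fun τ => P τ.N.up := by
  unfold QM.R
  rw [m.glueV _ fun N => P N.up, show 2 * y + 1 + 1 = 2 * (y + 1) by ring]
  exact le_antisymm (m.with (hw_fact hv hc h0 h1) le_rfl fun τ _ hG a => hG.1 ▸ a)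
    (m.with (hw_fact hv hc h0 h1) le_rfl fun τ _ hG a => hG.1 ▸ a)

theorem R_up {c y X : ℤ} (h0 : 0 < X) (h1 : X < 16 * v) (P : Option Up → Prop) :
    m.R v c y X (fun τ => P τ.N.up) = m.R v c (y + 1) X fun τ => P τ.S.up := by
  rw [R_up0 hv hc h0 h1, m.glueV _ fun N => P N.up]; rfl

omit hv hc in
theorem right_ind {c y a b : ℤ} {u : C} (Q : Col → Prop) (hab : a ≤ b)
    (h : ∀ X, a < X → X ≤ b → u ≤ m.R v c y X (fun τ => Q τ.W) → u ≤ m.R v c y X fun τ => Q τ.E)
    (ha : u ≤ m.R v c y a fun τ => Q τ.E) : u ≤ m.R v c y b fun τ => Q τ.E := by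
  induction b, hab using Int.le_induction with
  | base => exact ha
  | succ n hn ih =>
    refine h _ (by omega) le_rfl ?_
    rw [← m.R_glue]
    exact ih fun X h1 h2 => h X h1 (by omega)

omit hv hc in
theorem left_ind {c y a b : ℤ} {u : C} (Q : Col → Prop) (hab : a ≤ b)
    (h : ∀ X, a < X → X ≤ b → u ≤ m.R v c y X (fun τ => Q τ.E) → u ≤ m.R v c y X fun τ => Q τ.W)
    (hb : u ≤ m.R v c y b fun τ => Q τ.E) : u ≤ m.R v c y a fun τ => Q τ.E := by
  induction b, hab using Int.le_induction with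
  | base => exact hb
  | succ n hn ih =>
    refine ih (fun X h1 h2 => h X h1 (by omega)) ?_
    rw [m.R_glue]
    exact h _ (by omega) le_rfl hb

/-- transport of `(st, c, par)` to the right through transparent cells -/
theorem tp_right {c y a b : ℤ} {u : C} (Q : St → Fin 4 → Bool → Prop) (h0 : 0 ≤ a) (hab : a ≤ b) (h1 : b < 16 * v)
    (ht : ∀ X, a < X → X ≤ b → usable v X = false) (ha : u ≤ m.R v c y a fun τ => Q τ.E.st τ.E.c τ.E.par) :
    u ≤ m.R v c y b fun τ => Q τ.E.st τ.E.c τ.E.par :=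
  right_ind (fun E => Q E.st E.c E.par) hab (fun X a1 a2 hu => R_pc hv hc (by omega) (by omega) hu fun τ p q => by
    rwa [← p.c, ← p.par, ← (p.tp (ht X a1 a2)).1]) ha

theorem tp_left {c y a b : ℤ} {u : C} (Q : St → Fin 4 → Bool → Prop) (h0 : 0 ≤ a) (hab : a ≤ b) (h1 : b < 16 * v)
    (ht : ∀ X, a < X → X ≤ b → usable v X = false) (hb : u ≤ m.R v c y b fun τ => Q τ.E.st τ.E.c τ.E.par) :
    u ≤ m.R v c y a fun τ => Q τ.E.st τ.E.c τ.E.par :=
  left_ind (fun E => Q E.st E.c E.par) hab (fun X a1 a2 hu => R_pc hv hc (by omega) (by omega) hu fun τ p q => by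
    rwa [p.c, p.par, (p.tp (ht X a1 a2)).1]) hb

/-- `(c, par)` is constant along the row of a block -/
theorem cp_row {c y a b : ℤ} {u : C} (Q : Fin 4 → Bool → Prop) (a0 : 0 ≤ a) (a1 : a < 16 * v) (b0 : 0 ≤ b)
    (b1 : b < 16 * v) (ha : u ≤ m.R v c y a fun τ => Q τ.E.c τ.E.par) : u ≤ m.R v c y b fun τ => Q τ.E.c τ.E.par := by
  rcases le_total a b with h | h
  · exact right_ind (fun E => Q E.c E.par) h (fun X a1 a2 hu => R_pc hv hc (by omega) (by omega) hu fun τ p q => by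
      rwa [← p.c, ← p.par]) ha
  · exact left_ind (fun E => Q E.c E.par) h (fun X a1 a2 hu => R_pc hv hc (by omega) (by omega) hu fun τ p q => by
      rwa [p.c, p.par]) ha

end Crest.Agent.R189.B2
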