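import Crest.Agent.R189.B2.Q1a

/-! Row 189, B2: Q1, part b: marks in a row, vertical and horizontal steps (helper8) -/

set_option autoImplicit false

namespace Crest.Agent.R189.B2

open COMP A8

variable {C : Type} [COMP C] {z : C} {v : ℤ}

/-- a signal leaves the cell -/
def QM.Out (m : QM C z) (v c y X : ℤ) : C := m.R v c y X fun τ => τ.N.up ≠ none

/-- the block `(c, y)` has position `(Y, π)` -/
def QM.M (m : QM C z) (v c y Y : ℤ) (π : Bool) : C :=
  m.R v c y (B2.mk v Y) fun τ => ∃ nw, τ.N.up = some ⟨f4 (Y / (8 * v)), π, nw⟩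

variable {m : QM C z} (hv : 1 ≤ v) (hc : m.Canon v)

theorem PC.mark {g : Bool} {col : Fin 4} {τ : Tile} (p : PC g col τ) (h : τ.N.up ≠ none) :
    g = true ∧ τ.W.st = .S1 (good col) ∧ τ.E.st = .A ∧ τ.S.up = none ∧ ∃ nw, τ.N.up = some ⟨τ.E.c, τ.E.par, nw⟩ := by
  cases g
  · exact absurd (p.tp rfl).2.2 h
  · rcases p.us rfl with ⟨_, _, _, _, e⟩ | ⟨_, _, _, _, e⟩ | ⟨nw, a, b, c, e⟩ | ⟨_, _, _, e⟩ | ⟨_, _, _, _, e, _⟩
    exacts [absurd e h, absurd e h, ⟨rfl, a, b, c, nw, e⟩, absurd e h, absurd e h]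

theorem PC.as2 {g : Bool} {col : Fin 4} {τ : Tile} (p : PC g col τ) (h : τ.W.st = .A ∨ τ.W.st = .S2) :
    (τ.E.st = .A ∨ τ.E.st = .S2) ∧ τ.N.up = none := by
  cases g
  · have := p.tp rfl
    exact ⟨this.1 ▸ h, this.2.2⟩
  · rcases p.us rfl with ⟨_, a, _⟩ | ⟨_, a, _⟩ | ⟨_, a, _⟩ | ⟨_, b, _, e⟩ | ⟨_, _, b, _, e, _⟩
    · simp [a] at h
    · simp [a] at h
    · simp [a] at h
    · exact ⟨.inl b, e⟩
    · exact ⟨.inr b, e⟩

theorem M_le_Out (c y Y : ℤ) (π : Bool) : m.M v c y Y π ≤ m.Out v c y (mk v Y) :=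
  m.mono _ fun τ _ ⟨_, h⟩ => by simp [h]

theorem toW {c y X X' : ℤ} {u : C} (P : Col → Prop) (e : X + 1 = X') (h : u ≤ m.R v c y X fun τ => P τ.E) :
    u ≤ m.R v c y X' fun τ => P τ.W := e ▸ h.trans (m.R_glue c y X P).le

theorem toE {c y X X' : ℤ} {u : C} (P : Col → Prop) (e : X + 1 = X') (h : u ≤ m.R v c y X' fun τ => P τ.W) :
    u ≤ m.R v c y X fun τ => P τ.E := by subst e; exact h.trans (m.R_glue c y X P).ge

include hv hc

theorem out_orth_lt {c y X X' : ℤ} (h0 : 0 < X) (h : X < X') (h1 : X' < 16 * v) :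
    m.Out v c y X ≤ (m.Out v c y X')ᶜ := by
  have a1 : m.Out v c y X ≤ m.R v c y X fun τ => τ.E.st = .A ∨ τ.E.st = .S2 :=
    R_pc hv hc h0 (by omega) le_rfl fun τ p q => .inl (p.mark q).2.2.1
  have a2 := right_ind (b := X' - 1) (fun E => E.st = .A ∨ E.st = .S2) (by omega)
    (fun Z b1 b2 hu => R_pc hv hc (by omega) (by omega) hu fun τ p q => (p.as2 q).1) a1
  rw [m.R_glue _ _ _ fun E => E.st = .A ∨ E.st = .S2, sub_add_cancel] at a2
  have a3 : m.Out v c y X ≤ m.R v c y X' fun τ => τ.N.up = none :=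
    R_pc hv hc (by omega) h1 a2 fun τ p q => (p.as2 q).2
  exact m.orth a3 fun τ _ a b => b a

theorem out_orth {c y X X' : ℤ} (h0 : 0 < X) (h1 : X < 16 * v) (h0' : 0 < X') (h1' : X' < 16 * v) (h : X ≠ X') :
    m.Out v c y X ≤ (m.Out v c y X')ᶜ := by
  rcases lt_or_gt_of_ne h with h | h
  · exact out_orth_lt hv hc h0 h h1'
  · exact le_compl_comm.1 (out_orth_lt hv hc h0' h h1)

theorem out_cover {c y : ℤ} {u : C} (h : ∀ X, 0 < X → X < 16 * v → m.Out v c y X ≤ u) : z ≤ u := by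
  have a : ∀ X, 0 ≤ X → X < 16 * v → (m.R v c y X fun τ => τ.E.st = .A ∨ τ.E.st = .S2) ≤ u := by
    intro X hX
    induction X, hX using Int.le_induction with
    | base =>
      intro _
      have : (m.R v c y 0 fun τ => τ.E.st = .A ∨ τ.E.st = .S2) ≤ m.R v c y 0 fun _ => False :=
        R_vw hv hc le_rfl fun τ p q => by
          rcases p.st with ⟨_, _, e⟩ | ⟨_, _, e⟩ <;> simp [e] at q
      exact this.trans ((m.bot _).le.trans bot_le)
    | succ n hn ih =>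
      intro h1
      have : (m.R v c y (n + 1) fun τ => τ.E.st = .A ∨ τ.E.st = .S2) ≤
          m.R v c y (n + 1) fun τ => (τ.W.st = .A ∨ τ.W.st = .S2) ∨ τ.N.up ≠ none :=
        R_pc hv hc (by omega) h1 le_rfl fun τ p q => by
          cases hg : usable v (n + 1)
          · exact .inl ((p.tp hg).1 ▸ q)
          · rcases p.us hg with ⟨_, _, a, _⟩ | ⟨_, _, a, _⟩ | ⟨_, _, _, _, a⟩ | ⟨a, _⟩ | ⟨_, a, _⟩
            · simp [a] at q
            · simp [a] at q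
            · exact .inr (by simp [a])
            · exact .inl (.inl a)
            · exact .inl (.inl a)
      refine this.trans (m.or_le ?_ (h _ (by omega) h1))
      have e := m.R_glue (v := v) c y n fun E => E.st = .A ∨ E.st = .S2
      exact e.ge.trans (ih (by omega))
  have b : z ≤ m.R v (c + 1) y 0 fun τ => τ.W.st = .A ∨ τ.W.st = .S2 :=
    R_vw hv hc (A := fun _ => True) (m.top _).ge fun τ p _ => by
      rcases p.st with ⟨e, _⟩ | ⟨e, _⟩ <;> simp [e]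
  rw [← m.R_wrap] at b
  exact (toE (fun E => E.st = .A ∨ E.st = .S2) (sub_add_cancel _ 1) b).trans (a _ (by omega) (by omega))

theorem M_orth {c y Y Y' : ℤ} {π π' : Bool} (h : ¬ (32 * v ∣ Y - Y' ∧ π = π')) :
    m.M v c y Y π ≤ (m.M v c y Y' π')ᶜ := by
  have b := mk_bounds hv Y
  have b' := mk_bounds hv Y'
  by_cases e : mk v Y = mk v Y'
  · unfold QM.M
    rw [← e]
    refine m.orth le_rfl fun τ _ ⟨_, a⟩ ⟨_, a'⟩ => h ?_
    rw [a] at a'
    simp only [Option.some.injEq, Up.mk.injEq] at a'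
    exact ⟨dvd_of_mk hv e a'.1, a'.2.1⟩
  · exact (M_le_Out _ _ _ _).trans ((out_orth hv hc (by omega) (by omega) (by omega) (by omega) e).trans
      (compl_anti (M_le_Out _ _ _ _)))

theorem M_cover {c y : ℤ} {u : C} (h : ∀ Y π, 0 ≤ Y → Y < 32 * v → m.M v c y Y π ≤ u) : z ≤ u := by
  refine out_cover hv hc (c := c) (y := y) fun X h0 h1 => ?_
  have : m.Out v c y X ≤ m.R v c y X fun τ => ∃ i : Fin 4 × Bool, usable v X = true ∧ ∃ nw, τ.N.up = some ⟨i.1, i.2, nw⟩ :=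
    R_pc hv hc h0 h1 le_rfl fun τ p q => ⟨(_, _), (p.mark q).1, (p.mark q).2.2.2.2⟩
  refine this.trans (m.ex_le fun i => ?_)
  by_cases hu : usable v X = true
  · obtain ⟨Y, y0, y1, rfl, e⟩ := exists_mk hv h0.le h1 hu i.1
    exact (m.mono _ fun τ _ a => e ▸ a.2).trans (h Y i.2 y0 y1)
  · exact ((m.mono _ fun τ _ a => hu a.1).trans (m.bot _).le).trans bot_le

omit hc in
theorem gap {Y X : ℤ} (hY : (Y + 1) % (8 * v) ≠ 0) (h0 : mk v Y < X) (h1 : X < mk v (Y + 1)) : usable v X = false := by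
  have := mk_bounds hv Y; have := mk_bounds hv (Y + 1)
  rw [← Bool.not_eq_true, usable_iff hv (by omega) (by omega)]
  have := mk_cases hv Y; have := mk_cases hv (Y + 1); have := succ_cases hv Y; have := mod8_bounds hv Y
  omega

omit hc in
theorem mk_lt {Y : ℤ} (hY : (Y + 1) % (8 * v) ≠ 0) : mk v Y < mk v (Y + 1) := by
  have := mk_cases hv Y; have := mk_cases hv (Y + 1); have := succ_cases hv Y; have := mod8_bounds hv Y
  omega

omit hc in
theorem mk_wrap {Y : ℤ} (hY : (Y + 1) % (8 * v) = 0) : mk v Y = 15 * v - 1 ∧ mk v (Y + 1) = v := by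
  have := mk_cases hv Y; have := mk_cases hv (Y + 1); have := succ_cases hv Y; have := mod8_bounds hv Y
  omega

omit hc in
theorem tp_lo {X : ℤ} (h0 : 0 ≤ X) (h1 : X < v) : usable v X = false := by
  rw [← Bool.not_eq_true, usable_iff hv (by omega) (by omega)]; omega

omit hc in
theorem tp_hi {X : ℤ} (h0 : 15 * v - 1 < X) (h1 : X < 16 * v) : usable v X = false := by
  rw [← Bool.not_eq_true, usable_iff hv (by omega) (by omega)]; omega

/-- a signal arriving at a usable column which is not the last one starts `S1` -/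
theorem inn_mid {c y Y : ℤ} (hY : (Y + 1) % (8 * v) ≠ 0) {u : C} {A : Tile → Prop}
    (hu : u ≤ m.R v c y (mk v Y) fun τ => τ.S.up ≠ none ∧ A τ) :
    u ≤ m.R v c y (mk v Y) fun τ => ((∃ γ, τ.E.st = .S1 γ) ∧ τ.S.up = some ⟨τ.E.c, τ.E.par, false⟩) ∧ A τ := by
  have b := mk_bounds hv Y
  have b' := mk_bounds hv (Y + 1)
  have lt := mk_lt hv hY
  have h2 : (m.R v c y (mk v Y) fun τ => τ.E.st = .S2) = ⊥ := by
    have a1 := tp_right hv hc (fun st _ _ => st = .S2) (a := mk v Y) (b := mk v (Y + 1) - 1) (by omega) (by omega)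
      (by omega) (fun X x1 x2 => gap hv hY x1 (by omega)) (c := c) (y := y) le_rfl
    replace a1 := toW (fun E => E.st = .S2) (sub_add_cancel _ 1) a1
    have a2 : _ ≤ m.R v c y (mk v (Y + 1)) fun _ => False := R_pc hv hc (by omega) (by omega) a1 fun τ p q => by
      rcases p.us (usable_mk hv _) with ⟨_, a, _⟩ | ⟨_, a, _⟩ | ⟨_, a, _⟩ | ⟨a, _⟩ | ⟨_, a, _⟩ <;> simp [a] at q
    exact le_bot_iff.1 (a2.trans (m.bot _).le)
  have h3 : u ≤ m.R v c y (mk v Y) fun τ =>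
      (((∃ γ, τ.E.st = .S1 γ) ∧ τ.S.up = some ⟨τ.E.c, τ.E.par, false⟩) ∧ A τ) ∨ τ.E.st = .S2 :=
    R_pc hv hc (by omega) (by omega) hu fun τ p q => by
      rcases p.us (usable_mk hv _) with ⟨_, _, _, a, _⟩ | ⟨γ, _, a, b, _⟩ | ⟨_, _, _, a, _⟩ | ⟨_, _, a, _⟩ | ⟨_, _, a, _⟩
      exacts [absurd a q.1, .inl ⟨⟨⟨γ, a⟩, b⟩, q.2⟩, absurd a q.1, absurd a q.1, .inr a]
  exact h3.trans (m.or_le le_rfl (h2.le.trans bot_le))

/-- a signal arriving at the last usable column starts `S2` -/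
theorem inn_last {c y : ℤ} {u : C} {A : Tile → Prop}
    (hu : u ≤ m.R v c y (15 * v - 1) fun τ => τ.S.up ≠ none ∧ A τ) :
    u ≤ m.R v c y (15 * v - 1) fun τ =>
      (τ.E.st = .S2 ∧ ∃ c', τ.S.up = some ⟨c', τ.E.par, decide (τ.E.c = 0)⟩ ∧ c' + 1 = τ.E.c) ∧ A τ := by
  have us : usable v (15 * v - 1) = true := by rw [usable_iff hv (by omega) (by omega)]; omega
  have h2 : (m.R v c y (15 * v - 1) fun τ => ∃ γ, τ.E.st = .S1 γ) = ⊥ := by
    have a1 := tp_right hv hc (fun st _ _ => ∃ γ, st = .S1 γ) (a := 15 * v - 1) (b := 16 * v - 1) (by omega) (by omega)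
      (by omega) (fun X x1 x2 => tp_hi hv x1 (by omega)) (c := c) (y := y) le_rfl
    replace a1 := (toW (fun E => ∃ γ, E.st = .S1 γ) (sub_add_cancel _ 1) a1).trans (m.R_wrap _ _ _).le
    have a2 : _ ≤ m.R v (c + 1) y 0 fun _ => False := R_vw hv hc a1 fun τ p ⟨_, q⟩ => by
      rcases p.st with ⟨a, _⟩ | ⟨a, _⟩ <;> simp [a] at q
    exact le_bot_iff.1 (a2.trans (m.bot _).le)
  have h3 : u ≤ m.R v c y (15 * v - 1) fun τ =>
      ((τ.E.st = .S2 ∧ ∃ c', τ.S.up = some ⟨c', τ.E.par, decide (τ.E.c = 0)⟩ ∧ c' + 1 = τ.E.c) ∧ A τ) ∨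
        ∃ γ, τ.E.st = .S1 γ :=
    R_pc hv hc (by omega) (by omega) hu fun τ p q => by
      rcases p.us us with ⟨_, _, _, a, _⟩ | ⟨γ, _, a, b, _⟩ | ⟨_, _, _, a, _⟩ | ⟨_, _, a, _⟩ | ⟨c', _, a, b, _, d⟩
      exacts [absurd a q.1, .inr ⟨γ, a⟩, absurd a q.1, absurd a q.1, .inl ⟨⟨a, c', b, d⟩, q.2⟩]
  exact h3.trans (m.or_le le_rfl (h2.le.trans bot_le))

/-- a mark which is not in the first usable column comes from the previous usable column -/
theorem out_down {c y Y : ℤ} (hY : (Y + 1) % (8 * v) ≠ 0) :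
    m.Out v c (y + 1) (mk v (Y + 1)) ≤ m.Out v c y (mk v Y) := by
  have b := mk_bounds hv Y
  have b' := mk_bounds hv (Y + 1)
  have lt := mk_lt hv hY
  have a1 : m.Out v c (y + 1) (mk v (Y + 1)) ≤ m.R v c (y + 1) (mk v (Y + 1) - 1 + 1) fun τ => ∃ γ, τ.W.st = .S1 γ := by
    rw [sub_add_cancel]
    exact R_pc hv hc (by omega) (by omega) le_rfl fun τ p q => ⟨_, (p.mark q).2.1⟩
  rw [← m.R_glue _ _ _ fun E => ∃ γ, E.st = .S1 γ] at a1
  have a2 := tp_left hv hc (fun st _ _ => ∃ γ, st = .S1 γ) (a := mk v Y) (by omega) (by omega) (by omega)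
    (fun X x1 x2 => gap hv hY x1 (by omega)) a1
  unfold QM.Out
  rw [R_up hv hc (X := mk v Y) (by omega) (by omega) (· ≠ none)]
  exact R_pc hv hc (by omega) (by omega) a2 fun τ p ⟨_, q⟩ => by
    rcases p.us (usable_mk hv _) with ⟨_, _, a, _⟩ | ⟨γ, _, _, a, _⟩ | ⟨_, _, a, _⟩ | ⟨_, a, _⟩ | ⟨_, _, a, _⟩
    · simp [a] at q
    · simp [a]
    all_goals simp [a] at q

/-- in a wrap row the mark is in the first usable column -/
theorem wrap_row {c y : ℤ} {u : C} {col : Fin 4} {π : Bool}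
    (hu : u ≤ m.R v c (y + 1) (15 * v - 1) fun τ => τ.E.st = .S2 ∧ τ.E.c = col ∧ τ.E.par = π) :
    u ≤ m.R v c (y + 1) v fun τ => ∃ nw, τ.N.up = some ⟨col, π, nw⟩ := by
  have us : usable v (15 * v - 1) = true := by rw [usable_iff hv (by omega) (by omega)]; omega
  have hz : u ≤ z := hu.trans (m.le_z _ _)
  have a0 : u ≤ m.R v c (y + 1) (15 * v - 1) fun τ => τ.W.st = .A ∧ τ.S.up ≠ none :=
    R_pc hv hc (by omega) (by omega) hu fun τ p q => by
      rcases p.us us with ⟨_, _, a, _⟩ | ⟨γ, _, a, _⟩ | ⟨_, _, a, _⟩ | ⟨_, a, _⟩ | ⟨_, a, _, b, _⟩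
      · simp [a] at q
      · simp [a] at q
      · simp [a] at q
      · simp [a] at q
      · simp [a, b]
  have a1 : u ≤ m.Out v c y (15 * v - 1) := by
    unfold QM.Out
    rw [R_up hv hc (by omega) (by omega) (· ≠ none)]
    exact m.weaken a0 fun τ _ q => q.2
  have a2 : ∀ X, v < X → X < 16 * v → u ≤ m.R v c (y + 1) X fun τ => ¬ τ.N.up ≠ none := fun X x0 x1 => by
    by_cases hX : usable v X = true
    · obtain ⟨Y, -, -, rfl, -⟩ := exists_mk hv (by omega) x1 hX 0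
      have hY : (Y - 1 + 1) % (8 * v) ≠ 0 := fun e => by have := mk_wrap hv e; rw [sub_add_cancel] at this; omega
      have d := out_down hv hc (c := c) (y := y) hY
      have lt := mk_lt hv hY
      rw [sub_add_cancel] at d lt
      have b := mk_bounds hv Y
      have b' := mk_bounds hv (Y - 1)
      exact m.le_not hz (a1.trans ((out_orth hv hc (by omega) (by omega) (by omega) (by omega) (by omega)).trans
        (compl_anti d)))
    · exact R_pc hv hc (by omega) x1 (A := fun _ => True) (hz.trans (m.top _).ge) fun τ p _ q =>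
        q (p.tp (by simpa using hX)).2.2
  have a3 : u ≤ m.R v c (y + 1) (15 * v - 2) fun τ => τ.E.st = .A := by
    rw [m.R_glue _ _ _ fun E => E.st = .A, show 15 * v - 2 + 1 = 15 * v - 1 by ring]
    exact m.weaken a0 fun τ _ q => q.1
  have a4 := left_ind (a := v) (fun E => E.st = .A) (by omega) (fun X x0 x1 h =>
    R_pc hv hc (by omega) (by omega) (m.le_and h (a2 X x0 (by omega))) fun τ p q => by
      cases hg : usable v X
      · exact (p.tp hg).1.trans q.1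
      · rcases p.us hg with ⟨_, _, a, _⟩ | ⟨γ, _, a, _⟩ | ⟨_, _, _, _, a⟩ | ⟨a, _⟩ | ⟨_, a, _⟩
        · simp [a] at q
        · simp [a] at q
        · simp [a] at q
        · exact a
        · exact a) a3
  have a5 : (m.R v c (y + 1) v fun τ => τ.W.st = .A) = ⊥ := by
    rw [← sub_add_cancel v 1, ← m.R_glue _ _ _ fun E => E.st = .A, sub_add_cancel]
    have b1 := tp_left hv hc (fun st _ _ => st = .A) (a := 0) (b := v - 1) le_rfl (by omega) (by omega)
      (fun X x1 x2 => tp_lo hv x1.le (by omega)) (c := c) (y := y + 1) le_rfl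
    have b2 : _ ≤ m.R v c (y + 1) 0 fun _ => False := R_vw hv hc b1 fun τ p q => by
      rcases p.st with ⟨_, _, a⟩ | ⟨_, _, a⟩ <;> simp [a] at q
    exact le_bot_iff.1 (b2.trans (m.bot _).le)
  have a6 := cp_row hv hc (fun c' p' => c' = col ∧ p' = π) (a := 15 * v - 1) (b := v) (by omega) (by omega) (by omega)
    (by omega) (m.weaken hu fun τ _ q => q.2)
  have a7 : u ≤ m.R v c (y + 1) v fun τ => (∃ nw, τ.N.up = some ⟨col, π, nw⟩) ∨ τ.W.st = .A :=
    R_pc hv hc (by omega) (by omega) (m.le_and a4 a6) fun τ p q => by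
      obtain ⟨q1, rfl, rfl⟩ := q
      cases hg : usable v v
      · exact .inr ((p.tp hg).1.trans q1)
      · rcases p.us hg with ⟨_, _, a, _⟩ | ⟨γ, _, a, _⟩ | ⟨nw, _, _, _, a⟩ | ⟨a, _⟩ | ⟨_, a, _⟩
        · simp [a] at q1
        · simp [a] at q1
        · exact .inl ⟨nw, a⟩
        · exact .inr a
        · exact .inr a
  exact a7.trans (m.or_le le_rfl (a5.le.trans bot_le))

theorem M_up (c y Y : ℤ) (π : Bool) : m.M v c y Y π ≤ m.M v c (y + 1) (Y + 1) π := by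
  have b := mk_bounds hv Y
  have b' := mk_bounds hv (Y + 1)
  have a0 : m.M v c y Y π ≤ m.R v c (y + 1) (mk v Y) fun τ =>
      τ.S.up ≠ none ∧ ∃ nw, τ.S.up = some ⟨f4 (Y / (8 * v)), π, nw⟩ := by
    unfold QM.M
    rw [R_up hv hc (X := mk v Y) (by omega) (by omega) fun u => ∃ nw, u = some ⟨f4 (Y / (8 * v)), π, nw⟩]
    exact m.mono _ fun τ _ ⟨nw, q⟩ => ⟨by simp [q], nw, q⟩
  have sc := succ_cases hv Y
  have bd := mod8_bounds hv Y
  by_cases hY : (Y + 1) % (8 * v) = 0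
  · obtain ⟨e1, e2⟩ := mk_wrap hv hY
    have e3 : (Y + 1) / (8 * v) = Y / (8 * v) + 1 := by omega
    rw [e1] at a0
    unfold QM.M
    rw [e2, e3, f4_succ]
    refine wrap_row hv hc (m.weaken (inn_last hv hc a0) fun τ _ ⟨⟨q1, c', q2, q3⟩, nw, q4⟩ => ?_)
    rw [q2] at q4
    simp only [Option.some.injEq, Up.mk.injEq] at q4
    exact ⟨q1, by rw [← q3, q4.1], q4.2.1⟩
  · have e3 : (Y + 1) / (8 * v) = Y / (8 * v) := by omega
    have lt := mk_lt hv hY
    have a1 : m.M v c y Y π ≤ m.R v c (y + 1) (mk v Y) fun τ =>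
        (∃ γ, τ.E.st = .S1 γ) ∧ τ.E.c = f4 (Y / (8 * v)) ∧ τ.E.par = π :=
      m.weaken (inn_mid hv hc hY a0) fun τ _ ⟨⟨q1, q2⟩, nw, q4⟩ => by
        rw [q2] at q4
        simp only [Option.some.injEq, Up.mk.injEq] at q4
        exact ⟨q1, q4.1, q4.2.1⟩
    have a2 := tp_right hv hc (fun st c' p' => (∃ γ, st = .S1 γ) ∧ c' = f4 (Y / (8 * v)) ∧ p' = π)
      (b := mk v (Y + 1) - 1) (by omega) (by omega) (by omega) (fun X x1 x2 => gap hv hY x1 (by omega)) a1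
    rw [m.R_glue _ _ _ fun E => (∃ γ, E.st = .S1 γ) ∧ E.c = f4 (Y / (8 * v)) ∧ E.par = π, sub_add_cancel] at a2
    unfold QM.M
    rw [e3]
    exact R_pc hv hc (by omega) (by omega) a2 fun τ p ⟨⟨_, q1⟩, q2, q3⟩ => by
      rw [← q2, ← q3, p.c, p.par]
      rcases p.us (usable_mk hv _) with ⟨_, a, _⟩ | ⟨γ, a, _⟩ | ⟨nw, _, _, _, a⟩ | ⟨a, _⟩ | ⟨_, a, _⟩
      · simp [a] at q1
      · simp [a] at q1
      · exact ⟨nw, a⟩
      all_goals simp [a] at q1

theorem M_left0 (c y : ℤ) {Y : ℤ} (hY : Y % (8 * v) = 0) (π : Bool) :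
    m.M v (c + 1) y Y π ≤ m.M v c y Y !π := by
  have e := (mk_wrap hv (Y := Y - 1) (by rwa [sub_add_cancel])).2
  rw [sub_add_cancel] at e
  unfold QM.M
  rw [e]
  generalize f4 (Y / (8 * v)) = col
  have a1 : (m.R v (c + 1) y v fun τ => ∃ nw, τ.N.up = some ⟨col, π, nw⟩) ≤
      m.R v (c + 1) y (v - 1 + 1) fun τ => (∃ γ, τ.W.st = .S1 γ) ∧ τ.W.c = col ∧ τ.W.par = π := by
    rw [sub_add_cancel]
    refine R_pc hv hc (by omega) (by omega) le_rfl fun τ p ⟨nw, q⟩ => ?_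
    obtain ⟨-, q1, -, -, nw', q2⟩ := p.mark (by simp [q])
    rw [q2] at q
    simp only [Option.some.injEq, Up.mk.injEq] at q
    exact ⟨⟨_, q1⟩, p.c.trans q.1, p.par.trans q.2.1⟩
  rw [← m.R_glue _ _ _ fun E => (∃ γ, E.st = .S1 γ) ∧ E.c = col ∧ E.par = π] at a1
  have a2 := tp_left hv hc (fun st c' p' => (∃ γ, st = .S1 γ) ∧ c' = col ∧ p' = π) (a := 0) le_rfl (by omega)
    (by omega) (fun X x1 x2 => tp_lo hv x1.le (by omega)) a1
  have a3 : _ ≤ m.R v (c + 1) y 0 fun τ => τ.W.st = .S2 ∧ τ.W.c = col ∧ τ.W.par = !π :=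
    R_vw hv hc a2 fun τ p ⟨⟨_, q1⟩, q2, q3⟩ => by
      refine ⟨?_, p.c.trans q2, by rw [← q3, p.par, Bool.not_not]⟩
      rcases p.st with ⟨_, _, a⟩ | ⟨a, _⟩
      · simp [a] at q1
      · exact a
  replace a3 := toE (fun E => E.st = .S2 ∧ E.c = col ∧ E.par = !π) (sub_add_cancel _ 1) (a3.trans (m.R_wrap _ _ _).ge)
  have a4 := tp_left hv hc (fun st c' p' => st = .S2 ∧ c' = col ∧ p' = !π) (a := 15 * v - 1) (by omega) (by omega)
    (by omega) (fun X x1 x2 => tp_hi hv x1 (by omega)) a3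
  obtain ⟨y', rfl⟩ : ∃ y', y = y' + 1 := ⟨y - 1, by ring⟩
  exact wrap_row hv hc a4

end Crest.Agent.R189.B2
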