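import Crest.Agent.R189.B2.Dec
import Crest.Agent.R189.B2.QL

/-! Row 189, block B2, step Q3 (lemmas): the centres form a quantum configuration of the next level. -/

set_option autoImplicit false

namespace Crest.Agent.R189.B2

open COMP

variable {C : Type} [COMP C] {z : C}

theorem pcp4 {a b c d : C} (hab : Cp a b) (hac : Cp a c) (had : Cp a d) (hbc : Cp b c)
    (hbd : Cp b d) (hcd : Cp c d) : PCp ({a, b, c, d} : Set C) := by
  rintro u (rfl | rfl | rfl | rfl) v (rfl | rfl | rfl | rfl) <;>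
    first | exact cp_refl _ | assumption | (apply cp_symm; assumption)

namespace QM

variable (m : QM C z) {u t : C} {A B G : Tile → Prop}

theorem congr3 (p : V) (h : ∀ τ, τ.Valid → (A τ ↔ B τ)) : m.ev p A = m.ev p B :=
  le_antisymm (m.mono p fun τ hτ => (h τ hτ).1) (m.mono p fun τ hτ => (h τ hτ).2)

theorem and3 {p : V} (h1 : u ≤ m.ev p A) (h2 : u ≤ m.ev p B) :
    u ≤ m.ev p (fun τ => A τ ∧ B τ) := by
  rw [m.inf]; exact le_inf' (m.cp _ _ _) h1 h2

theorem weak3 {p : V} (h1 : u ≤ m.ev p A) (h : ∀ τ, τ.Valid → A τ → B τ) : u ≤ m.ev p B :=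
  h1.trans (m.mono p h)

theorem inf_congr3 {p : V} (hA : Cp t (m.ev p A)) (hB : Cp t (m.ev p B)) (hG : t ≤ m.ev p G)
    (h : ∀ τ, τ.Valid → G τ → (A τ ↔ B τ)) : t ⊓ m.ev p A = t ⊓ m.ev p B :=
  le_antisymm
    (le_inf' hB (inf_le_l hA) (m.weak3 (m.and3 ((inf_le_l hA).trans hG) (inf_le_r hA))
      fun τ hτ h' => (h τ hτ h'.1).1 h'.2))
    (le_inf' hA (inf_le_l hB) (m.weak3 (m.and3 ((inf_le_l hB).trans hG) (inf_le_r hB))
      fun τ hτ h' => (h τ hτ h'.1).2 h'.2))

theorem congr_z {p : V} (hG : z ≤ m.ev p G) (h : ∀ τ, τ.Valid → G τ → (A τ ↔ B τ)) :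
    m.ev p A = m.ev p B :=
  le_antisymm
    (m.weak3 (m.and3 ((m.le_z p A).trans hG) le_rfl) fun τ hτ h' => (h τ hτ h'.1).1 h'.2)
    (m.weak3 (m.and3 ((m.le_z p B).trans hG) le_rfl) fun τ hτ h' => (h τ hτ h'.1).2 h'.2)

/-- restriction to an element compatible with everything -/
noncomputable def restrict (t : C) (htz : t ≤ z) (h : ∀ p A, Cp t (m.ev p A)) : QM C t where
  ev p A := t ⊓ m.ev p A
  mono p _ _ hAB := le_inf' (h _ _) (inf_le_l (h _ _)) ((inf_le_r (h _ _)).trans (m.mono p hAB))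
  top p := by rw [m.top]; exact inf_of_le htz
  bot p := le_bot_iff.1 ((inf_le_r (h _ _)).trans (m.bot p).le)
  cp p A B := cp_inf (cp_of_le (inf_le_l (h p A)))
    (cp_symm (cp_inf (cp_symm (h p B)) (m.cp p B A) (h p A))) (h p B)
  inf p A B := by
    rw [m.inf]
    have hS := pcp4 (h p A) (h p B) (cp_of_le htz) (m.cp p A B) (cp_of_le (m.le_z p A))
      (cp_of_le (m.le_z p B))
    have ht : t ∈ hS.blk := Gen.of (by simp)
    have ha : m.ev p A ∈ hS.blk := Gen.of (by simp)
    have hb : m.ev p B ∈ hS.blk := Gen.of (by simp)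
    refine hS.blk.eq_of_pt (hS.blk.inf' ht (hS.blk.inf' ha hb))
      (hS.blk.inf' (hS.blk.inf' ht ha) (hS.blk.inf' ht hb)) fun o => ?_
    rw [o.inf ht (hS.blk.inf' ha hb), o.inf ha hb, o.inf (hS.blk.inf' ht ha) (hS.blk.inf' ht hb),
      o.inf ht ha, o.inf ht hb]
    tauto
  compl p A := by
    rw [m.compl]
    have hS := pcp4 (h p A) (h p A) (cp_of_le htz) (m.cp p A A) (cp_of_le (m.le_z p A))
      (cp_of_le (m.le_z p A))
    have ht : t ∈ hS.blk := Gen.of (by simp)
    have ha : m.ev p A ∈ hS.blk := Gen.of (by simp)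
    have hz : z ∈ hS.blk := Gen.of (by simp)
    refine hS.blk.eq_of_pt (hS.blk.inf' ht (hS.blk.inf' hz (hS.blk.compl' ha)))
      (hS.blk.inf' ht (hS.blk.compl' (hS.blk.inf' ht ha))) fun o => ?_
    rw [o.inf ht (hS.blk.inf' hz (hS.blk.compl' ha)), o.inf hz (hS.blk.compl' ha), o.compl ha,
      o.inf ht (hS.blk.compl' (hS.blk.inf' ht ha)), o.compl (hS.blk.inf' ht ha), o.inf ht ha]
    have := o.mono ht hz htz
    tauto
  glueH p P := by rw [m.glueH]
  glueV p P := by rw [m.glueV]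

end QM

/-! ### decoding of the wire cells -/

theorem dec_vwire {τ : Tile} (hτ : τ.Valid) {c c' : Fin 4} {g g' : Bool}
    (hE : τ.E.tag = .long true c g) (hW : τ.W.tag = .long false c' g') :
    vwire τ.W τ.E τ.S τ.N = true := by
  obtain ⟨W, E, S, N⟩ := τ
  cases W <;> cases E <;> simp only [Col.tag, Tag.long.injEq, reduceCtorEq] at hE hW
  obtain ⟨rfl, rfl, rfl⟩ := hE
  obtain ⟨rfl, rfl, rfl⟩ := hW
  rcases hτ with h | h
  · simp only [Tile.okH, Bool.or_eq_true] at h
    rcases h with (h | h) | h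
    · simp [plain] at h
    · exact h
    · unfold hwire at h
      split at h <;> simp at h
  · simp only [Tile.okH, Tile.tr, Bool.or_eq_true] at h
    rcases h with (h | h) | h
    · unfold plain at h
      split at h <;> simp_all
    · unfold vwire at h
      split at h <;> simp at h
    · unfold hwire at h
      split at h <;> simp_all

theorem dec_hwire {τ : Tile} (hτ : τ.Valid) (hN : τ.N.tag = .short true)
    (hS : τ.S.tag = .short false) : hwire τ.W τ.E τ.S τ.N = true := by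
  obtain ⟨W, E, S, N⟩ := τ
  cases S <;> cases N <;> simp only [Col.tag, Tag.short.injEq, reduceCtorEq] at hN hS
  subst hN hS
  rcases hτ with h | h
  · simp only [Tile.okH, Bool.or_eq_true] at h
    rcases h with (h | h) | h
    · unfold plain at h
      split at h <;> simp_all
    · unfold vwire at h
      split at h <;> simp at h
    · exact h
  · simp only [Tile.okH, Tile.tr, Bool.or_eq_true] at h
    rcases h with (h | h) | h
    · simp [plain] at h
    · simp [vwire] at h
    · unfold hwire at h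
      split at h <;> simp at h

theorem vwire_eq {W E S N : Col} (h : vwire W E S N = true) : S = N := by
  unfold vwire at h
  split at h <;> simp_all

theorem hwire_eq {W E S N : Col} (h : hwire W E S N = true) : W = E := by
  unfold hwire at h
  split at h <;> simp_all

theorem emod_pred_ne {n x : ℤ} (hn : 2 ≤ n) (hx : x % n = 0) : (x - 1) % n ≠ 0 := by
  intro h
  have h1 : n ∣ x := Int.dvd_of_emod_eq_zero hx
  have h2 : n ∣ x - 1 := Int.dvd_of_emod_eq_zero h
  have h3 : n ∣ 1 := by simpa using dvd_sub h1 h2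
  have := Int.le_of_dvd one_pos h3
  omega

namespace QM

variable (m : QM C z) {v : ℤ}

theorem glueW (p : V) (P : Col → Prop) :
    m.ev p (fun τ => P τ.W) = m.ev (p.1 - 1, p.2) (fun τ => P τ.E) := by
  rw [m.glueH]; simp

theorem glueS (p : V) (P : Col → Prop) :
    m.ev p (fun τ => P τ.S) = m.ev (p.1, p.2 - 1) (fun τ => P τ.N) := by
  rw [m.glueV]; simp

theorem isV (hv : 1 ≤ v) (hc : m.Canon v) {p : V} (h1 : p.1 % (16 * v) = 0) (h2 : p.2 % 2 = 1) :
    z ≤ m.ev p (fun τ => vwire τ.W τ.E τ.S τ.N = true) := by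
  have hW : z ≤ m.ev p (fun τ => τ.W.tag = tagL v (p.1 - 1)) := by
    rw [m.glueW p (fun c => c.tag = tagL v (p.1 - 1))]
    exact m.weak3 (hc _) fun τ _ h => h.1 h2
  refine m.weak3 (m.and3 (hc p) hW) fun τ hτ h => ?_
  have hE := h.1.1 h2
  have hW := h.2
  simp only [tagL, h1, decide_true, emod_pred_ne (by omega) h1, decide_false] at hE hW
  exact dec_vwire hτ hE hW

theorem isH (hc : m.Canon v) {p : V} (h1 : p.1 % (16 * v) ≠ 0) (h2 : p.2 % 2 = 0) :
    z ≤ m.ev p (fun τ => hwire τ.W τ.E τ.S τ.N = true) := by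
  have hS : z ≤ m.ev p (fun τ => τ.S.tag = .short false) := by
    rw [m.glueS p (fun c => c.tag = .short false)]
    refine m.weak3 (hc _) fun τ _ h => ?_
    have := h.2 h1
    have e : ¬ ((p.2 - 1) % 2 = 0) := by omega
    simpa [e] using this
  refine m.weak3 (m.and3 (hc p) hS) fun τ hτ h => dec_hwire hτ ?_ h.2
  simpa [h2] using h.1.2 h1

theorem passV (hv : 1 ≤ v) (hc : m.Canon v) {p : V} (h1 : p.1 % (16 * v) = 0) (h2 : p.2 % 2 = 1)
    (P : Col → Prop) : m.ev p (fun τ => P τ.S) = m.ev p (fun τ => P τ.N) :=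
  m.congr_z (m.isV hv hc h1 h2) fun τ _ h => by rw [vwire_eq h]

theorem passH (hc : m.Canon v) {p : V} (h1 : p.1 % (16 * v) ≠ 0) (h2 : p.2 % 2 = 0)
    (P : Col → Prop) : m.ev p (fun τ => P τ.W) = m.ev p (fun τ => P τ.E) :=
  m.congr_z (m.isH hc h1 h2) fun τ _ h => by rw [hwire_eq h]

/-- the horizontal wire is constant along a segment -/
theorem segH (hc : m.Canon v) {x y : ℤ} (hx : x % (16 * v) = 0) (hy : y % 2 = 0) (P : Col → Prop)
    (i : ℕ) (hi : (i : ℤ) < 16 * v) :
    m.ev (x + i, y) (fun τ => P τ.E) = m.ev (x, y) (fun τ => P τ.E) := by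
  induction i with
  | zero => simp
  | succ i ih =>
    have h1 : (x + ((i + 1 : ℕ) : ℤ)) % (16 * v) ≠ 0 := by
      rw [Int.add_emod, hx, zero_add, Int.emod_emod_of_dvd _ dvd_rfl,
        Int.emod_eq_of_lt (by omega) hi]
      omega
    rw [← m.passH hc (p := (x + ((i + 1 : ℕ) : ℤ), y)) h1 hy, m.glueW, ← ih (by omega)]
    congr 2
    push_cast; ring

theorem segH' (hc : m.Canon v) {x y i : ℤ} (hx : x % (16 * v) = 0) (hy : y % 2 = 0)
    (P : Col → Prop) (h0 : 0 ≤ i) (hi : i < 16 * v) :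
    m.ev (x + i, y) (fun τ => P τ.E) = m.ev (x, y) (fun τ => P τ.E) := by
  obtain ⟨n, rfl⟩ := Int.eq_ofNat_of_zero_le h0
  exact m.segH hc hx hy P n hi

/-- the centres, transposed -/
noncomputable def macroQ (hv : 1 ≤ v) (hc : m.Canon v) (o : V) : QM C z where
  ev P A := m.ev (ctr v o P) (fun τ => A τ.tr)
  mono P _ _ h := m.mono _ fun τ hτ => h _ hτ.tr
  top P := m.top _
  bot P := m.bot _
  cp P A B := m.cp _ _ _
  inf P A B := m.inf _ _ _
  compl P A := m.compl _ _
  glueH P Q := by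
    show m.ev _ (fun τ => Q τ.N) = m.ev _ (fun τ => Q τ.S)
    rw [m.glueV, m.passV hv hc (by simp [ctr]) (by simp only [ctr]; omega), m.glueV]
    congr 1
    simp only [ctr, Prod.mk.injEq, true_and]; ring
  glueV P Q := by
    show m.ev _ (fun τ => Q τ.E) = m.ev _ (fun τ => Q τ.W)
    rw [m.glueW]
    have := m.segH' hc (x := 16 * v * (P.2 - o.2)) (y := 2 * (P.1 - o.1)) (i := 16 * v - 1)
      (by simp) (by simp) Q (by omega) (by omega)
    rw [ctr, ← this]
    congr 1
    simp only [ctr, Prod.mk.injEq, and_true]; ring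

end QM

/-- below `t` all the own edges have their canonical colours -/
structure Own3 (m : QM C z) (v : ℤ) (o : V) (t : C) : Prop where
  H : ∀ p : V, p.2 % 2 = 1 → t ≤ m.ev p (fun τ => τ.E = ownH v p.1 (up v o p))
  W : ∀ p : V, p.1 % (16 * v) ≠ 0 → t ≤ m.ev p (fun τ => τ.N = ownV v p.1 p.2 (up v o p))

theorem Own3.of_own {m : QM C z} {v : ℤ} {o : V} {t : C} (h : ∀ p, t ≤ m.ev p (Own v o p)) :
    Own3 m v o t :=
  ⟨fun p hp => m.weak3 (h p) fun _ _ h' => h'.1 hp, fun p hp => m.weak3 (h p) fun _ _ h' => h'.2 hp⟩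

theorem mk_bounds3 {v : ℤ} (hv : 1 ≤ v) (Y : ℤ) : v ≤ mk v Y ∧ mk v Y < 15 * v := by
  have h1 := Int.emod_nonneg Y (b := 8 * v) (by omega)
  have h2 := Int.emod_lt_of_pos Y (b := 8 * v) (by omega)
  have h3 := Int.emod_nonneg Y (b := 2 * v) (by omega)
  have h4 := Int.emod_lt_of_pos Y (b := 2 * v) (by omega)
  have h5 : 0 ≤ Y % (8 * v) / (2 * v) := Int.ediv_nonneg h1 (by omega)
  have h6 : Y % (8 * v) / (2 * v) < 4 := Int.ediv_lt_of_lt_mul (by omega) (by omega)
  unfold mk
  constructor <;> nlinarith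

theorem up_ctr_add {v : ℤ} (hv : 1 ≤ v) (o P : V) {i j : ℤ} (h0 : 0 ≤ i) (hi : i < 16 * v)
    (h0' : 0 ≤ j) (hj : j < 2) : up v o ((ctr v o P).1 + i, (ctr v o P).2 + j) = P := by
  have h1 : (16 * v * (P.2 - o.2) + i) / (16 * v) = P.2 - o.2 := by
    rw [add_comm, Int.add_mul_ediv_left _ _ (by omega), Int.ediv_eq_zero_of_lt h0 hi, zero_add]
  simp only [up, ctr, h1]
  ext <;> simp only <;> omega

theorem f4_eq_zero3 {i : ℤ} : f4 i = 0 ↔ i % 4 = 0 := by
  simp only [f4, Fin.ext_iff, Fin.val_zero]; omega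

theorem emod32 {v Y : ℤ} (hv : 1 ≤ v) (h : Y % (8 * v) = 0) :
    Y % (16 * (2 * v)) = 0 ↔ Y / (8 * v) % 4 = 0 := by
  obtain ⟨k, rfl⟩ := Int.dvd_of_emod_eq_zero h
  rw [Int.mul_ediv_cancel_left _ (by omega), ← Int.dvd_iff_emod_eq_zero,
    ← Int.dvd_iff_emod_eq_zero, show 16 * (2 * v) = 8 * v * 4 by ring]
  exact Int.mul_dvd_mul_iff_left (by omega)

/-- link 1: the vertical wire cell forces the tag of the long edge of the next level -/
theorem link_long {v x : ℤ} (hv : 1 ≤ v) (hx : x % (16 * v) = 0) {P : V} (hP : P.2 % 2 = 1)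
    {W S N : Col} (h : vwire W (ownH v x P) S N = true) : S.tag = tagL (2 * v) P.1 := by
  have hm := (mk_bounds3 hv (P.1 - 1)).1
  have e4 : 4 * (2 * v) = 8 * v := by ring
  by_cases hY : P.1 % (8 * v) = 0
  · have hs : stOf v 0 P.1 = .S1 false := by simp [stOf, hY]; omega
    have hu : usable (2 * v) P.1 = false := by simp only [usable, e4, hY]; simp; omega
    simp only [ownH, hx, hs, hP, decide_true] at h
    unfold vwire at h
    split at h
    · simp_all
    · rename_i h1 h2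
      simp only [Col.long.injEq, St.S1.injEq] at h2
      obtain ⟨-, -, -, rfl, rfl, rfl⟩ := h2
      simp only [Bool.and_eq_true, decide_eq_true_eq, Bool.not_true, Bool.false_or] at h
      obtain ⟨⟨⟨-, rfl⟩, -⟩, h⟩ := h
      rw [h, tagL, hu, e4]
      simp only [f4_eq_zero3, emod32 hv hY]
    · simp at h
  · have hs : stOf v 0 P.1 = .B (usable (2 * v) P.1) := by simp [stOf, hY]; omega
    have hn : ¬ P.1 % (16 * (2 * v)) = 0 := fun h' => hY (Int.emod_eq_zero_of_dvd
      (Dvd.dvd.trans ⟨4, by ring⟩ (Int.dvd_of_emod_eq_zero h')))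
    simp only [ownH, hx, hs, hP, decide_true] at h
    unfold vwire at h
    split at h
    · rename_i h1 h2
      simp only [Col.long.injEq, St.B.injEq] at h2
      obtain ⟨-, -, -, rfl, rfl, rfl⟩ := h2
      simp only [Bool.and_eq_true, decide_eq_true_eq, Bool.not_true, Bool.false_or] at h
      obtain ⟨⟨⟨-, rfl⟩, -⟩, h⟩ := h
      rw [h, tagL, e4]
      simp only [hn, decide_false]
    · simp_all
    · simp at h

/-- link 2: the crossing of the up signal forces the tag of the short edge of the next level -/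
theorem link_short {v X y : ℤ} {P : V} (hX : X % (16 * v) = mk v (P.1 - 1)) (hy : y % 2 = 0)
    (hP : P.1 % (16 * (2 * v)) ≠ 0) {W E S : Col} (h : hwire W E S (ownV v X y P) = true) :
    E.tag = .short (decide (P.2 % 2 = 0)) := by
  have hn : ¬ (P.1 % (32 * v) = 0) := by rwa [show 32 * v = 16 * (2 * v) by ring]
  have hy' : ¬ (y % 2 = 1) := by omega
  simp only [ownV, hy', if_false, upOf, hX, if_true, sub_add_cancel, hn, decide_false] at h
  unfold hwire at h
  split at h
  · simp_all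
  · rename_i h1 h2
    simp only [Col.short.injEq, Option.some.injEq, true_and] at h2
    subst h2
    simp only [Bool.and_eq_true, decide_eq_true_eq, Bool.or_eq_true] at h
    obtain ⟨⟨rfl, rfl⟩, h⟩ := h
    simp only [Bool.false_eq_true, false_or] at h
    rw [h]
    congr 1
    by_cases h2 : P.2 % 2 = 1
    · simp [h2]
    · have : P.2 % 2 = 0 := by omega
      simp [this]
  · simp at h

/-- below a phase the centres carry the canonical tags of the next level -/
theorem Own3.tags {m : QM C z} {v : ℤ} {o : V} {t : C} (h : Own3 m v o t) (hv : 1 ≤ v)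
    (hc : m.Canon v) (htz : t ≤ z) (P : V) :
    t ≤ m.ev (ctr v o P) (fun τ => TagOK (2 * v) P τ.tr) := by
  have hx : (ctr v o P).1 % (16 * v) = 0 := by simp [ctr]
  have hy : (ctr v o P).2 % 2 = 0 := by simp [ctr]
  have h1 : t ≤ m.ev (ctr v o P) (fun τ => P.2 % 2 = 1 → τ.N.tag = tagL (2 * v) P.1) := by
    by_cases hP : P.2 % 2 = 1
    · rw [m.glueV _ (fun c => P.2 % 2 = 1 → c.tag = tagL (2 * v) P.1)]
      have hy' : ((ctr v o P).2 + 1) % 2 = 1 := by omega
      have e := up_ctr_add hv o P (i := 0) (j := 1) le_rfl (by omega) (by omega) (by omega)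
      rw [add_zero] at e
      have hE := h.H ((ctr v o P).1, (ctr v o P).2 + 1) hy'
      rw [e] at hE
      refine m.weak3 (m.and3 hE (htz.trans (m.isV hv hc hx hy'))) fun τ _ hτ _ => ?_
      exact link_long hv hx hP (hτ.1 ▸ hτ.2)
    · exact htz.trans ((m.top _).ge.trans (m.mono _ fun _ _ _ h' => (hP h').elim))
  have h2 : t ≤ m.ev (ctr v o P)
      (fun τ => P.1 % (16 * (2 * v)) ≠ 0 → τ.E.tag = .short (decide (P.2 % 2 = 0))) := by
    by_cases hP : P.1 % (16 * (2 * v)) ≠ 0
    · obtain ⟨hm1, hm2⟩ := mk_bounds3 hv (P.1 - 1)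
      have hs := m.segH' hc (i := B2.mk v (P.1 - 1)) hx hy
        (fun c => P.1 % (16 * (2 * v)) ≠ 0 → c.tag = .short (decide (P.2 % 2 = 0)))
        (by omega) (by omega)
      rw [show ctr v o P = ((ctr v o P).1, (ctr v o P).2) from rfl, ← hs]
      have hX : ((ctr v o P).1 + B2.mk v (P.1 - 1)) % (16 * v) = B2.mk v (P.1 - 1) := by
        rw [Int.add_emod, hx, zero_add, Int.emod_emod_of_dvd _ dvd_rfl,
          Int.emod_eq_of_lt (by omega) (by omega)]
      have hX' : ((ctr v o P).1 + B2.mk v (P.1 - 1)) % (16 * v) ≠ 0 := by omega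
      have e := up_ctr_add hv o P (i := B2.mk v (P.1 - 1)) (j := 0) (by omega) (by omega) le_rfl
        (by omega)
      rw [add_zero] at e
      have hN := h.W ((ctr v o P).1 + B2.mk v (P.1 - 1), (ctr v o P).2) hX'
      rw [e] at hN
      refine m.weak3 (m.and3 hN (htz.trans (m.isH hc hX' hy))) fun τ _ hτ _ => ?_
      exact link_short hX hy hP (hτ.1 ▸ hτ.2)
    · exact htz.trans ((m.top _).ge.trans (m.mono _ fun _ _ _ h' => (hP h').elim))
  exact m.and3 h1 h2

/-- the quantum configuration of the next level below a phase -/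
noncomputable def QM.next (m : QM C z) {v : ℤ} (hv : 1 ≤ v) (hc : m.Canon v) (o : V) (t : C)
    (htz : t ≤ z) (hcp : ∀ p A, Cp t (m.ev p A)) : QM C t :=
  (m.macroQ hv hc o).restrict t htz fun _ _ => hcp _ _

theorem QM.next_ev (m : QM C z) {v : ℤ} (hv : 1 ≤ v) (hc : m.Canon v) (o : V) (t : C)
    (htz : t ≤ z) (hcp : ∀ p A, Cp t (m.ev p A)) (P : V) (A : Tile → Prop) :
    (m.next hv hc o t htz hcp).ev P A = t ⊓ m.ev (ctr v o P) (fun τ => A τ.tr) := rfl

theorem Own3.canon {m : QM C z} {v : ℤ} {o : V} {t : C} (h : Own3 m v o t) (hv : 1 ≤ v)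
    (hc : m.Canon v) (htz : t ≤ z) (hcp : ∀ p A, Cp t (m.ev p A)) :
    (m.next hv hc o t htz hcp).Canon (2 * v) := fun P =>
  le_inf' (hcp _ _) le_rfl (h.tags hv hc htz P)

/-- every cell is `ctr + (i, j)` -/
theorem eq_ctr_add {v : ℤ} (o p : V) :
    p = ((ctr v o (up v o p)).1 + p.1 % (16 * v), (ctr v o (up v o p)).2 + p.2 % 2) := by
  have := Int.mul_ediv_add_emod p.1 (16 * v)
  ext
  · simp only [ctr, up, add_sub_cancel_left]; omega
  · simp only [ctr, up, add_sub_cancel_left]; omega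

theorem QM.wireH (m : QM C z) {v : ℤ} (hv : 1 ≤ v) (hc : m.Canon v) (o p : V) (Q : Col → Prop)
    (hp : p.2 % 2 = 0) :
    m.ev p (fun τ => Q τ.E) = m.ev (ctr v o (up v o p)) (fun τ => Q τ.E) := by
  have hs := m.segH' hc (x := (ctr v o (up v o p)).1) (y := (ctr v o (up v o p)).2)
    (i := p.1 % (16 * v)) (by simp [ctr]) (by simp [ctr]) Q (Int.emod_nonneg _ (by omega))
    (Int.emod_lt_of_pos _ (by omega))
  have e := eq_ctr_add (v := v) o p
  rw [hp, add_zero] at e
  rw [← e] at hs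
  exact hs

theorem QM.wireV (m : QM C z) {v : ℤ} (hv : 1 ≤ v) (hc : m.Canon v) (o p : V) (Q : Col → Prop)
    (hp : p.1 % (16 * v) = 0) :
    m.ev p (fun τ => Q τ.N) = m.ev (ctr v o (up v o p)) (fun τ => Q τ.N) := by
  have e := eq_ctr_add (v := v) o p
  rw [hp, add_zero] at e
  rcases Int.emod_two_eq_zero_or_one p.2 with h | h
  · rw [h, add_zero] at e
    exact congrArg (fun q => m.ev q fun τ => Q τ.N) e
  · rw [← m.passV hv hc hp h, m.glueS]
    rw [h] at e
    congr 1
    ext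
    · have := congrArg Prod.fst e
      exact this
    · have := congrArg Prod.snd e
      simp only at this ⊢
      omega

end Crest.Agent.R189.B2
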