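import Crest.Agent.R189.Defs

/-!
# Row 189, block B2: the Wang tiles (helper8's system, see notes189/h8.md)

A level with parameter `v ≥ 1` groups its cells into blocks of `16 v` columns and `2` rows.  In a block, row `0` is the
horizontal wire, column `0` the vertical wire, the cell `(0,0)` (the *centre*) carries the transposed tile of the next
level (parameter `2 v`).  All other edges are *own* edges; their colours are the explicit functions `ownH`, `ownV` of the
position of the block in the next level.
-/

set_option autoImplicit false

namespace Crest.Agent.R189.B2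

/-- scan state on the own row: before / stair / after / wrap stair -/
inductive St
  | B (g : Bool) | S1 (g : Bool) | A | S2
  deriving DecidableEq, Fintype

/-- the up signal -/
structure Up where
  col : Fin 4
  par : Bool
  nw : Bool
  deriving DecidableEq, Fintype

/-- edge colours -/
inductive Col
  | long (wf : Bool) (col : Fin 4) (g : Bool) (st : St) (c : Fin 4) (par : Bool)
  | short (wf : Bool) (up : Option Up)
  deriving DecidableEq, Fintype

/-- the part of a colour that is forced by the level below -/
inductive Tag
  | long (wf : Bool) (col : Fin 4) (g : Bool)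
  | short (wf : Bool)
  deriving DecidableEq

def Col.tag : Col → Tag
  | .long wf col g _ _ _ => .long wf col g
  | .short wf _ => .short wf

@[ext] structure Tile where
  W : Col
  E : Col
  S : Col
  N : Col
  deriving DecidableEq, Fintype

/-- transposition -/
def Tile.tr (τ : Tile) : Tile := ⟨τ.S, τ.N, τ.W, τ.E⟩

@[simp] theorem Tile.tr_tr (τ : Tile) : τ.tr.tr = τ := rfl

def good (col : Fin 4) : Bool := col = 1 || col = 2

/-- transition of a usable cell of colour `col`: state in, state out, signal in (S), signal out (N) -/
def trU (col c : Fin 4) (par : Bool) : St → St → Option Up → Option Up → Bool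
  | .B γ, .B γ', none, none => γ = γ'
  | .B γ, .S1 γ', some u, none => γ = γ' && u.col = c && u.par = par && u.nw = false
  | .S1 γ, .A, none, some u => γ = good col && u.col = c && u.par = par
  | .A, .A, none, none => true
  | .A, .S2, some u, none => u.col + 1 = c && u.par = par && u.nw = decide (c = 0)
  | _, _, _, _ => false

/-- plain cell -/
def plain : Col → Col → Col → Col → Bool
  | .long _ _ _ st c par, .long false col g st' c' par', .short _ inn, .short false out =>
      c = c' && par = par' &&
        (if g then trU col c par st st' inn out else st = st' && inn = none && out = none)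
  | _, _, _, _ => false

/-- cell on the vertical wire (`S = N` is a colour of a higher level) -/
def vwire : Col → Col → Col → Col → Bool
  | .long false _ _ .A c par, .long true _ _ (.B γ) c' par', S, N =>
      S = N && c = c' && par' = !par && (!par' || S.tag = .long false c γ)
  | .long false _ _ .S2 c par, .long true _ _ (.S1 γ) c' par', S, N =>
      S = N && c = c' && par' = !par && (!par' || S.tag = .long (decide (c = 0)) c γ)
  | _, _, _, _ => false

/-- cell on the horizontal wire (`W = E` is a colour of a higher level) -/
def hwire : Col → Col → Col → Col → Bool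
  | W, E, .short false none, .short true none => W = E
  | W, E, .short false (some u), .short true (some u') =>
      W = E && u = u' && (u.nw || W.tag = .short (!u.par))
  | _, _, _, _ => false

def Tile.okH (τ : Tile) : Bool := plain τ.W τ.E τ.S τ.N || vwire τ.W τ.E τ.S τ.N || hwire τ.W τ.E τ.S τ.N

/-- the tile set -/
def Tile.Valid (τ : Tile) : Prop := τ.okH = true ∨ τ.tr.okH = true

instance : DecidablePred Tile.Valid := fun τ => inferInstanceAs (Decidable (τ.okH = true ∨ τ.tr.okH = true))

theorem Tile.Valid.tr {τ : Tile} (h : τ.Valid) : τ.tr.Valid := Or.symm h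

/-! ### canonical tags and own colours -/

/-- reduction of an integer mod 4 -/
def f4 (i : ℤ) : Fin 4 := ⟨(i % 4).toNat, by omega⟩

/-- usable column -/
def usable (v X : ℤ) : Bool := decide (v ≤ X % (4 * v) ∧ X % (4 * v) < 3 * v)

/-- tag of the E edge of a cell of the own row in column `X` -/
def tagL (v X : ℤ) : Tag := .long (decide (X % (16 * v) = 0)) (f4 (X / (4 * v))) (usable v X)

/-- the E and N edges of the cell `p` carry the canonical tags (if they are own edges) -/
def TagOK (v : ℤ) (p : V) (τ : Tile) : Prop :=
  (p.2 % 2 = 1 → τ.E.tag = tagL v p.1) ∧ (p.1 % (16 * v) ≠ 0 → τ.N.tag = .short (decide (p.2 % 2 = 0)))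

instance (v : ℤ) (p : V) : DecidablePred (TagOK v p) := fun _ => inferInstanceAs (Decidable (_ ∧ _))

/-- column of the mark of a block whose long coordinate in the next level is `Y` -/
def mk (v Y : ℤ) : ℤ := 4 * v * (Y % (8 * v) / (2 * v)) + v + Y % (2 * v)

/-- scan state on the E edge of column `X ∈ [0, 16 v)` -/
def stOf (v X Y : ℤ) : St :=
  if Y % (8 * v) = 0 then (if X < v then .S1 false else if X < 15 * v - 1 then .A else .S2)
  else if X < mk v (Y - 1) then .B (usable (2 * v) Y)
  else if X < mk v Y then .S1 (usable (2 * v) Y) else .A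

/-- colour of the E edge of the own-row cell in column `X` of a block at position `P` of the next level
(`P.1` long coordinate, matters mod `32 v`; `P.2` matters mod `2`) -/
def ownH (v X : ℤ) (P : V) : Col :=
  .long (decide (X % (16 * v) = 0)) (f4 (X / (4 * v))) (usable v X) (stOf v (X % (16 * v)) P.1)
    (f4 (P.1 / (8 * v))) (decide (P.2 % 2 = 1))

/-- signal on the N edge of the own-row cell in column `X` -/
def upOf (v X : ℤ) (P : V) : Option Up :=
  if X % (16 * v) = mk v P.1 then
    some ⟨f4 (P.1 / (8 * v)), decide (P.2 % 2 = 1), decide ((P.1 + 1) % (32 * v) = 0)⟩ else none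

/-- colour of the N edge of the cell in column `X ≢ 0`, row `y` (mod 2) of a block at position `P` -/
def ownV (v X y : ℤ) (P : V) : Col :=
  if y % 2 = 1 then .short false (upOf v X P) else .short true (upOf v X (P.1 - 1, P.2))

/-- the cell of the next level that contains `p` (transposed coordinates, offset `o`) -/
def up (v : ℤ) (o p : V) : V := (o.1 + p.2 / 2, o.2 + p.1 / (16 * v))

/-- the centre of the cell `P` of the next level -/
def ctr (v : ℤ) (o P : V) : V := (16 * v * (P.2 - o.2), 2 * (P.1 - o.1))

/-! ### classical configurations -/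

/-- valid tilings with canonical tags (grid aligned at the origin) -/
structure Canon (v : ℤ) (x : V → Tile) : Prop where
  valid : ∀ p, (x p).Valid
  glueH : ∀ p : V, (x p).E = (x (p.1 + 1, p.2)).W
  glueV : ∀ p : V, (x p).N = (x (p.1, p.2 + 1)).S
  tag : ∀ p, TagOK v p (x p)

/-- the configuration of the next level -/
def defl (v : ℤ) (o : V) (x : V → Tile) : V → Tile := fun P => (x (ctr v o P)).tr

/-- the edges of `x` in terms of the position `o` and the next level -/
structure Rel (v : ℤ) (o : V) (x y : V → Tile) : Prop where
  ownH : ∀ p : V, p.2 % 2 = 1 → (x p).E = ownH v p.1 (up v o p)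
  ownV : ∀ p : V, p.1 % (16 * v) ≠ 0 → (x p).N = ownV v p.1 p.2 (up v o p)
  wireH : ∀ p : V, p.2 % 2 = 0 → (x p).E = (y (up v o p)).N
  wireV : ∀ p : V, p.1 % (16 * v) = 0 → (x p).N = (y (up v o p)).E

/-- E colours of the inflation -/
def inflE (v : ℤ) (o : V) (y : V → Tile) (p : V) : Col :=
  if p.2 % 2 = 1 then ownH v p.1 (up v o p) else (y (up v o p)).N

/-- N colours of the inflation -/
def inflN (v : ℤ) (o : V) (y : V → Tile) (p : V) : Col :=
  if p.1 % (16 * v) = 0 then (y (up v o p)).E else ownV v p.1 p.2 (up v o p)

/-- inflation of a configuration of the next level -/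
def infl (v : ℤ) (o : V) (y : V → Tile) : V → Tile := fun p =>
  ⟨inflE v o y (p.1 - 1, p.2), inflE v o y p, inflN v o y (p.1, p.2 - 1), inflN v o y p⟩

/-! ### quantum configurations -/

/-- a tile-valued observable at every cell, below `z`, glued along the edges -/
structure QM (C : Type) [COMP C] (z : C) where
  ev : V → (Tile → Prop) → C
  mono : ∀ (p : V) {A B : Tile → Prop}, (∀ τ, τ.Valid → A τ → B τ) → ev p A ≤ ev p B
  top : ∀ p, ev p (fun _ => True) = z
  bot : ∀ p, ev p (fun _ => False) = ⊥
  cp : ∀ p A B, COMP.Cp (ev p A) (ev p B)
  inf : ∀ p A B, ev p (fun τ => A τ ∧ B τ) = ev p A ⊓ ev p B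
  compl : ∀ p A, ev p (fun τ => ¬ A τ) = z ⊓ (ev p A)ᶜ
  glueH : ∀ (p : V) (P : Col → Prop), ev p (fun τ => P τ.E) = ev (p.1 + 1, p.2) (fun τ => P τ.W)
  glueV : ∀ (p : V) (P : Col → Prop), ev p (fun τ => P τ.N) = ev (p.1, p.2 + 1) (fun τ => P τ.S)

/-- canonical tags hold with certainty -/
def QM.Canon {C : Type} [COMP C] {z : C} (m : QM C z) (v : ℤ) : Prop := ∀ p, z ≤ m.ev p (TagOK v p)

end Crest.Agent.R189.B2
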