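import Crest.Agent.R189.B2.Cell

/-! Row 189, block B2: the tile core of ZONE (the last transparent stretch of a block). -/

set_option autoImplicit false

namespace Crest.Agent.R189.B2

variable {v : ℤ}

/-- the data of a block row that the last stretch of columns sees -/
def dat (v : ℤ) (P : V) (τ : Tile) : Bool × Fin 4 × Col :=
  (decide (P.1 % (8 * v) = 0), f4 (P.1 / (8 * v)), τ.N)

/-- defect rows -/
def bad (d : Bool × Fin 4 × Col) : Prop := d.1 = true ∨ d.2.2 ≠ .short false none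

theorem mk_le (hv : 1 ≤ v) (Y : ℤ) : mk v Y ≤ 15 * v - 1 := by
  have := mk_cases hv Y
  omega

theorem stOf_zone (hv : 1 ≤ v) {X : ℤ} (hX : 15 * v - 1 ≤ X) (Y : ℤ) :
    stOf v X Y = if Y % (8 * v) = 0 then .S2 else .A := by
  have h1 := mk_le hv Y
  have h2 := mk_le hv (Y - 1)
  unfold stOf
  rw [if_neg (by omega : ¬ X < v), if_neg (by omega : ¬ X < 15 * v - 1),
    if_neg (by omega : ¬ X < mk v (Y - 1)), if_neg (by omega : ¬ X < mk v Y)]

theorem ownH_zone (hv : 1 ≤ v) {X X' : ℤ} {P P' : V} (hX : 15 * v - 1 ≤ X % (16 * v))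
    (h : X % (16 * v) = X' % (16 * v)) (h0 : P.1 % (8 * v) = 0 ↔ P'.1 % (8 * v) = 0)
    (h1 : f4 (P.1 / (8 * v)) = f4 (P'.1 / (8 * v))) (h2 : P.2 % 2 = P'.2 % 2) :
    ownH v X P = ownH v X' P' := by
  simp only [ownH, stOf_zone hv hX, stOf_zone hv (h ▸ hX), h0, h1, h2, f4_eq_iff.2 (mod16 hv h).2,
    usable_congr (mod16 hv h).1]
  rw [h]

theorem upOf_zone (hv : 1 ≤ v) {X : ℤ} (hX : 15 * v ≤ X % (16 * v)) (P : V) : upOf v X P = none := by
  have h1 := mk_le hv P.1
  unfold upOf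
  rw [if_neg (by omega)]

theorem ownV_zone (hv : 1 ≤ v) {X : ℤ} (hX : 15 * v ≤ X % (16 * v)) (y : ℤ) (P : V) :
    ownV v X y P = .short (decide (y % 2 = 0)) none := by
  unfold ownV
  rw [upOf_zone hv hX, upOf_zone hv hX]
  split_ifs with h
  · rw [decide_eq_false (by omega)]
  · rw [decide_eq_true (by omega)]

/-- (Z1) in the last stretch a cell only depends on `dat` -/
theorem cell_zone (hv : 1 ≤ v) {p p' P P' : V} {τ τ' : Tile} (hX : 15 * v ≤ p.1 % (16 * v))
    (h1 : p.1 % (16 * v) = p'.1 % (16 * v)) (h2 : p.2 % 2 = p'.2 % 2) (h3 : P.2 % 2 = P'.2 % 2)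
    (hd : dat v P τ = dat v P' τ') : cell v p P τ = cell v p' P' τ' := by
  simp only [dat, Prod.mk.injEq, decide_eq_decide] at hd
  obtain ⟨d0, d1, d2⟩ := hd
  have hX' : 15 * v ≤ p'.1 % (16 * v) := h1 ▸ hX
  have n0 : ¬ p.1 % (16 * v) = 0 := by omega
  have n0' : ¬ p'.1 % (16 * v) = 0 := by omega
  have hp := (pred_of_ne (by omega : 0 < 16 * v) n0).2
  simp only [cell, if_neg n0, if_neg n0', ownV_zone hv hX, ownV_zone hv hX', d2, h2,
    sub_mod_congr h2 1, ownH_zone hv (by omega) h1 d0 d1 h3,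
    ownH_zone hv (X := p.1 - 1) (by omega) (sub_mod_congr h1 1) d0 d1 h3]

/-- (Z2) `dat` repeats between two non-defect rows -/
theorem dat_succ (hv : 1 ≤ v) {P : V} {τ τ' : Tile} (h : ¬ bad (dat v P τ))
    (h' : ¬ bad (dat v (P.1 + 1, P.2) τ')) : dat v (P.1 + 1, P.2) τ' = dat v P τ := by
  simp only [bad, dat, not_or, not_not, decide_eq_true_eq] at h h'
  have := (pred_of_ne (by omega : 0 < 8 * v) h'.1).1
  rw [add_sub_cancel_right] at this
  simp only [dat, h.1, h'.1, h.2, h'.2, this]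

/-- a defect is a wrap row or the mark column of the next level -/
theorem bad_cases (hv : 1 ≤ v) {o' : V} {y z : V → Tile} (hr : Rel (2 * v) o' y z) {P : V} (hP : P.2 % 2 = 1)
    (h : bad (dat v P (y P))) : P.1 % (8 * v) = 0 ∨ P.1 % (32 * v) = mk (2 * v) (o'.1 + P.2 / 2) := by
  by_cases h0 : P.1 % (8 * v) = 0
  · exact Or.inl h0
  right
  simp only [bad, dat, decide_eq_true_eq, h0, false_or] at h
  have e : 16 * (2 * v) = 32 * v := by ring
  have h32 : P.1 % (16 * (2 * v)) ≠ 0 := fun h32 => h0 ((mod32_iff hv _).1 (e ▸ h32)).1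
  rw [hr.ownV P h32, ownV, if_pos hP, upOf] at h
  by_contra hne
  rw [if_neg (by rw [e]; exact hne)] at h
  exact h rfl

/-- (Z3) defects are at least `2 v` rows apart -/
theorem not_bad_add (hv : 1 ≤ v) {o' : V} {y z : V → Tile} (hr : Rel (2 * v) o' y z) {P : V} (hP : P.2 % 2 = 1)
    (h : bad (dat v P (y P))) {n : ℤ} (h0 : 0 < n) (h1 : n < 2 * v) :
    ¬ bad (dat v (P.1 + n, P.2) (y (P.1 + n, P.2))) := by
  intro h'
  have a := bad_cases hv hr hP h
  have b := bad_cases hv hr (P := (P.1 + n, P.2)) hP h'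
  simp only at b
  have hm := mk_cases (v := 2 * v) (by omega) (o'.1 + P.2 / 2)
  generalize mk (2 * v) (o'.1 + P.2 / 2) = m at *
  generalize (o'.1 + P.2 / 2) % (8 * (2 * v)) = r at *
  obtain ⟨j, s, j0, j3, s0, s1, e1, e2, -, -⟩ := quarter (by omega : 0 < 8 * v) P.1
  obtain ⟨j', s', j0', j3', s0', s1', e1', e2', -, -⟩ := quarter (by omega : 0 < 8 * v) (P.1 + n)
  rw [show 4 * (8 * v) = 32 * v by ring] at e1 e1'
  have e : (P.1 + n) % (32 * v) = (P.1 % (32 * v) + n) % (32 * v) := (Int.emod_add_emod _ _ _).symm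
  have hb := mod_bd (by omega : 0 < 32 * v) P.1
  have e3 : (P.1 + n) % (32 * v) = P.1 % (32 * v) + n ∨ (P.1 + n) % (32 * v) = P.1 % (32 * v) + n - 32 * v := by
    rw [e]
    by_cases hlt : P.1 % (32 * v) + n < 32 * v
    · exact Or.inl (Int.emod_eq_of_lt (by omega) hlt)
    · exact Or.inr (div_mod_of (q := 1) (by omega) (by omega) (by omega) (by omega)).2
  rw [e1, e1'] at e3
  rw [e1, e2] at a
  rw [e1', e2'] at b
  interval_cases j <;> interval_cases j' <;> omega

end Crest.Agent.R189.B2
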