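import Crest.Agent.R189.B2.ZoneG
import Crest.Agent.R189.B2.ZoneT
import Crest.Agent.R189.Basic

/-! Row 189, block B2: ZONE for a subshift tied to towers of deflations (helper40). -/

set_option autoImplicit false

namespace Crest.Agent.R189.B2.Z

variable {v : ℤ}

/-- ratio of the short and the long size -/
def rat (v : ℤ) (t : ℕ) : ℤ := if t % 2 = 0 then 2 ^ (t / 2) else 8 * v * 2 ^ (t / 2)

theorem sz_rat (t : ℕ) : (sz v t).2 = rat v t * (sz v t).1 := by
  induction t with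
  | zero => simp [sz, rat]
  | succ t ih =>
    simp only [sz, ih, rat]
    obtain ⟨k, rfl | rfl⟩ := Nat.even_or_odd' t
    · rw [if_neg (by omega), if_pos (by omega), show (2 * k + 1) / 2 = k by omega, show 2 * k / 2 = k by omega]
      ring
    · rw [if_pos (by omega), if_neg (by omega), show (2 * k + 1 + 1) / 2 = k + 1 by omega,
        show (2 * k + 1) / 2 = k by omega]
      ring

theorem sz_dvd_snd (t : ℕ) : (sz v t).1 ∣ (sz v t).2 := Dvd.intro_left _ (sz_rat t).symm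

theorem sz_snd_dvd (t : ℕ) : (sz v t).2 ∣ (sz v (t + 1)).1 := Dvd.intro_left _ rfl

theorem sz_fst_le {s t : ℕ} (h : s ≤ t) : (sz v s).1 ∣ (sz v t).1 := by
  induction t, h using Nat.le_induction with
  | base => rfl
  | succ t _ ih => exact ih.trans ((sz_dvd_snd t).trans (sz_snd_dvd t))

theorem exists_level (hv : 1 ≤ v) (b : Bool) (K M0 : ℕ) : ∃ t : ℕ, dir t = b ∧ (M0 : ℤ) < 2 * (sz v t).2 ∧
    (K : ℤ) < 2 * (v * 2 ^ t) ∧ K * (2 * (sz v t).2) < v * 2 ^ t * (sz v t).1 := by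
  obtain ⟨k, hk⟩ : ∃ k : ℕ, (8 * K + M0 : ℤ) < 2 ^ k := ⟨8 * K + M0, by
    exact_mod_cast Nat.lt_two_pow_self⟩
  have hK : (0 : ℤ) ≤ K := by positivity
  have hM : (0 : ℤ) ≤ M0 := by positivity
  generalize hq : (2 : ℤ) ^ k = q at hk
  have q1 : 1 ≤ q := by omega
  cases b
  · have hp := (sz_pos hv (2 * k + 1)).1
    have e1 : rat v (2 * k + 1) = 8 * v * q := by
      rw [rat, if_neg (by omega), show (2 * k + 1) / 2 = k by omega, hq]
    have e2 : (2 : ℤ) ^ (2 * k + 1) = 2 * q * q := by rw [← hq]; ring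
    refine ⟨2 * k + 1, by simp [dir], ?_⟩
    rw [sz_rat, e1, e2]
    generalize (sz v (2 * k + 1)).1 = L at hp
    have h1 : q ≤ v * q := by nlinarith
    have h2 : v * q ≤ v * q * L := by nlinarith
    have h3 : v * q ≤ v * q * q := by nlinarith
    have h4 : 0 < v * q * L := by omega
    refine ⟨by nlinarith, by nlinarith, by nlinarith⟩
  · have hp := (sz_pos hv (2 * k)).1
    have e1 : rat v (2 * k) = q := by rw [rat, if_pos (by omega), show 2 * k / 2 = k by omega, hq]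
    have e2 : (2 : ℤ) ^ (2 * k) = q * q := by rw [← hq]; ring
    refine ⟨2 * k, by simp [dir], ?_⟩
    rw [sz_rat, e1, e2]
    generalize (sz v (2 * k)).1 = L at hp
    have h1 : q ≤ q * L := by nlinarith
    have h2 : q ≤ q * q := by nlinarith
    have h3 : q * q ≤ v * (q * q) := by nlinarith
    have h4 : 0 < q * L := by omega
    have h5 : q * (q * L) ≤ v * (q * (q * L)) := by nlinarith
    refine ⟨by nlinarith, by nlinarith, by nlinarith⟩

/-- every point is, after a shift given by the phase, the base of a tower centred at the origin -/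
def Tied (X : SFT) (H : Hier X.Pt) (v : ℤ) : Prop :=
  (∀ s, (H.q s : ℤ) = (sz v (2 * s)).1) ∧ ∃ (tl : X.A → Tile) (enc : Tile → ℤ → ℤ → X.A),
    ∀ N : ℕ, ∃ s : ℕ, N ≤ s ∧ ∀ y : X.Pt, ∃ (b0 : V) (x : ℕ → V → Tile), Tow v N x ∧
      H.ph s y = ((b0.1 : ZMod (H.q s)), (b0.2 : ZMod (H.q s))) ∧ ∀ u : V, tl (y.1 u) = x 0 (b0 + u) ∧
        y.1 u = enc (x 0 (b0 + u)) ((b0 + u).1 % (16 * v)) ((b0 + u).2 % 2)

/-- the coordinate of the phase along the wall -/
def al {X : SFT} (H : Hier X.Pt) (b : Bool) (s : ℕ) (y : X.Pt) : ZMod (H.q s) :=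
  if b then (H.ph s y).2 else (H.ph s y).1

theorem al_vadd {X : SFT} (H : Hier X.Pt) (b : Bool) (s : ℕ) (y : X.Pt) (c : ℤ) :
    al H b s (xy b 0 c +ᵥ y) = al H b s y + c := by
  cases b <;> simp [al, H.ph_vadd, xy, add_comm]

theorem al_eq {X : SFT} {H : Hier X.Pt} {b : Bool} {s : ℕ} {y : X.Pt} {b0 : V}
    (h : H.ph s y = ((b0.1 : ZMod (H.q s)), (b0.2 : ZMod (H.q s)))) : al H b s y = ((tp b b0).2 : ℤ) := by
  cases b <;> simp [al, h, tp, xy]

theorem across_dvd {X : SFT} {H : Hier X.Pt} {b : Bool} {s : ℕ} {y : X.Pt} {b0 : V} (hy : y ∈ H.Y b)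
    (h : H.ph s y = ((b0.1 : ZMod (H.q s)), (b0.2 : ZMod (H.q s)))) : (H.q s : ℤ) ∣ (tp b b0).1 := by
  obtain ⟨j, hj⟩ := hy s
  rw [H.ph_vadd, h] at hj
  rw [← ZMod.intCast_zmod_eq_zero_iff_dvd]
  cases b
  · simpa [xy, tp] using congrArg Prod.snd hj
  · simpa [xy, tp] using congrArg Prod.fst hj

theorem zone_of_tied {X : SFT} {H : Hier X.Pt} (hv : 1 ≤ v) (h : Tied X H v) (b : Bool) : SFT.Zone H b := by
  classical
  obtain ⟨hq, tl, enc, h⟩ := h
  refine ⟨Fintype.card (Bool × Fin 4 × Col), fun K M0 => ?_⟩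
  obtain ⟨t, hb, hM0, hK, hKM⟩ := exists_level hv b K M0
  obtain ⟨s, hs, h⟩ := h (t + 3)
  have hp := sz_pos hv t
  have hw := lev_pos hv t
  obtain ⟨w, hwd⟩ : ∃ w, w = v * 2 ^ t := ⟨_, rfl⟩
  obtain ⟨L, hL⟩ : ∃ L, L = (sz v t).1 := ⟨_, rfl⟩
  obtain ⟨M, hM⟩ : ∃ M : ℕ, (M : ℤ) = 2 * (sz v t).2 := ⟨(2 * (sz v t).2).toNat, by omega⟩
  have s1 : sz v (t + 1) = ((M : ℤ), 16 * w * L) := by rw [hM, hwd, hL]; rfl
  have s2 : sz v (t + 2) = (2 * (16 * w * L), 32 * w * M) := by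
    rw [show sz v (t + 2) = (2 * (sz v (t + 1)).2, 16 * (v * 2 ^ (t + 1)) * (sz v (t + 1)).1) from rfl, s1,
      lev_succ, ← hwd]
    ext <;> simp only; ring
  have d1 : 2 * (16 * w * L) ∣ (H.q s : ℤ) := by
    rw [hq]; exact (congrArg Prod.fst s2).symm.dvd.trans (sz_fst_le (by omega))
  have d2 : 32 * w * M ∣ (H.q s : ℤ) := by
    rw [hq]
    exact (congrArg Prod.snd s2).symm.dvd.trans ((sz_snd_dvd _).trans (sz_fst_le (by omega)))
  have d3 : M ∣ H.q s := Int.natCast_dvd_natCast.1 ((Dvd.intro_left _ rfl).trans d2)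
  rw [← hM, ← hwd, ← hL] at hKM
  rw [← hM] at hM0
  rw [← hwd] at hK hw
  rw [← hL] at hp
  have M0' : (0 : ℤ) < M := by omega
  have wL : 0 < 16 * w * L := by have := hp.1; positivity
  have : NeZero (H.q s) := ⟨(H.q_pos s).ne'⟩
  let j : X.Pt → ZMod M := fun y => ZMod.castHom d3 (ZMod M) (al H b s y)
  let r : X.Pt → Bool × Fin 4 × Col := fun y =>
    (decide ((((al H b s y).val : ℤ) / M) % (8 * w) = 0), f4 ((((al H b s y).val : ℤ) / M) / (8 * w)),
      edge b (tl (y.1 (xy b (-1) 0))))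
  have lal : IsLocallyConstant (al H b s) :=
    (H.ph_lc s).comp fun z : ZMod (H.q s) × ZMod (H.q s) => if b then z.2 else z.1
  have lr : IsLocallyConstant r :=
    (lal.prodMk ((IsLocallyConstant.iff_continuous _).2 (SFT.continuous_val (xy b (-1) 0)))).comp
      fun z : ZMod (H.q s) × X.A => (decide (((z.1.val : ℤ) / M) % (8 * w) = 0),
        f4 (((z.1.val : ℤ) / M) / (8 * w)), edge b (tl z.2))
  -- the structure of a point at the wall
  have key : ∀ y ∈ H.Y b, j y = 0 → ∃ (b0 P : V) (x : ℕ → V → Tile), Tow v (t + 3) x ∧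
      (∀ u : V, y.1 u = enc (x 0 (b0 + u)) ((b0 + u).1 % (16 * v)) ((b0 + u).2 % 2)) ∧
      16 * w * L ∣ (tp b b0).1 ∧ (M : ℤ) ∣ (tp b b0).2 ∧ P.2 % 2 = 1 ∧
      (∀ i c : ℤ, -(16 * w * L) ≤ i → i < 0 → 0 ≤ c → c < M → upn v (t + 1) (b0 + xy b i c) = P) ∧
      ∀ n : ℤ, r (xy b 0 (n * M) +ᵥ y) = dat w (P.1 + n, P.2) (x (t + 1) (P.1 + n, P.2)) := by
    intro y hy hj
    obtain ⟨b0, x, hT, hph, hu⟩ := h y
    obtain ⟨m, hm⟩ := d1.trans (across_dvd hy hph)
    have hc : (M : ℤ) ∣ (tp b b0).2 := by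
      have : j y = ((tp b b0).2 : ℤ) := by simp only [j, al_eq hph, map_intCast]
      rw [← ZMod.intCast_zmod_eq_zero_iff_dvd, ← this, hj]
    obtain ⟨c0, hc0⟩ := hc
    have up1 : ∀ i c n : ℤ, -(16 * w * L) ≤ i → i < 0 → 0 ≤ c → c < M →
        upn v (t + 1) (b0 + xy b i (c + n * M)) = (c0 + n, 2 * m - 1) := by
      intro i c n h1 h2 h3 h4
      rw [upn_eq hv, dir_succ, hb, tp_not, tp_add, tp_xy, s1]
      simp only [Prod.fst_add, Prod.snd_add, hm, hc0]
      rw [(div_mod_of (q := c0 + n) (r := c) M0' h3 h4 (by ring)).1,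
        (div_mod_of (q := 2 * m - 1) (r := i + 16 * w * L) wL (by omega) (by omega) (by ring)).1]
    refine ⟨b0, (c0, 2 * m - 1), x, hT, fun u => (hu u).2, ⟨2 * m, by rw [hm]; ring⟩, ⟨c0, hc0⟩,
      by simp only; omega, fun i c h1 h2 h3 h4 => by simpa using up1 i c 0 h1 h2 h3 h4, fun n => ?_⟩
    have hA : 32 * w * M ∣ ((al H b s (xy b 0 (n * M) +ᵥ y)).val : ℤ) - (c0 + n) * M := by
      refine d2.trans ?_
      rw [← ZMod.intCast_zmod_eq_zero_iff_dvd, al_vadd, al_eq hph, hc0]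
      push_cast
      rw [ZMod.natCast_zmod_val]; ring
    have hA' := div_mod_congr M0' hA
    rw [Int.mul_ediv_cancel _ M0'.ne'] at hA'
    have he : edge b (tl ((xy b 0 (n * M) +ᵥ y).1 (xy b (-1) 0))) = (x (t + 1) (c0 + n, 2 * m - 1)).N := by
      have e : xy b (-1) 0 + xy b 0 (n * M) = xy b (-1) (0 + n * M) := by cases b <;> simp [xy]
      rw [SFT.vadd_val, e, (hu _).1, hT.wire hv b (t + 1) (by omega), up1 (-1) 0 n (by omega) (by omega)
        le_rfl M0', dir_succ, hb]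
      · cases b <;> rfl
      · rw [dir_succ, hb, s1, tp_add, tp_xy]
        have : (tp b (tp (!b) ((M : ℤ), 16 * w * L))).2 = M := by cases b <;> rfl
        rw [this]
        exact ⟨c0 + n, by simp only [Prod.snd_add, hc0]; ring⟩
    simp only [r, dat, he, (mod32 hw hA').1, f4_eq_iff.2 (mod32 hw hA').2]
  refine ⟨M, -(w * L), j, fun y => Fintype.equivFin _ (r y), fun y => bad (r y), by exact_mod_cast hM0,
    lal.comp _, lr.comp _, lr.comp bad, fun y _ c => by simp only [j, al_vadd, map_add, map_intCast], ?_, ?_, ?_⟩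
  · intro y hy y' hy' hj hj' hr i c i1 i2 c1 c2
    obtain ⟨b0, P, x, hT, hu, ⟨m, hm⟩, hc, hP, hup, hd⟩ := key y hy hj
    obtain ⟨b0', P', x', hT', hu', ⟨m', hm'⟩, hc', hP', hup', hd'⟩ := key y' hy' hj'
    have z : xy b 0 ((0 : ℤ) * M) = 0 := by cases b <;> simp [xy]
    have e := hd 0
    have e' := hd' 0
    rw [z, zero_vadd, add_zero] at e e'
    have hr' : dat w P (x (t + 1) P) = dat w P' (x' (t + 1) P') := by
      rw [← e, ← e']; exact (Fintype.equivFin _).injective hr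
    have wL' : 0 < w * L := by have := hp.1; positivity
    have i3 : -(16 * w * L) ≤ i := by nlinarith
    have i4 : i < 0 := by omega
    have cg : Cg v (t + 1) (b0 + xy b i c) (b0' + xy b i c) := by
      rw [cg_succ, hb, tp_add, tp_add, ← hwd, ← hL, ← hM]
      simp only [Prod.fst_add, Prod.snd_add, add_sub_add_right_eq_sub]
      exact ⟨dvd_sub ⟨m, hm⟩ ⟨m', hm'⟩, dvd_sub hc hc'⟩
    have dg := cg.digit hv
    have d0 := (cg.le (Nat.le_add_left 1 t)).digit hv
    simp only [upn, pow_zero, mul_one] at d0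
    rw [hu, hu', d0.1, d0.2]
    congr 1
    refine hT.loc hv hT' t (by omega) cg ?_
    rw [hT.eq_cell hv (by omega), hT'.eq_cell hv (by omega)]
    show cell _ _ (upn v (t + 1) _) (x (t + 1) (upn v (t + 1) _)) =
      cell _ _ (upn v (t + 1) _) (x' (t + 1) (upn v (t + 1) _))
    rw [hup i c i3 i4 c1 c2, hup' i c i3 i4 c1 c2, ← hwd]
    rw [← hwd] at dg
    refine cell_zone hw ?_ dg.1 dg.2 (hP.trans hP'.symm) hr'
    rw [upn_eq hv, hb, tp_add, tp_xy, ← hL]
    simp only [Prod.fst_add, hm]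
    have q1 : -w ≤ i / L := Int.le_ediv_of_mul_le hp.1 (by linarith)
    have q2 : i / L < 0 := Int.ediv_neg_of_neg_of_pos i4 hp.1
    rw [show 16 * w * L * m + i = i + 16 * w * m * L by ring, Int.add_mul_ediv_right _ _ hp.1.ne',
      (div_mod_of (q := m - 1) (r := i / L + 16 * w) (by omega) (by omega) (by omega) (by ring)).2]
    omega
  · intro y hy hj h0 h1
    obtain ⟨b0, P, x, hT, hu, -, -, hP, -, hd⟩ := key y hy hj
    have z : xy b 0 ((0 : ℤ) * M) = 0 := by cases b <;> simp [xy]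
    have e := hd 0
    have e' := hd 1
    rw [z, zero_vadd, add_zero] at e
    rw [one_mul] at e'
    simp only [e, e'] at h0 h1 ⊢
    rw [dat_succ hw h0 h1]
  · intro y hy hj h0 n n0 n1
    obtain ⟨b0, P, x, hT, hu, -, -, hP, -, hd⟩ := key y hy hj
    have z : xy b 0 ((0 : ℤ) * M) = 0 := by cases b <;> simp [xy]
    have e := hd 0
    rw [z, zero_vadd, add_zero] at e
    have hr := hT.rel (t + 1) (by omega)
    rw [lev_succ, ← hwd] at hr
    simp only [e, hd n] at h0 ⊢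
    exact not_bad_add hw hr hP h0 (by exact_mod_cast n0) (by omega)

end Crest.Agent.R189.B2.Z
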