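import Crest.Agent.R189.B2.Cell

/-! Row 189, block B2: finite towers of deflations centred at the origin (helper40). -/

set_option autoImplicit false

namespace Crest.Agent.R189.B2.Z

/-- a tower of deflations of height `N`, all centred at the origin -/
structure Tow (v : ℤ) (N : ℕ) (x : ℕ → V → Tile) : Prop where
  canon : ∀ t, t ≤ N → Canon (v * 2 ^ t) (x t)
  rel : ∀ t, t < N → Rel (v * 2 ^ t) 0 (x t) (x (t + 1))

/-- sizes of a level-`t` cell in its long (`.1`) and short (`.2`) direction -/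
def sz (v : ℤ) : ℕ → V
  | 0 => (1, 1)
  | t + 1 => (2 * (sz v t).2, 16 * (v * 2 ^ t) * (sz v t).1)

/-- `true` at even levels (long direction horizontal) -/
def dir (t : ℕ) : Bool := decide (t % 2 = 0)

theorem dir_succ (t : ℕ) : dir (t + 1) = !dir t := by
  unfold dir; rcases Nat.mod_two_eq_zero_or_one t with h | h <;> simp [Nat.add_mod, h]

theorem dir_two_mul (s : ℕ) : dir (2 * s) = true := by simp [dir]

/-- transposition at odd levels (an involution) -/
def tp (b : Bool) (p : V) : V := xy b p.1 p.2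

theorem tp_not (b : Bool) (p : V) : tp (!b) p = ((tp b p).2, (tp b p).1) := by cases b <;> rfl
theorem tp_xy (b : Bool) (i j : ℤ) : tp b (xy b i j) = (i, j) := by cases b <;> rfl
theorem tp_add (b : Bool) (p q : V) : tp b (p + q) = tp b p + tp b q := by cases b <;> rfl
theorem tp_sub (b : Bool) (p q : V) : tp b (p - q) = tp b p - tp b q := by cases b <;> rfl
@[simp] theorem tp_true (p : V) : tp true p = p := rfl

variable {v : ℤ}

theorem lev_pos (hv : 1 ≤ v) (t : ℕ) : 1 ≤ v * 2 ^ t := by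
  have : (1 : ℤ) ≤ 2 ^ t := one_le_pow₀ (by norm_num)
  nlinarith

theorem lev_succ (t : ℕ) : v * 2 ^ (t + 1) = 2 * (v * 2 ^ t) := by ring

theorem sz_pos (hv : 1 ≤ v) (t : ℕ) : 0 < (sz v t).1 ∧ 0 < (sz v t).2 := by
  induction t with
  | zero => simp [sz]
  | succ t ih =>
    have := lev_pos hv t
    simp only [sz]
    exact ⟨by omega, by have := ih.1; positivity⟩

/-- the level-`t` cell containing the base cell `p` -/
def upn (v : ℤ) : ℕ → V → V
  | 0, p => p
  | t + 1, p => up (v * 2 ^ t) 0 (upn v t p)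

theorem upn_eq (hv : 1 ≤ v) (t : ℕ) (p : V) :
    upn v t p = ((tp (dir t) p).1 / (sz v t).1, (tp (dir t) p).2 / (sz v t).2) := by
  induction t with
  | zero => simp [upn, sz, dir]
  | succ t ih =>
    have h1 := sz_pos hv t
    rw [upn, ih, dir_succ, tp_not, up]
    simp only [Prod.fst_zero, Prod.snd_zero, zero_add]
    rw [Int.ediv_ediv_of_nonneg h1.2.le, Int.ediv_ediv_of_nonneg h1.1.le]
    simp only [sz]
    rw [mul_comm (sz v t).2 2, mul_comm (sz v t).1]

/-- same position modulo the level-`t` lattice -/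
def Cg (v : ℤ) (t : ℕ) (p p' : V) : Prop :=
  (sz v t).1 ∣ (tp (dir t) p).1 - (tp (dir t) p').1 ∧ (sz v t).2 ∣ (tp (dir t) p).2 - (tp (dir t) p').2

variable {p p' : V}

theorem cg_succ {t : ℕ} : Cg v (t + 1) p p' ↔
    16 * (v * 2 ^ t) * (sz v t).1 ∣ (tp (dir t) p).1 - (tp (dir t) p').1 ∧
      2 * (sz v t).2 ∣ (tp (dir t) p).2 - (tp (dir t) p').2 := by
  simp only [Cg, dir_succ, tp_not, sz]
  exact and_comm

theorem Cg.pred {t : ℕ} (h : Cg v (t + 1) p p') : Cg v t p p' :=
  ⟨(Dvd.intro_left _ rfl).trans (cg_succ.1 h).1, (Dvd.intro_left _ rfl).trans (cg_succ.1 h).2⟩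

theorem Cg.le {s t : ℕ} (hst : s ≤ t) (h : Cg v t p p') : Cg v s p p' := by
  induction t, hst using Nat.le_induction with
  | base => exact h
  | succ t _ ih => exact ih h.pred

theorem div_mod_congr {n L A B : ℤ} (hL : 0 < L) (h : n * L ∣ A - B) : A / L % n = B / L % n := by
  obtain ⟨k, hk⟩ := h
  rw [show A = B + n * k * L by linarith, Int.add_mul_ediv_right _ _ hL.ne', Int.add_mul_emod_self_left]

/-- the digits at level `t` agree -/
theorem Cg.digit (hv : 1 ≤ v) {t : ℕ} (h : Cg v (t + 1) p p') :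
    (upn v t p).1 % (16 * (v * 2 ^ t)) = (upn v t p').1 % (16 * (v * 2 ^ t)) ∧
      (upn v t p).2 % 2 = (upn v t p').2 % 2 := by
  rw [upn_eq hv, upn_eq hv]
  exact ⟨div_mod_congr (sz_pos hv t).1 (cg_succ.1 h).1, div_mod_congr (sz_pos hv t).2 (cg_succ.1 h).2⟩

variable {N : ℕ} {x x' : ℕ → V → Tile}

theorem Tow.eq_cell (hv : 1 ≤ v) (T : Tow v N x) {t : ℕ} (ht : t < N) (P : V) :
    x t P = cell (v * 2 ^ t) P (up (v * 2 ^ t) 0 P) (x (t + 1) (up (v * 2 ^ t) 0 P)) :=
  (T.rel t ht).eq_cell (lev_pos hv t) (T.canon t ht.le) (by rw [← lev_succ]; exact T.canon (t + 1) ht) P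

/-- LOC: the base tile is determined by the position modulo level `t+1` and the tile of the level-`t` cell -/
theorem Tow.loc (hv : 1 ≤ v) (T : Tow v N x) (T' : Tow v N x') (t : ℕ) (hN : t ≤ N) (h : Cg v (t + 1) p p')
    (ht : x t (upn v t p) = x' t (upn v t p')) : x 0 p = x' 0 p' := by
  induction t with
  | zero => exact ht
  | succ t ih =>
    refine ih (by omega) h.pred ?_
    have d0 := h.pred.digit hv
    have d1 := h.digit hv
    rw [lev_succ, show 16 * (2 * (v * 2 ^ t)) = 32 * (v * 2 ^ t) by ring] at d1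
    rw [T.eq_cell hv hN, T'.eq_cell hv hN]
    show cell _ _ (upn v (t + 1) p) (x (t + 1) (upn v (t + 1) p)) =
      cell _ _ (upn v (t + 1) p') (x' (t + 1) (upn v (t + 1) p'))
    rw [ht]
    exact cell_congr (lev_pos hv t) d0.1 d0.2 d1.1 d1.2 _

/-- the edge in the direction `b` -/
def edge (b : Bool) (τ : Tile) : Col := if b then τ.E else τ.N

/-- an edge on a level-`t` line carries the colour of the corresponding edge of the level-`t` cell -/
theorem Tow.wire (hv : 1 ≤ v) (T : Tow v N x) (b : Bool) (t : ℕ) (hN : t ≤ N)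
    (h : (tp b (tp (dir t) (sz v t))).2 ∣ (tp b p).2) :
    edge b (x 0 p) = edge (b == dir t) (x t (upn v t p)) := by
  induction t with
  | zero => cases b <;> rfl
  | succ t ih =>
    have hp := sz_pos hv t
    have hl := lev_pos hv t
    have e := upn_eq hv t p
    rw [dir_succ] at h ⊢
    simp only [sz] at h
    cases b <;> cases hd : dir t <;> simp only [hd, tp, xy, Bool.not_true, Bool.not_false, if_true,
      Bool.false_eq_true, if_false] at h e ih ⊢
    · rw [ih (by omega) ((Dvd.intro_left _ rfl).trans h)]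
      refine (T.rel t hN).wireH (upn v t p) ?_
      obtain ⟨k, hk⟩ := h
      rw [e, hk, show 2 * (sz v t).2 * k = 2 * k * (sz v t).2 by ring, Int.mul_ediv_cancel _ hp.2.ne']
      simp
    · rw [ih (by omega) ((Dvd.intro_left _ rfl).trans h)]
      refine (T.rel t hN).wireV (upn v t p) ?_
      obtain ⟨k, hk⟩ := h
      rw [e, hk, show 16 * (v * 2 ^ t) * (sz v t).1 * k = 16 * (v * 2 ^ t) * k * (sz v t).1 by ring,
        Int.mul_ediv_cancel _ hp.1.ne']
      simp
    · rw [ih (by omega) ((Dvd.intro_left _ rfl).trans h)]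
      refine (T.rel t hN).wireV (upn v t p) ?_
      obtain ⟨k, hk⟩ := h
      rw [e, hk, show 16 * (v * 2 ^ t) * (sz v t).1 * k = 16 * (v * 2 ^ t) * k * (sz v t).1 by ring,
        Int.mul_ediv_cancel _ hp.1.ne']
      simp
    · rw [ih (by omega) ((Dvd.intro_left _ rfl).trans h)]
      refine (T.rel t hN).wireH (upn v t p) ?_
      obtain ⟨k, hk⟩ := h
      rw [e, hk, show 2 * (sz v t).2 * k = 2 * k * (sz v t).2 by ring, Int.mul_ediv_cancel _ hp.2.ne']
      simp

end Crest.Agent.R189.B2.Z
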